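import Vale.Agent.P240.R2.H945.SemiF

/-!
The statement M5b in terms of `Ap p M`, and the versions in which reversed words count once.
-/

set_option linter.all false

namespace Vale.Agent.P240.R2.H945

open Finsupp hiding cons
open Subgroup Vale.Agent.P240 Vale.Agent.P240.K

universe u v w

section
variable {G : Type u} [Group G] {p : ℕ}

/-- cycles in `𝒜ₚ(M)` and chains of subgroups of `M` -/
theorem Ap_iff (𝕜 : Type w) [Field 𝕜] (M : Subgroup G) (m : ℕ) :
    (∃ c : List (Ap p M) →₀ 𝕜, IsChain m c ∧ bd c = 0 ∧ c ≠ 0) ↔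
      ∃ c ∈ Sp 𝕜 (fun l : List (Subgroup G) => st (Ain p M) l ∧ l.length = m), bd c = 0 ∧ c ≠ 0 := by
  have h1 : (fun E : Ap p M => E.1.map M.subtype) '' (Set.univ : Set (Ap p M)) = Ain p M := by
    have h2 : (Subtype.val '' (Set.univ : Set (Ap p M))) = Ain p (⊤ : Subgroup M) := by
      ext E
      simp [Ain, ApS]
    have h3 := H275.Ain_map (p := p) M.subtype_injective (⊤ : Subgroup M)
    rw [← MonoidHom.range_eq_map, Subgroup.range_subtype] at h3
    rw [← h3, ← h2, Set.image_image]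
  have h4 : H275.TC 𝕜 (Ain p M) m ↔ H275.TC 𝕜 (Set.univ : Set (Ap p M)) m := by
    rw [← h1]
    refine H275.TC_image (f := fun E : Ap p M => E.1.map M.subtype) ?_ ?_
    · intro E _ E' _ h
      exact Subtype.ext (Subgroup.map_injective M.subtype_injective h)
    · intro E _ E' _
      exact Vale.Agent.P240.K.map_lt M.subtype_injective
  rw [H275.TC_official]
  exact h4.symm

/-- a top cycle gives a cycle in `𝒜ₚ(M)` -/
theorem Ap_of_top {𝕜 : Type w} [Field 𝕜] {M B : Subgroup G} {α : Ch 𝕜 (Subgroup G)}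
    {l : List (Subgroup G)} (h : TopCycle 𝕜 p M B α l) :
    ∃ c : List (Ap p M) →₀ 𝕜, IsChain l.length c ∧ bd c = 0 ∧ c ≠ 0 := by
  rw [Ap_iff]
  refine ⟨α, h.mem, h.cyc, fun h0 => h.ne ?_⟩
  rw [h0]
  rfl

end

section comb
variable {G : Type u} [Group G] {X : Type v} {p n : ℕ} {F : Finset (List X)} {e : List X → G}

/-- **M5b.** -/
theorem semi_Ap [hp : Fact p.Prime] [Finite G] [Fintype X] (hn : 2 ≤ n) (hc : AS.Comb p n F e)
    {N M : Subgroup G} {Y : Finset G} {Fy : G → Finset (List X)} (hd : SemiData p F e N M Y Fy)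
    (hcount : F.card < ∑ y ∈ Y, AS.t (Fy y)) :
    ∃ c : List (Ap p M) →₀ ℚ, IsChain n c ∧ bd c = 0 ∧ c ≠ 0 := by
  obtain ⟨y, hy, w, hw, α, l, h1, h2⟩ := top_of_semi hn hc hd hcount ℚ
  obtain ⟨c, hc⟩ := Ap_of_top h1
  rw [h2] at hc
  exact ⟨c, hc⟩

lemma pfx_reverse (w : List X) : H938.pfx w.reverse = ((H938.pfx w).map fun u =>
    (w.drop u.length).reverse).reverse := by
  induction w with
  | nil => rfl
  | cons x w ih =>
    by_cases h : w = []
    · subst h
      rfl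
    · rw [List.reverse_cons, H938.pfx_snoc _ _ (by simpa using h), ih, H938.pfx_cons x h,
        List.map_cons, List.reverse_cons, List.map_map]
      congr 1

/-- the chains of reversed words -/
lemma AL_rev {𝕜 : Type w} [Field 𝕜] {m : List X}
    (hrev : ∀ u v : List X, m = u ++ v → zpowers (e v.reverse) = zpowers (e u)) :
    H938.AL 𝕜 (H938.pre (fun w => zpowers (e w)) m.reverse) =
      H938.AL 𝕜 (H938.pre (fun w => zpowers (e w)) m) ∨
    H938.AL 𝕜 (H938.pre (fun w => zpowers (e w)) m.reverse) =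
      - H938.AL 𝕜 (H938.pre (fun w => zpowers (e w)) m) := by
  have h1 : H938.pre (fun w => zpowers (e w)) m.reverse =
      (H938.pre (fun w => zpowers (e w)) m).reverse := by
    rw [H938.pre, H938.pre, pfx_reverse, List.map_reverse, List.map_map]
    congr 1
    refine List.map_congr_left fun u hu => ?_
    obtain ⟨v, h2, -, -⟩ := H938.mem_pfx.1 hu
    show zpowers (e (m.drop u.length).reverse) = zpowers (e u)
    have h3 : m.drop u.length = v := by rw [h2, List.drop_left]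
    rw [h3]
    exact hrev u v h2
  rw [h1, ← AL_eq, ← AL_eq]
  exact AL_perm (List.reverse_perm _)

/-- **Top cycles from the elements of one coset**, with half as many obstructions. -/
theorem top_of_semi₂ [hp : Fact p.Prime] [Finite G] [Fintype X] (hn : 2 ≤ n) (hc : AS.Comb p n F e)
    (hrev : ∀ u v : List X, u ++ v ∈ F → zpowers (e v.reverse) = zpowers (e u))
    {N M : Subgroup G} {Y : Finset G} {Fy : G → Finset (List X)} (hd : SemiData p F e N M Y Fy)
    (hcount : F.card < 2 * ∑ y ∈ Y, AS.t (Fy y)) (𝕜 : Type w) [Field 𝕜] :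
    ∃ y ∈ Y, ∃ w ∈ Fy y, ∃ (α : Ch 𝕜 (Subgroup G)) (l : List (Subgroup G)),
      TopCycle 𝕜 p M (zpowers y ⊔ closure {z | ∃ u v, w = u ++ v ∧ z = e u}) α l ∧
        l.length = n := by
  have h1 := finrank_rev hn F hc.len hc.nodup
    (fun w hw => hc.perm w hw _ (List.reverse_perm w).symm)
    (fun m => H938.AL ℚ (H938.pre (fun w => zpowers (e w)) m))
    (fun m hm => AL_rev (𝕜 := ℚ) fun u v h => hrev u v (h ▸ hm))
  exact semi_aux hn hc hd le_rfl (by omega) 𝕜

/-- **M5b**, with half as many obstructions. -/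
theorem semi_Ap₂ [hp : Fact p.Prime] [Finite G] [Fintype X] (hn : 2 ≤ n) (hc : AS.Comb p n F e)
    (hrev : ∀ u v : List X, u ++ v ∈ F → zpowers (e v.reverse) = zpowers (e u))
    {N M : Subgroup G} {Y : Finset G} {Fy : G → Finset (List X)} (hd : SemiData p F e N M Y Fy)
    (hcount : F.card < 2 * ∑ y ∈ Y, AS.t (Fy y)) :
    ∃ c : List (Ap p M) →₀ ℚ, IsChain n c ∧ bd c = 0 ∧ c ≠ 0 := by
  obtain ⟨y, hy, w, hw, α, l, h1, h2⟩ := top_of_semi₂ hn hc hrev hd hcount ℚ
  obtain ⟨c, hc⟩ := Ap_of_top h1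
  rw [h2] at hc
  exact ⟨c, hc⟩

end comb

/-- 687's form, with a homomorphism `π` that is trivial on the `e u` and constant on `Y`, and a subgroup `M`
containing everything -/
theorem stmtM5b {p n : ℕ} [Fact p.Prime] {G : Type u} [Group G] [Finite G] {L : Type v} [Fintype L]
    (F : Finset (List L)) (e : List L → G) (hn : 2 ≤ n) (hc : AS.Comb p n F e) (Y : Finset G)
    (Fy : G → Finset (List L)) {C : Type w} [Group C] (π : G →* C) (c₀ : C) (hc₀ : c₀ ≠ 1)
    (M : Subgroup G) (heM : ∀ u v : List L, u ++ v ∈ F → e u ∈ M)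
    (he : ∀ u v : List L, u ++ v ∈ F → π (e u) = 1)
    (hY : ∀ y ∈ Y, π y = c₀ ∧ y ^ p = 1 ∧ y ∈ M ∧ Fy y ⊆ F ∧
      (∀ w ∈ Fy y, ∀ w', w.Perm w' → w' ∈ Fy y) ∧ ∀ u v : List L, u ++ v ∈ Fy y → e u * y = y * e u)
    (hcount : F.card < ∑ y ∈ Y, AS.t (Fy y)) :
    ∃ c : List (Ap p M) →₀ ℚ, IsChain n c ∧ bd c = 0 ∧ c ≠ 0 := by
  refine semi_Ap (N := π.ker ⊓ M) hn hc ⟨fun u v h => ⟨he u v h, heM u v h⟩, inf_le_right,
    fun y hy => (hY y hy).2.1, fun y hy => (hY y hy).2.2.1, fun y hy h => hc₀ ?_, ?_,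
    fun y hy => (hY y hy).2.2.2.1, fun y hy => (hY y hy).2.2.2.2.1,
    fun y hy => (hY y hy).2.2.2.2.2⟩ hcount
  · rw [← (hY y hy).1]
    exact h.1
  · intro y hy y' hy'
    refine ⟨?_, M.mul_mem (M.inv_mem (hY y hy).2.2.1) (hY y' hy').2.2.1⟩
    show π (y⁻¹ * y') = 1
    rw [map_mul, map_inv, (hY y hy).1, (hY y' hy').1, inv_mul_cancel]

end Vale.Agent.P240.R2.H945
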