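import Vale.Agent.P240.R2.H945.SemiD
import Vale.Agent.P240.R2.H939.Top

/-!
The `TopCycle` form of `semi_cycle'`, over any field.
-/

set_option linter.all false

namespace Vale.Agent.P240.R2.H945

open Finsupp hiding cons
open Subgroup Vale.Agent.P240.K

universe u v

section
variable {Γ : Type u} [Group Γ] {p : ℕ} [hp : Fact p.Prime] {N : Subgroup Γ}

lemma card_sup {F B : Subgroup Γ} (hFM : F ⊓ N = ⊥) (hB : B ≤ N ⊓ centralizer (F : Set Γ)) :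
    Nat.card (F ⊔ B : Subgroup Γ) = Nat.card F * Nat.card B := by
  rw [← Nat.card_prod]
  let f : F × B → (F ⊔ B : Subgroup Γ) := fun x =>
    ⟨x.1 * x.2, mul_mem (mem_sup_left x.1.2) (mem_sup_right x.2.2)⟩
  refine (Nat.card_congr (Equiv.ofBijective f ⟨?_, ?_⟩)).symm
  · rintro ⟨a, b⟩ ⟨a', b'⟩ h
    have h1 : (a : Γ) * b = a' * b' := congrArg Subtype.val h
    have h2 : (a' : Γ)⁻¹ * a = b' * (b : Γ)⁻¹ := by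
      rw [inv_mul_eq_iff_eq_mul, ← mul_assoc, ← h1, mul_inv_cancel_right]
    have h3 : (a' : Γ)⁻¹ * a ∈ F ⊓ N := by
      refine ⟨F.mul_mem (F.inv_mem a'.2) a.2, ?_⟩
      rw [h2]
      exact N.mul_mem (hB b'.2).1 (N.inv_mem (hB b.2).1)
    rw [hFM, Subgroup.mem_bot] at h3
    have h4 : (b' : Γ) * (b : Γ)⁻¹ = 1 := by rw [← h2, h3]
    rw [inv_mul_eq_one] at h3
    rw [mul_inv_eq_one] at h4
    exact Prod.ext (Subtype.ext h3.symm) (Subtype.ext h4.symm)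
  · rintro ⟨x, hx⟩
    obtain ⟨a, ha, b, hb, rfl⟩ := r3_mem_sup (hB.trans inf_le_right) hx
    exact ⟨(⟨a, ha⟩, ⟨b, hb⟩), rfl⟩

lemma card_zpowers' {φ : Γ} (hφ : φ ^ p = 1) (hN : φ ∉ N) : Nat.card (zpowers φ) = p := by
  rw [Nat.card_zpowers]
  refine orderOf_eq_prime hφ ?_
  rintro rfl
  exact hN N.one_mem

/-- a cycle whose lists have heads in a set of groups of order `p ^ m`, `m` the length, is a top cycle -/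
theorem topCycle_of_rat (𝕜 : Type v) [Field 𝕜] {H : Subgroup Γ} {m : ℕ} {T : Set (Subgroup Γ)}
    (hT : ∀ B ∈ T, Nat.card B = p ^ m) {c : Ch ℚ (Subgroup Γ)}
    (hc : c ∈ Sp ℚ (fun l => (st (Ain p H) l ∧ l.length = m) ∧ ∃ B ∈ T, l.head? = some B))
    (hb : bd c = 0) (hne : c ≠ 0) :
    ∃ B ∈ T, ∃ (α : Ch 𝕜 (Subgroup Γ)) (l : List (Subgroup Γ)), TopCycle 𝕜 p H B α l ∧
      l.length = m ∧ l.head? = some B := by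
  obtain ⟨w, hw, hbw, hnew⟩ := H939.exists_cycle_of_rat (𝕜 := 𝕜) hc hb hne
  obtain ⟨l, hl⟩ : ∃ l, w l ≠ 0 := by
    by_contra hcon
    push Not at hcon
    exact hnew (Finsupp.ext hcon)
  obtain ⟨⟨h1, h2⟩, B, hB, h3⟩ := (mem_Sp.1 hw) l (Finsupp.mem_support_iff.2 hl)
  refine ⟨B, hB, w, l, ⟨?_, hbw, hl, Or.inr ?_, ?_⟩, h2, h3⟩
  · exact Sp_mono (fun l' hl' => ⟨hl'.1.1, hl'.1.2.trans h2.symm⟩) hw
  · cases l with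
    | nil => simp at h3
    | cons x l =>
      have hx : x = B := by simpa using h3
      exact ⟨l, by rw [hx]⟩
  · rw [hT B hB, h2]

/-- `TopCycle` form of `semi_cycle'` -/
theorem semi_top (𝕜 : Type v) [Field 𝕜] {K : Subgroup Γ} {r : ℕ} (Φ : Finset Γ)
    (hNK : N ≤ K) (hΦK : ∀ φ ∈ Φ, φ ∈ K) (hΦp : ∀ φ ∈ Φ, φ ^ p = 1) (hΦN : ∀ φ ∈ Φ, φ ∉ N)
    (hΦc : ∀ φ ∈ Φ, ∀ ψ ∈ Φ, φ⁻¹ * ψ ∈ N)
    {W V : Type*} [AddCommGroup W] [Module ℚ W] [AddCommGroup V] [Module ℚ V] (b : W →ₗ[ℚ] V)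
    (mu : W →ₗ[ℚ] Ch ℚ (Subgroup Γ)) (S : Γ → Submodule ℚ W)
    (hfin : ∀ φ ∈ Φ, FiniteDimensional ℚ (S φ)) (M : Submodule ℚ (Ch ℚ (Subgroup Γ)))
    [FiniteDimensional ℚ M] (hM : ∀ φ ∈ Φ, ∀ z ∈ S φ, mu z ∈ M) (T : Γ → Set (Subgroup Γ))
    (hTN : ∀ φ ∈ Φ, ∀ B ∈ T φ, B ≤ N ⊓ centralizer (zpowers φ : Set Γ) ∧ Nat.card B = p ^ r)
    (hT : ∀ φ ∈ Φ, ∀ z ∈ S φ, mu z ∈ Sp ℚ (fun l => ∃ B ∈ T φ, l.head? = some B))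
    (hmem : ∀ φ ∈ Φ, ∀ z ∈ S φ, mu z ∈ Sp ℚ (fun l =>
      st (Ain p (N ⊓ centralizer (zpowers φ : Set Γ))) l ∧ l.length = r))
    (hbd : ∀ φ ∈ Φ, ∀ z ∈ S φ, bd (mu z) = 0)
    (hsep : ∀ φ ∈ Φ, ∀ z ∈ S φ, b z ≠ 0 → mu z ≠ 0)
    (hcount : Module.finrank ℚ M < ∑ φ ∈ Φ, Module.finrank ℚ ((S φ).map b)) :
    ∃ φ ∈ Φ, ∃ B ∈ T φ, ∃ (α : Ch 𝕜 (Subgroup Γ)) (l : List (Subgroup Γ)),
      TopCycle 𝕜 p K (zpowers φ ⊔ B) α l ∧ l.length = r + 1 := by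
  obtain ⟨c, hc, hb, hne⟩ := semi_cycle' Φ hNK hΦK hΦp hΦN hΦc b mu S hfin M hM T hT hmem hbd hsep
    hcount
  obtain ⟨B', ⟨φ, hφ, B, hB, rfl⟩, α, l, h1, h2, -⟩ := topCycle_of_rat (p := p) 𝕜 (H := K)
    (m := r + 1) (T := {B' | ∃ φ ∈ Φ, ∃ B ∈ T φ, B' = zpowers φ ⊔ B}) (by
      rintro _ ⟨φ, hφ, B, hB, rfl⟩
      rw [card_sup (inf_zpowers (hΦp φ hφ) (hΦN φ hφ)) (hTN φ hφ B hB).1,
        card_zpowers' (hΦp φ hφ) (hΦN φ hφ), (hTN φ hφ B hB).2, pow_succ, mul_comm])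
    (Sp_mono (fun l hl => ⟨hl.1, by
      obtain ⟨φ, hφ, B, hB, h⟩ := hl.2
      exact ⟨_, ⟨φ, hφ, B, hB, rfl⟩, h⟩⟩) hc) hb hne
  exact ⟨φ, hφ, B, hB, α, l, h1, h2⟩

end

end Vale.Agent.P240.R2.H945
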