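import Vale.Agent.P240.R2.H945.U4F
import Vale.Agent.P240.R2.H296.OFam2
import Vale.Agent.P240.R2.H401.D5

/-!
`TopFac` at the prime `2` for `PSU_4(q)`, `q` odd, `q ≥ 7`, from the theorems on the orthogonal groups
of dimension six.
-/

set_option autoImplicit false
set_option linter.all false

namespace Vale.Agent.P240.R2.H945.U4

open Matrix Vale.Agent.P240.R2.AS
open Vale.Agent.P240.R2.OF (OA POm dl)
open Vale.Agent.P240.R2.H487 (LocTopF TopFac)
open Vale.Agent.P240.R2.H401.D (fd POD StmtD DNum)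
open scoped Classical

universe u v w

/-- **`PSU_4(q)`, `q ≡ 1 mod 4`, `q ≥ 9`** -/
theorem topFac_one_of (hD : StmtD.{0, v, w}) {K : Type} [Field K] [Fintype K] [StarRing K] {q : ℕ}
    (𝕜 : Type w) [Field 𝕜] (hF : H986.E.Fld K q) (hq : q % 4 = 1) (h7 : 7 ≤ q) {L : Type v}
    [Group L] (hL : IsSimpleGroup L) (e : L ≃* AS.PSU K 4) : TopFac 𝕜 2 L := by
  obtain ⟨hc, h⟩ := psu4_one hF hq (simple_congr e hL)
  have ho : Odd (Nat.card (H281.fx K)) := by rw [hc]; exact hF.1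
  have hne : ringChar (H281.fx K) ≠ 2 := by
    intro h2
    have h3 := FiniteField.even_card_iff_char_two.mp h2
    rw [← Nat.card_eq_fintype_card] at h3
    rw [Nat.odd_iff] at ho
    omega
  obtain ⟨d, hd⟩ := FiniteField.exists_nonsquare hne
  obtain ⟨f⟩ := h d hd
  intro G _ _ M ⟨g⟩
  exact hD (H281.fx K) 5 d ⟨ho, by rw [hc]; exact h7, by decide, le_rfl, hd⟩ G M
    ⟨(((e.trans f).trans (OF.pomFd 5 d)).symm).trans g⟩ 𝕜

/-- **`PSU_4(q)`, `q ≥ 7` odd** -/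
theorem topFac_psu4 {K : Type} [Field K] [Fintype K] [StarRing K] {q : ℕ} (𝕜 : Type w) [Field 𝕜]
    (hF : H986.E.Fld K q) (h7 : 7 ≤ q) {L : Type v} [Group L] (hL : IsSimpleGroup L)
    (e : L ≃* AS.PSU K 4) : TopFac 𝕜 2 L := by
  have h1 := hF.1
  rw [Nat.odd_iff] at h1
  have h2 : q % 4 = 1 ∨ q % 4 = 3 := by omega
  rcases h2 with h2 | h2
  · exact topFac_one_of H401.D.stmtD 𝕜 hF h2 h7 hL e
  · exact topFac_three 𝕜 hF h2 h7 hL e

end Vale.Agent.P240.R2.H945.U4
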