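import Vale.Agent.P240.R2.H945.Shuf2

/-!
Top cycles from the elements of one coset: only `#F / n` obstructions.
-/

set_option linter.all false

namespace Vale.Agent.P240.R2.H945

open Finsupp hiding cons
open Subgroup Vale.Agent.P240 Vale.Agent.P240.K

universe u v w

section comb
variable {G : Type u} [Group G] {X : Type v} {p n : ℕ} {F : Finset (List X)} {e : List X → G}

/-- `e` does not depend on the order of the letters -/
lemma e_perm' (h : AS.Comb p n F e) {u u' : List X} (hp : u.Perm u') : ∀ a w : List X,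
    a ++ u ++ w ∈ F → e (a ++ u) = e (a ++ u') := by
  induction hp with
  | nil => intro a w _; rfl
  | @cons x l₁ l₂ _ ih =>
    intro a w hF
    have h1 := ih (a ++ [x]) w (by
      have e1 : a ++ [x] ++ l₁ ++ w = a ++ x :: l₁ ++ w := by simp
      rw [e1]; exact hF)
    simpa using h1
  | swap x y l =>
    intro a w hF
    have h1 : a ++ y :: x :: (l ++ w) ∈ F := by simpa using hF
    have h2 : a ++ x :: y :: (l ++ w) ∈ F :=
      h.perm _ h1 _ (List.Perm.append_left _ (List.Perm.swap _ _ _))
    exact h.plane a y x x y l w h1 h2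
  | trans h1 h2 ih1 ih2 =>
    intro a w hF
    rw [ih1 a w hF]
    refine ih2 a w (h.perm _ hF _ ?_)
    exact (List.Perm.append_left a h1).append_right w

lemma e_perm (h : AS.Comb p n F e) {u u' w : List X} (hF : u ++ w ∈ F) (hp : u.Perm u') :
    e u = e u' := by
  have := e_perm' h hp [] w (by simpa using hF)
  simpa using this

lemma sup_zpowers_mul (a b : G) : zpowers a ⊔ zpowers b = zpowers a ⊔ zpowers (a * b) ∧
    zpowers a ⊔ zpowers b = zpowers b ⊔ zpowers (a * b) := by
  have ha : ∀ x y : G, x ∈ zpowers x ⊔ zpowers y := fun x y =>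
    (le_sup_left : zpowers x ≤ _) (mem_zpowers x)
  have hb : ∀ x y : G, y ∈ zpowers x ⊔ zpowers y := fun x y =>
    (le_sup_right : zpowers y ≤ _) (mem_zpowers y)
  constructor
  · apply le_antisymm
    · refine sup_le le_sup_left ?_
      rw [zpowers_le]
      have := mul_mem (inv_mem (ha a (a * b))) (hb a (a * b))
      rwa [inv_mul_cancel_left] at this
    · refine sup_le le_sup_left ?_
      rw [zpowers_le]
      exact mul_mem (ha a b) (hb a b)
  · apply le_antisymm
    · refine sup_le ?_ le_sup_left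
      rw [zpowers_le]
      have := mul_mem (hb b (a * b)) (inv_mem (ha b (a * b)))
      rwa [mul_inv_cancel_right] at this
    · refine sup_le le_sup_right ?_
      rw [zpowers_le]
      exact mul_mem (ha a b) (hb a b)

/-- the points of the initial segments -/
lemma ptData (h : AS.Comb p n F e)
    (hrev : ∀ u v : List X, u ++ v ∈ F → zpowers (e v.reverse) = zpowers (e u))
    (hmul : ∀ u v w : List X, u ++ (v ++ w) ∈ F → e (u ++ v) = e u * e v) :
    PtData F (fun w => zpowers (e w)) where
  fperm := h.perm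
  perm := fun u u' v hF hp => by
    show zpowers (e u) = zpowers (e u')
    rw [e_perm h hF hp]
  compl := fun u v hF => by
    show zpowers (e u) = zpowers (e v)
    have h1 : v ++ u ∈ F := h.perm _ hF _ List.perm_append_comm
    rw [← hrev u v hF, e_perm h h1 (List.reverse_perm v).symm]
  line1 := fun s t v hF => by
    show zpowers (e s) ⊔ zpowers (e t) = zpowers (e s) ⊔ zpowers (e (s ++ t))
    rw [hmul s t v hF]
    exact (sup_zpowers_mul _ _).1
  line2 := fun s t v hF => by
    show zpowers (e s) ⊔ zpowers (e t) = zpowers (e t) ⊔ zpowers (e (s ++ t))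
    rw [hmul s t v hF]
    exact (sup_zpowers_mul _ _).2

/-- **The obstruction space** has dimension at most `#F / n`. -/
theorem finrank_span_n [Fintype X] (hn : 1 ≤ n) (hc : AS.Comb p n F e)
    (hrev : ∀ u v : List X, u ++ v ∈ F → zpowers (e v.reverse) = zpowers (e u))
    (hmul : ∀ u v w : List X, u ++ (v ++ w) ∈ F → e (u ++ v) = e u * e v) :
    n * Module.finrank ℚ (Submodule.span ℚ
      ((fun m => H938.AL ℚ (H938.pre (fun w => zpowers (e w)) m)) '' (F : Set (List X)))) ≤
      F.card := by
  have h1 := finrank_n (ptData hc hrev hmul) hn hc.len hc.nodup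
  have h2 : (fun m => H938.AL ℚ (H938.pre (fun w => zpowers (e w)) m))
      = (fun m => AL ℚ ((H938.pfx m).map (fun w => zpowers (e w)))) := by
    funext m
    rw [H938.pre, AL_eq]
  rw [h2]
  exact h1

/-- **Top cycles from the elements of one coset**, with `n` times fewer obstructions. -/
theorem top_of_semi_n [hp : Fact p.Prime] [Finite G] [Fintype X] (hn : 2 ≤ n)
    (hc : AS.Comb p n F e)
    (hrev : ∀ u v : List X, u ++ v ∈ F → zpowers (e v.reverse) = zpowers (e u))
    (hmul : ∀ u v w : List X, u ++ (v ++ w) ∈ F → e (u ++ v) = e u * e v)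
    {N M : Subgroup G} {Y : Finset G} {Fy : G → Finset (List X)} (hd : SemiData p F e N M Y Fy)
    (hcount : F.card < n * ∑ y ∈ Y, AS.t (Fy y)) (𝕜 : Type w) [Field 𝕜] :
    ∃ y ∈ Y, ∃ w ∈ Fy y, ∃ (α : Ch 𝕜 (Subgroup G)) (l : List (Subgroup G)),
      TopCycle 𝕜 p M (zpowers y ⊔ closure {z | ∃ u v, w = u ++ v ∧ z = e u}) α l ∧
        l.length = n := by
  have h1 := finrank_span_n (by omega) hc hrev hmul
  refine semi_aux hn hc hd le_rfl ?_ 𝕜
  exact lt_of_mul_lt_mul_left (h1.trans_lt hcount) (Nat.zero_le _)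

/-- **M5b**, with `n` times fewer obstructions. -/
theorem semi_Ap_n [hp : Fact p.Prime] [Finite G] [Fintype X] (hn : 2 ≤ n) (hc : AS.Comb p n F e)
    (hrev : ∀ u v : List X, u ++ v ∈ F → zpowers (e v.reverse) = zpowers (e u))
    (hmul : ∀ u v w : List X, u ++ (v ++ w) ∈ F → e (u ++ v) = e u * e v)
    {N M : Subgroup G} {Y : Finset G} {Fy : G → Finset (List X)} (hd : SemiData p F e N M Y Fy)
    (hcount : F.card < n * ∑ y ∈ Y, AS.t (Fy y)) :
    ∃ c : List (Ap p M) →₀ ℚ, IsChain n c ∧ bd c = 0 ∧ c ≠ 0 := by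
  obtain ⟨y, hy, w, hw, α, l, h1, h2⟩ := top_of_semi_n hn hc hrev hmul hd hcount ℚ
  obtain ⟨c, hc⟩ := Ap_of_top h1
  rw [h2] at hc
  exact ⟨c, hc⟩

end comb

end Vale.Agent.P240.R2.H945
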