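import Vale.Agent.P240.R2.H986.EDefs
import Vale.Agent.P240.R2.H281.H90b

/-!
EH: normal form of a diagonal cocycle under `star` for the even unitary line.
-/

set_option autoImplicit false
set_option linter.all false

namespace Vale.Agent.P240.R2.H945.EH

open Finset Matrix Vale.Agent.P240.R2.H986.E Vale.Agent.P240.R2.AS
open scoped Classical

universe u v

noncomputable section

section forms

variable {F : Type u} [Field F] [Fintype F] {ι : Type v} [Fintype ι] [DecidableEq ι]

/-- a diagonal form is isometric to `<1, ..., 1, disc>` -/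
theorem exists_disc (h2 : (2 : F) ≠ 0) (l : ι) (d : ι → F) (hd : ∀ i, d i ≠ 0) :
    ∃ M : Matrix ι ι F, Mᵀ * diagonal d * M =
      diagonal (fun i => if i = l then ∏ j, d j else 1) := by
  have key : ∀ s : Finset ι, l ∉ s → ∃ M : Matrix ι ι F, Mᵀ * diagonal d * M =
      diagonal (fun i => if i ∈ s then 1 else if i = l then d l * ∏ j ∈ s, d j else d i) := by
    intro s
    induction s using Finset.induction_on with
    | empty =>
      intro _
      refine ⟨1, ?_⟩
      rw [transpose_one, one_mul, mul_one]
      congr 1
      funext i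
      by_cases h : i = l
      · subst h; simp
      · simp [h]
    | insert i s his ih =>
      intro hl
      have hli : l ≠ i := fun h => hl (by rw [h]; exact Finset.mem_insert_self i s)
      have hls : l ∉ s := fun h => hl (Finset.mem_insert_of_mem h)
      obtain ⟨M, hM⟩ := ih hls
      set d1 : ι → F := fun k => if k ∈ s then 1 else if k = l then d l * ∏ j ∈ s, d j else d k
        with hd1
      have e1 : d1 i = d i := by
        rw [hd1]; simp only; rw [if_neg his, if_neg (Ne.symm hli)]
      have e2 : d1 l = d l * ∏ j ∈ s, d j := by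
        simp [hd1, hls]
      have h0 : d l * ∏ j ∈ s, d j ≠ 0 :=
        mul_ne_zero (hd l) (Finset.prod_ne_zero_iff.mpr fun j _ => hd j)
      obtain ⟨x, y, hxy⟩ := H281.rep_one h2 (hd i) h0
      rw [← e1, ← e2] at hxy
      have h5 := H281.step (d := d1) (Ne.symm hli) hxy
      refine ⟨M * H281.st d1 i l x y, ?_⟩
      rw [transpose_mul]
      have h6 : (H281.st d1 i l x y)ᵀ * Mᵀ * diagonal d * (M * H281.st d1 i l x y) =
          (H281.st d1 i l x y)ᵀ * (Mᵀ * diagonal d * M) * H281.st d1 i l x y := by
        simp only [mul_assoc]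
      rw [h6, hM, h5]
      congr 1
      funext k
      by_cases hk : k = l
      · subst hk
        rw [Function.update_self, if_neg hl, if_pos rfl, Finset.prod_insert his, e1, e2]
        ring
      · rw [Function.update_of_ne hk]
        by_cases hk2 : k = i
        · subst hk2
          rw [Function.update_self, if_pos (Finset.mem_insert_self k s)]
        · rw [Function.update_of_ne hk2]
          simp only [hd1, Finset.mem_insert, hk2, false_or]
          by_cases hk3 : k ∈ s
          · rw [if_pos hk3, if_pos hk3]
          · rw [if_neg hk3, if_neg hk3, if_neg hk, if_neg hk]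
  obtain ⟨M, hM⟩ := key (univ.erase l) (Finset.notMem_erase l _)
  refine ⟨M, ?_⟩
  rw [hM]
  congr 1
  funext i
  by_cases h : i = l
  · subst h
    rw [if_neg (Finset.notMem_erase i _), if_pos rfl, if_pos rfl,
      Finset.mul_prod_erase univ d (Finset.mem_univ i)]
  · rw [if_pos (Finset.mem_erase.mpr ⟨h, Finset.mem_univ i⟩), if_neg h]

/-- the same up to a square in the discriminant -/
theorem exists_disc_sq (h2 : (2 : F) ≠ 0) (l : ι) (d : ι → F) (hd : ∀ i, d i ≠ 0) {e D : F}
    (he : e ≠ 0) (h : ∏ j, d j = e * e * D) :
    ∃ M : Matrix ι ι F, Mᵀ * diagonal d * M = diagonal (fun i => if i = l then D else 1) := by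
  obtain ⟨M, hM⟩ := exists_disc h2 l d hd
  refine ⟨M * diagonal (fun i => if i = l then e⁻¹ else 1), ?_⟩
  rw [transpose_mul, diagonal_transpose]
  have h6 : diagonal (fun i => if i = l then e⁻¹ else 1) * Mᵀ * diagonal d *
      (M * diagonal (fun i => if i = l then e⁻¹ else 1)) =
      diagonal (fun i => if i = l then e⁻¹ else 1) * (Mᵀ * diagonal d * M) *
        diagonal (fun i => if i = l then e⁻¹ else 1) := by
    simp only [mul_assoc]
  rw [h6, hM, diagonal_mul_diagonal, diagonal_mul_diagonal]
  congr 1
  funext i
  by_cases hi : i = l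
  · simp only [if_pos hi]
    rw [h]
    field_simp
  · simp only [if_neg hi, mul_one]

end forms

section star

variable {K : Type u} [Field K] [Fintype K] [StarRing K]

/-- the second half of EH (the first half is `α = 1`) -/
theorem main {q : ℕ} (hF : Fld K q) {n : ℕ} (hn : 0 < n) (a : Fin n → K)
    (ha : ∀ i, a i * star (a i) = 1) (α : K) (hα : α * star α = 1)
    (hx : ∃ x : K, x * star x = 1 ∧ ∏ i, a i = x * x * α) :
    ∃ u : GU K n, diagonal a * u.1.map star = u.1 * Da n α := by
  obtain ⟨hq, hK, hs⟩ := hF
  have hq2 : 2 ≤ q := by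
    by_contra h
    have h1 : q = 1 := by
      obtain ⟨k, hk⟩ := hq
      omega
    rw [h1, one_pow, Nat.card_eq_fintype_card] at hK
    have := Fintype.one_lt_card (α := K)
    omega
  have h2 : (2 : K) ≠ 0 := by
    intro h
    have hodd : Odd (Nat.card K) := by rw [hK]; exact hq.pow
    have hch : ringChar K = 2 := by
      have h1 : ringChar K ∣ 2 := by
        apply ringChar.dvd
        exact_mod_cast h
      rcases (Nat.dvd_prime Nat.prime_two).mp h1 with h1 | h1
      · exact absurd h1 (CharP.ringChar_ne_one)
      · exact h1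
    have h3 := FiniteField.even_card_iff_char_two.mp hch
    rw [← Nat.card_eq_fintype_card] at h3
    rw [Nat.odd_iff] at hodd
    omega
  have hne := H281.star_ne hq2 hK hs
  have hst0 : ∀ {y : K}, y ≠ 0 → star y ≠ 0 := by
    intro y hy h
    exact hy (by rw [← star_star y, h, star_zero])
  choose b hb0 hb using fun i => H281.hilb hne (ha i)
  obtain ⟨β, hβ0, hβ⟩ := H281.hilb hne hα
  obtain ⟨x, hx1, hx2⟩ := hx
  obtain ⟨y, hy0, hy⟩ := H281.hilb hne hx1
  -- the values
  have hdf : ∀ z : K, z * star z ∈ H281.fx K := by
    intro z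
    rw [H281.mem_fx, star_mul', star_star, mul_comm]
  let d : Fin n → H281.fx K := fun i => ⟨b i * star (b i), hdf (b i)⟩
  let D : H281.fx K := ⟨β * star β, hdf β⟩
  have hd0 : ∀ i, d i ≠ 0 := by
    intro i h
    have h1 : b i * star (b i) = 0 := congrArg Subtype.val h
    exact mul_ne_zero (hb0 i) (hst0 (hb0 i)) h1
  have h2' : (2 : H281.fx K) ≠ 0 := by
    intro h
    apply h2
    have h3 := congrArg (H281.fx K).subtype h
    rwa [map_ofNat, map_zero] at h3
  -- the product
  set B : K := ∏ i, b i with hB
  have hB0 : B ≠ 0 := Finset.prod_ne_zero_iff.mpr fun i _ => hb0 i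
  have hBs : x * x * α * star B = B := by
    rw [← hx2, hB]
    have h1 : star (∏ i, b i) = ∏ i, star (b i) := by
      rw [← starRingEnd_apply, map_prod]
      rfl
    rw [h1, ← Finset.prod_mul_distrib]
    exact Finset.prod_congr rfl fun i _ => hb i
  set c : K := B / (y * y * β) with hc
  have hyβ : y * y * β ≠ 0 := mul_ne_zero (mul_ne_zero hy0 hy0) hβ0
  have hc0 : c ≠ 0 := div_ne_zero hB0 hyβ
  have hBc : B = c * (y * y * β) := by
    rw [hc, div_mul_cancel₀ _ hyβ]
  have hcs : star c = c := by
    have h1 : star B = star c * (star y * star y * star β) := by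
      rw [hBc, star_mul', star_mul', star_mul']
    have h3 : star c * (y * y * β) = B := by
      rw [← hBs, h1]
      calc star c * (y * y * β) = star c * ((x * star y) * (x * star y) * (α * star β)) := by
            rw [hy, hβ]
        _ = x * x * α * (star c * (star y * star y * star β)) := by ring
    rw [hc, eq_div_iff hyβ]
    exact h3
  have hef : c * (y * star y) ∈ H281.fx K := by
    rw [H281.mem_fx, star_mul', hcs, (hdf y)]
  let e : H281.fx K := ⟨c * (y * star y), hef⟩
  have he0 : e ≠ 0 := by
    intro h
    have h1 : c * (y * star y) = 0 := congrArg Subtype.val h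
    exact mul_ne_zero hc0 (mul_ne_zero hy0 (hst0 hy0)) h1
  have hprod : ∏ i, d i = e * e * D := by
    apply Subtype.ext
    have h1 : ((∏ i, d i : H281.fx K) : K) = ∏ i, (b i * star (b i)) := by
      rw [← Subfield.coe_subtype, map_prod]
      rfl
    rw [h1, Finset.prod_mul_distrib]
    have h3 : ∏ i, star (b i) = star B := by
      rw [hB, ← starRingEnd_apply, map_prod]
      rfl
    rw [h3, ← hB]
    show B * star B = c * (y * star y) * (c * (y * star y)) * (β * star β)
    have h4 : star B = c * (star y * star y * star β) := by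
      rw [hBc, star_mul', star_mul', star_mul', hcs]
    rw [h4, hBc]
    ring
  obtain ⟨M, hM⟩ := exists_disc_sq h2' (⟨n - 1, by omega⟩ : Fin n) d hd0 he0 hprod
  have hlast : ∀ i : Fin n, (i = (⟨n - 1, by omega⟩ : Fin n)) ↔ i.1 + 1 = n := by
    intro i
    rw [Fin.ext_iff]
    simp only
    omega
  let N : Matrix (Fin n) (Fin n) K := M.map (H281.fx K).subtype
  have hN : Nᵀ * diagonal (fun i => b i * star (b i)) * N =
      diagonal (fun i => if i.1 + 1 = n then β * star β else 1) := by
    have h1 := congrArg (fun A => (H281.fx K).subtype.mapMatrix A) hM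
    simp only [map_mul, RingHom.mapMatrix_apply] at h1
    rw [diagonal_map (map_zero _), diagonal_map (map_zero _)] at h1
    rw [transpose_map] at h1
    have h3 : (fun i => (H281.fx K).subtype (d i)) = fun i => b i * star (b i) := rfl
    have h4 : (fun i : Fin n => (H281.fx K).subtype (if i = (⟨n - 1, by omega⟩ : Fin n) then D
        else 1)) = fun i => if i.1 + 1 = n then β * star β else 1 := by
      funext i
      by_cases hi : i.1 + 1 = n
      · rw [if_pos hi, if_pos ((hlast i).mpr hi)]
        rfl
      · rw [if_neg hi, if_neg (fun h => hi ((hlast i).mp h)), map_one]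
    rw [← h4]
    exact h1
  have hNs : ∀ i j, star (N i j) = N i j := by
    intro i j
    simp only [N, map_apply, Subfield.coe_subtype]
    exact (M i j).2
  let t : Fin n → K := fun j => if j.1 + 1 = n then β⁻¹ else 1
  have ht : ∀ j, star (t j) = t j * (if j.1 + 1 = n then α else 1) := by
    intro j
    by_cases hj : j.1 + 1 = n
    · simp only [t, if_pos hj]
      rw [star_inv₀, inv_eq_iff_eq_inv, mul_inv, inv_inv]
      have h3 : α ≠ 0 := left_ne_zero_of_mul_eq_one hα
      have h4 := hβ
      field_simp
      linear_combination h4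
    · simp only [t, if_neg hj]
      rw [star_one, mul_one]
  have hu : (diagonal b * N * diagonal t : Matrix (Fin n) (Fin n) K) ∈
      Matrix.unitaryGroup (Fin n) K := by
    rw [Matrix.mem_unitaryGroup_iff', star_eq_conjTranspose, conjTranspose_mul,
      conjTranspose_mul, diagonal_conjTranspose, diagonal_conjTranspose]
    have h1 : Nᴴ = Nᵀ := by
      ext i j
      rw [conjTranspose_apply, transpose_apply, hNs]
    rw [h1]
    have h3 : diagonal (star t) * (Nᵀ * diagonal (star b)) * (diagonal b * N * diagonal t) =
        diagonal (star t) * (Nᵀ * diagonal (fun i => b i * star (b i)) * N) * diagonal t := by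
      have h4 : diagonal (fun i => b i * star (b i)) = diagonal (star b) * diagonal b := by
        rw [diagonal_mul_diagonal]
        congr 1
        funext i
        rw [Pi.star_apply, mul_comm]
      rw [h4]
      simp only [mul_assoc]
    rw [h3, hN, diagonal_mul_diagonal, diagonal_mul_diagonal, ← diagonal_one]
    congr 1
    funext i
    rw [Pi.star_apply]
    by_cases hi : i.1 + 1 = n
    · simp only [t, if_pos hi]
      rw [star_inv₀]
      have := hst0 hβ0
      field_simp
    · simp only [t, if_neg hi]
      rw [star_one, mul_one, mul_one]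
  refine ⟨⟨diagonal b * N * diagonal t, hu⟩, ?_⟩
  ext i j
  show (diagonal a * (diagonal b * N * diagonal t).map star) i j =
    (diagonal b * N * diagonal t * Da n α) i j
  have h8 : (diagonal b * N * diagonal t) i j = b i * N i j * t j := by
    rw [mul_diagonal, diagonal_mul]
  have h7 : ((diagonal b * N * diagonal t).map star) i j = star (b i * N i j * t j) := by
    rw [map_apply, h8]
  have h9 : (diagonal b * N * diagonal t * Da n α) i j =
      b i * N i j * t j * (if j.1 + 1 = n then α else 1) := by
    rw [Da, mul_diagonal, h8]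
  rw [diagonal_mul, h7, h9, star_mul', star_mul', hNs, ht]
  linear_combination (N i j * (t j * (if j.1 + 1 = n then α else 1))) * hb i

end star

/-- **EH** -/
theorem stmtEH : StmtEH.{u} := by
  intro K _ _ _ q hF n hn a ha
  refine ⟨?_, fun α hα hx => main hF hn a ha α hα hx⟩
  rintro ⟨x, hx, hxa⟩
  obtain ⟨u, hu⟩ := main hF hn a ha 1 (by rw [star_one, mul_one]) ⟨x, hx, by rw [hxa, mul_one]⟩
  refine ⟨u, ?_⟩
  rw [hu, Da]
  have : (fun i : Fin n => if i.1 + 1 = n then (1 : K) else 1) = fun _ => 1 := by
    funext i
    split_ifs <;> rfl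
  rw [this, diagonal_one, mul_one]

end

end Vale.Agent.P240.R2.H945.EH
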