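import Vale.Agent.P240.Bdl.B1

/-!
Iterated cones over points; they anticommute. Words and their reversals.
-/

set_option linter.all false

namespace Vale.Agent.P240.R2.H945

open Finsupp hiding cons
open Vale.Agent.P240.K

universe u v

section
variable {𝕜 : Type v} [Field 𝕜] {Λ : Type u}

lemma hc_nil (φ : Λ → Λ) (F : Λ) : hc φ F (single [] (1 : 𝕜)) = single [F] 1 := by
  rw [hc, LinearMap.add_apply, h1_single, LinearMap.comp_apply, mp_single, sn_single]
  simp [h1L]

lemma hc_cons (φ : Λ → Λ) (F a : Λ) (c : Ch 𝕜 Λ) :
    hc φ F (cons a c) = cons (φ a) (cons a c - hc φ F c) := by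
  simp only [hc, LinearMap.add_apply, LinearMap.comp_apply, h1_cons, mp_cons, sn_cons, map_sub,
    map_add]
  abel

variable [SemilatticeSup Λ]

lemma hc_anti (x y : Λ) (c : Ch 𝕜 Λ) :
    hc (fun a => x ⊔ a) x (hc (fun a => y ⊔ a) y c) =
      - hc (fun a => y ⊔ a) y (hc (fun a => x ⊔ a) x c) := by
  have key := ch_ext_apply (𝕜 := 𝕜)
    (F := (hc (𝕜 := 𝕜) (fun a => x ⊔ a) x).comp (hc (fun a => y ⊔ a) y))
    (G := - ((hc (𝕜 := 𝕜) (fun a => y ⊔ a) y).comp (hc (fun a => x ⊔ a) x)))
    (by
      have e1 : ∀ w : Λ, (single [w] (1 : 𝕜) : Ch 𝕜 Λ) = cons w (single [] 1) := fun w => by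
        rw [cons_single]
      simp only [LinearMap.comp_apply, LinearMap.neg_apply, hc_nil]
      rw [e1 x, e1 y, hc_cons, hc_cons, hc_nil, hc_nil]
      simp only [map_sub, cons_single]
      rw [sup_comm y x]
      abel)
    (fun a c h => by
      simp only [LinearMap.comp_apply, LinearMap.neg_apply] at h ⊢
      rw [hc_cons, hc_cons, hc_cons, hc_cons]
      simp only [map_sub, hc_cons]
      rw [h]
      have e1 : x ⊔ (y ⊔ a) = y ⊔ (x ⊔ a) := sup_left_comm x y a
      rw [e1]
      simp only [map_sub, map_neg]
      abel) c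
  simpa using key

/-- iterated cones over the points of a list -/
noncomputable def AL (𝕜 : Type v) [Field 𝕜] : List Λ → Ch 𝕜 Λ
  | [] => single [] 1
  | x :: S => hc (fun a => x ⊔ a) x (AL 𝕜 S)

lemma AL_perm {S S' : List Λ} (h : S.Perm S') : AL 𝕜 S = AL 𝕜 S' ∨ AL 𝕜 S = - AL 𝕜 S' := by
  induction h with
  | nil => exact Or.inl rfl
  | cons x h ih =>
    rcases ih with h | h
    · left; simp only [AL, h]
    · right; simp only [AL, h, map_neg]
  | swap x y l => right; simp only [AL]; rw [hc_anti]
  | trans h1 h2 ih1 ih2 =>
    rcases ih1 with h1 | h1 <;> rcases ih2 with h2 | h2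
    · left; rw [h1, h2]
    · right; rw [h1, h2]
    · right; rw [h1, h2]
    · left; rw [h1, h2, neg_neg]

end

/-- vectors indexed by words that agree up to sign with those of the reversed words span a space of dimension at most half the
number of words -/
theorem finrank_rev {L : Type*} [Fintype L] {V : Type*} [AddCommGroup V] [Module ℚ V] {n : ℕ} (hn : 2 ≤ n)
    (F : Finset (List L)) (hlen : ∀ w ∈ F, w.length = n) (hnd : ∀ w ∈ F, w.Nodup)
    (hrev : ∀ w ∈ F, w.reverse ∈ F) (A : List L → V) (hA : ∀ w ∈ F, A w.reverse = A w ∨ A w.reverse = - A w) :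
    2 * Module.finrank ℚ (Submodule.span ℚ (A '' (F : Set (List L)))) ≤ F.card := by
  classical
  let e : L → ℕ := fun x => (Fintype.equivFin L x : ℕ)
  have he : Function.Injective e := fun a b h => (Fintype.equivFin L).injective (Fin.ext h)
  have hne : ∀ w ∈ F, w ≠ [] := by
    intro w hw h
    have := hlen w hw
    rw [h] at this
    simp at this
    omega
  let P : List L → Prop := fun w => ∃ (h : w ≠ []), e (w.head h) < e (w.getLast h)
  have hP : ∀ w ∈ F, (¬ P w ↔ P w.reverse) := by
    intro w hw
    have h0 := hne w hw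
    have h1 : w.reverse ≠ [] := by simpa using h0
    have h2 : w.reverse.head h1 = w.getLast h0 := by simp
    have h3 : w.reverse.getLast h1 = w.head h0 := by simp
    have h4 : w.head h0 ≠ w.getLast h0 := by
      have hl := hlen w hw
      cases w with
      | nil => exact absurd rfl h0
      | cons a w =>
        cases w with
        | nil => simp at hl; omega
        | cons b w =>
          intro h
          have h5 := (List.nodup_cons.1 (hnd _ hw)).1
          apply h5
          have h6 : (a :: b :: w).getLast h0 = (b :: w).getLast (by simp) := by simp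
          have h7 : a = (b :: w).getLast (by simp) := by
            rw [← h6, ← h]; rfl
          rw [h7]
          exact List.getLast_mem _
    constructor
    · intro h
      refine ⟨h1, ?_⟩
      rw [h2, h3]
      by_contra h5
      apply h
      refine ⟨h0, ?_⟩
      have h6 : e (w.head h0) ≠ e (w.getLast h0) := fun h => h4 (he h)
      omega
    · rintro ⟨h5, h6⟩ ⟨h7, h8⟩
      rw [h2, h3] at h6
      omega
  have hcard : (F.filter fun w => ¬ P w).card = (F.filter P).card := by
    refine Finset.card_bij (fun w _ => w.reverse) ?_ ?_ ?_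
    · intro w hw
      rw [Finset.mem_filter] at hw ⊢
      exact ⟨hrev w hw.1, (hP w hw.1).1 hw.2⟩
    · intro a _ b _ h
      exact List.reverse_injective h
    · intro b hb
      rw [Finset.mem_filter] at hb
      refine ⟨b.reverse, ?_, List.reverse_reverse b⟩
      rw [Finset.mem_filter]
      refine ⟨hrev b hb.1, ?_⟩
      rw [hP _ (hrev b hb.1), List.reverse_reverse]
      exact hb.2
  have hle : Submodule.span ℚ (A '' (F : Set (List L))) ≤
      Submodule.span ℚ (((F.filter P).image A : Finset V) : Set V) := by
    rw [Submodule.span_le]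
    rintro _ ⟨w, hw, rfl⟩
    rw [Finset.mem_coe] at hw
    by_cases h : P w
    · exact Submodule.subset_span (by
        rw [Finset.mem_coe, Finset.mem_image]
        exact ⟨w, Finset.mem_filter.2 ⟨hw, h⟩, rfl⟩)
    · have h1 : A w.reverse ∈ Submodule.span ℚ (((F.filter P).image A : Finset V) : Set V) :=
        Submodule.subset_span (by
          rw [Finset.mem_coe, Finset.mem_image]
          exact ⟨w.reverse, Finset.mem_filter.2 ⟨hrev w hw, (hP w hw).1 h⟩, rfl⟩)
      rcases hA w hw with h2 | h2
      · rw [SetLike.mem_coe, ← h2]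
        exact h1
      · have h3 : A w = - A w.reverse := by rw [h2, neg_neg]
        rw [SetLike.mem_coe, h3]
        exact Submodule.neg_mem _ h1
  have h1 : Module.finrank ℚ (Submodule.span ℚ (A '' (F : Set (List L)))) ≤ (F.filter P).card := by
    refine (Submodule.finrank_mono hle).trans ?_
    refine (finrank_span_finset_le_card _).trans Finset.card_image_le
  have h2 := Finset.card_filter_add_card_filter_not (s := F) P
  omega

end Vale.Agent.P240.R2.H945
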