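import Vale.Agent.P240.R2.H938.Comb4
import Vale.Agent.P240.R2.H945.SemiE
import Vale.Agent.P240.R2.H945.Rev

/-!
Top cycles from systems of frames: with one family of solutions, and with one family for each element of
order `p` of a coset (modules M5b, NL1).
-/

set_option linter.all false

namespace Vale.Agent.P240.R2.H945

open Finsupp hiding cons
open Subgroup Vale.Agent.P240 Vale.Agent.P240.K

universe u v w

section gen
variable {𝕜 : Type w} [Field 𝕜] {Λ : Type*} [SemilatticeSup Λ] [OrderBot Λ] {X : Type*}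

lemma AL_eq (S : List Λ) : AL 𝕜 S = H938.AL 𝕜 S := by
  induction S with
  | nil => rfl
  | cons x S ih => rw [AL, H938.AL, ih]

/-- `mu` as a linear map -/
noncomputable def muL (C : List X → Λ) (F : Finset (List X)) : (List X → ℚ) →ₗ[ℚ] Ch ℚ Λ :=
  ∑ m ∈ F, (LinearMap.proj (R := ℚ) (φ := fun _ : List X => ℚ) m).smulRight (H938.AL ℚ (H938.pre C m))

lemma muL_apply (C : List X → Λ) (F : Finset (List X)) (z : List X → ℚ) :
    muL C F z = H938.mu C F z := by
  rw [muL, LinearMap.sum_apply, H938.mu]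
  rfl

lemma mu_sub (C : List X → Λ) {F F' : Finset (List X)} (h : F' ⊆ F) {z : List X → ℚ}
    (hz : ∀ w, w ∉ F' → z w = 0) : H938.mu C F z = H938.mu C F' z := by
  rw [H938.mu, H938.mu]
  refine (Finset.sum_subset h fun m _ hm => ?_).symm
  rw [hz m hm, zero_smul]

lemma ev_mem {F : Finset (List X)} (hperm : ∀ w ∈ F, ∀ w', w.Perm w' → w' ∈ F) {z : List X → ℚ}
    (hz : ∀ w, w ∉ F → z w = 0) {g : List X} (h : H986.ev z g [] [] ≠ 0) : g ∈ F := by
  by_contra hg
  apply h
  rw [← H938.brF_ev', Finsupp.linearCombination_apply, Finsupp.sum]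
  refine Finset.sum_eq_zero fun w hw => ?_
  have h1 : w.Perm g := (mem_Sp.1 (H938.brF_perm (𝕜 := ℚ) g)) w hw
  rw [hz w fun h2 => hg (hperm w h2 g h1), smul_zero]

end gen

section comb
variable {G : Type u} [Group G] {X : Type v} {p n : ℕ} {F : Finset (List X)} {e : List X → G}

lemma Comb_mono (h : AS.Comb p n F e) {F' : Finset (List X)} (hF : F' ⊆ F)
    (hperm : ∀ w ∈ F', ∀ w', w.Perm w' → w' ∈ F') : AS.Comb p n F' e where
  len := fun w hw => h.len w (hF hw)
  nodup := fun w hw => h.nodup w (hF hw)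
  perm := hperm
  plane := fun u a b c d v w h1 h2 => h.plane u a b c d v w (hF h1) (hF h2)
  comm := fun u v w h1 => h.comm u v w (hF h1)
  pow := fun u v h1 => h.pow u v (hF h1)
  nil := h.nil
  full := fun w hw => h.full w (hF hw)
  card := fun w hw => h.card w (hF hw)
  sep := fun A u v B l g h1 h2 h3 h4 => h.sep A u v B l g (hF h1) (hF h2) h3 h4

/-- the join of the groups of the initial segments -/
lemma fold_eq (h : AS.Comb p n F e) {m : List X} (hm : m ∈ F) :
    (H938.pre (fun w => zpowers (e w)) m).foldr (· ⊔ ·) ⊥ =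
      closure {y | ∃ u v, m = u ++ v ∧ y = e u} := by
  apply le_antisymm
  · have key : ∀ S : List (Subgroup G), (∀ s ∈ S, s ≤ closure {y | ∃ u v, m = u ++ v ∧ y = e u}) →
        S.foldr (· ⊔ ·) ⊥ ≤ closure {y | ∃ u v, m = u ++ v ∧ y = e u} := by
      intro S
      induction S with
      | nil => intro _; exact bot_le
      | cons s S ih =>
        intro hS
        rw [List.foldr_cons]
        exact sup_le (hS s (by simp)) (ih fun t ht => hS t (by simp [ht]))
    refine key _ fun s hs => ?_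
    obtain ⟨u, hu, rfl⟩ := List.mem_map.1 hs
    obtain ⟨v, h1, h2, h3⟩ := H938.mem_pfx.1 hu
    rw [zpowers_le]
    exact subset_closure ⟨u, v, h1, rfl⟩
  · rw [closure_le]
    rintro _ ⟨u, v, h1, rfl⟩
    rw [SetLike.mem_coe]
    by_cases hu : u = []
    · rw [hu, h.nil]
      exact one_mem _
    · by_cases hv : v = []
      · rw [hv, List.append_nil] at h1
        rw [← h1, h.full m hm]
        exact one_mem _
      · have h3 : zpowers (e u) ∈ H938.pre (fun w => zpowers (e w)) m :=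
          List.mem_map.2 ⟨u, H938.mem_pfx.2 ⟨v, h1, hu, hv⟩, rfl⟩
        have h4 : ∀ (S : List (Subgroup G)), zpowers (e u) ∈ S →
            zpowers (e u) ≤ S.foldr (· ⊔ ·) ⊥ := by
          intro S
          induction S with
          | nil => intro h; simp at h
          | cons s S ih =>
            intro h
            rcases List.mem_cons.1 h with h | h
            · rw [List.foldr_cons, ← h]
              exact le_sup_left
            · exact (ih h).trans le_sup_right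
        exact h4 _ h3 (mem_zpowers (e u))

/-- heads of the lists of `mu` -/
lemma mu_head (h : AS.Comb p n F e) (hn : 2 ≤ n) (z : List X → ℚ) :
    H938.mu (fun w => zpowers (e w)) F z ∈ Sp ℚ (fun l : List (Subgroup G) =>
      ∃ B ∈ {B | ∃ w ∈ F, B = closure {y | ∃ u v, w = u ++ v ∧ y = e u}}, l.head? = some B) := by
  rw [H938.mu]
  refine Submodule.sum_mem _ fun m hm => Submodule.smul_mem _ _ ?_
  have h1 : H938.pre (fun w => zpowers (e w)) m ≠ [] := by
    intro h0
    have h2 := H938.pre_length (fun w => zpowers (e w)) m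
    rw [h0, h.len m hm] at h2
    simp at h2
    omega
  refine Sp_mono (fun l hl => ?_) (H938.AL_head (𝕜 := ℚ) _ h1)
  exact ⟨_, ⟨m, hm, rfl⟩, by rw [hl, fold_eq h hm]⟩

lemma bm_ne (h : AS.Comb p n F e) (hn : 2 ≤ n) {z : List X → ℚ} [Fintype X] (hz : z ∈ AS.SOL F)
    (hb : AS.bm X z ≠ 0) : H938.mu (fun w => zpowers (e w)) F z ≠ 0 := by
  have hz' : (∀ w, w ∉ F → z w = 0) ∧ ∀ u v : List X, ∑ x : X × X, z (u ++ x.1 :: x.2 :: v) = 0 :=
    hz
  obtain ⟨g, hg⟩ : ∃ g, H986.ev z g [] [] ≠ 0 := by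
    by_contra hcon
    push Not at hcon
    exact hb (funext hcon)
  exact H938.comb_ne h hn z hz'.1 (ev_mem h.perm hz'.1 hg) hg

/-- **A top cycle from a solution.** -/
theorem top_of_comb [hp : Fact p.Prime] [Finite G] [Fintype X] (hn : 2 ≤ n) (hc : AS.Comb p n F e)
    (ht : 0 < AS.t F) (𝕜 : Type w) [Field 𝕜] (H : Subgroup G)
    (hH : ∀ u v : List X, u ++ v ∈ F → e u ∈ H) :
    ∃ w ∈ F, ∃ (α : Ch 𝕜 (Subgroup G)) (l : List (Subgroup G)),
      TopCycle 𝕜 p H (closure {y | ∃ u v, w = u ++ v ∧ y = e u}) α l := by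
  obtain ⟨z, hz, hb⟩ : ∃ z ∈ AS.SOL F, AS.bm X z ≠ 0 := by
    by_contra hcon
    push Not at hcon
    have h0 : (AS.SOL F).map (AS.bm X) = ⊥ := by
      rw [eq_bot_iff]
      rintro _ ⟨z, hz, rfl⟩
      exact (Submodule.mem_bot ℚ).2 (hcon z hz)
    rw [AS.t, h0, finrank_bot] at ht
    exact lt_irrefl 0 ht
  have hz' : (∀ w, w ∉ F → z w = 0) ∧ ∀ u v : List X, ∑ x : X × X, z (u ++ x.1 :: x.2 :: v) = 0 :=
    hz
  obtain ⟨B, ⟨w, hw, rfl⟩, α, l, h1, -, -⟩ := topCycle_of_rat (p := p) 𝕜 (H := H) (m := n - 1)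
    (T := {B | ∃ w ∈ F, B = closure {y | ∃ u v, w = u ++ v ∧ y = e u}})
    (by rintro _ ⟨w, hw, rfl⟩; exact hc.card w hw)
    (mem_Sp_inf (H938.comb_mem hc z H hH) (mu_head hc hn z)) (H938.comb_bd hc z hz'.1 hz'.2)
    (bm_ne hc hn hz hb)
  exact ⟨w, hw, α, l, h1⟩

/-- data for the second theorem -/
structure SemiData [Fintype X] (p : ℕ) (F : Finset (List X)) (e : List X → G) (N M : Subgroup G)
    (Y : Finset G) (Fy : G → Finset (List X)) : Prop where
  memN : ∀ u v : List X, u ++ v ∈ F → e u ∈ N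
  le : N ≤ M
  pow : ∀ y ∈ Y, y ^ p = 1
  memM : ∀ y ∈ Y, y ∈ M
  notN : ∀ y ∈ Y, y ∉ N
  coset : ∀ y ∈ Y, ∀ y' ∈ Y, y⁻¹ * y' ∈ N
  sub : ∀ y ∈ Y, Fy y ⊆ F
  perm : ∀ y ∈ Y, ∀ w ∈ Fy y, ∀ w', w.Perm w' → w' ∈ Fy y
  fix : ∀ y ∈ Y, ∀ u v : List X, u ++ v ∈ Fy y → e u * y = y * e u

/-- the obstruction space -/
theorem semi_aux [hp : Fact p.Prime] [Finite G] [Fintype X] (hn : 2 ≤ n) (hc : AS.Comb p n F e)
    {N M : Subgroup G} {Y : Finset G} {Fy : G → Finset (List X)} (hd : SemiData p F e N M Y Fy)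
    {D : ℕ} (hD : Module.finrank ℚ (Submodule.span ℚ
      ((fun m => H938.AL ℚ (H938.pre (fun w => zpowers (e w)) m)) '' (F : Set (List X)))) ≤ D)
    (hcount : D < ∑ y ∈ Y, AS.t (Fy y)) (𝕜 : Type w) [Field 𝕜] :
    ∃ y ∈ Y, ∃ w ∈ Fy y, ∃ (α : Ch 𝕜 (Subgroup G)) (l : List (Subgroup G)),
      TopCycle 𝕜 p M (zpowers y ⊔ closure {z | ∃ u v, w = u ++ v ∧ z = e u}) α l ∧
        l.length = n := by
  classical
  have hcy : ∀ y ∈ Y, AS.Comb p n (Fy y) e := fun y hy => Comb_mono hc (hd.sub y hy) (hd.perm y hy)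
  have hmem : ∀ y ∈ Y, ∀ u v : List X, u ++ v ∈ Fy y →
      e u ∈ N ⊓ centralizer (zpowers y : Set G) := by
    intro y hy u v h
    refine ⟨hd.memN u v (hd.sub y hy h), mem_centralizer_iff.2 ?_⟩
    rintro _ ⟨k, rfl⟩
    have h1 : Commute (e u) y := hd.fix y hy u v h
    exact (h1.zpow_right k).eq.symm
  have hSOL : ∀ y ∈ Y, ∀ z ∈ AS.SOL (Fy y), (∀ w, w ∉ Fy y → z w = 0) ∧
      ∀ u v : List X, ∑ x : X × X, z (u ++ x.1 :: x.2 :: v) = 0 := fun y _ z hz => hz
  have hmu : ∀ y ∈ Y, ∀ z ∈ AS.SOL (Fy y), muL (fun w => zpowers (e w)) F z =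
      H938.mu (fun w => zpowers (e w)) (Fy y) z := fun y hy z hz => by
    rw [muL_apply, mu_sub _ (hd.sub y hy) (hSOL y hy z hz).1]
  have hfd : FiniteDimensional ℚ (Submodule.span ℚ
      ((fun m => H938.AL ℚ (H938.pre (fun w => zpowers (e w)) m)) '' (F : Set (List X)))) :=
    FiniteDimensional.span_of_finite ℚ ((Finset.finite_toSet F).image _)
  obtain ⟨y, hy, B, ⟨w, hw, rfl⟩, α, l, h1, h2⟩ := semi_top (p := p) 𝕜 (K := M) (r := n - 1) Y hd.le
    hd.memM hd.pow hd.notN hd.coset (AS.bm X) (muL (fun w => zpowers (e w)) F)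
    (fun y => AS.SOL (Fy y))
    (fun y hy => by
      let ρ : (List X → ℚ) →ₗ[ℚ] (Fy y → ℚ) := LinearMap.funLeft ℚ ℚ (Subtype.val : Fy y → List X)
      have hinj : Function.Injective (ρ.domRestrict (AS.SOL (Fy y))) := by
        rw [← LinearMap.ker_eq_bot, LinearMap.ker_eq_bot']
        intro z hz
        apply Subtype.ext
        ext x
        by_cases hx : x ∈ Fy y
        · exact congrFun hz ⟨x, hx⟩
        · exact (hSOL y hy z.1 z.2).1 x hx
      exact Module.Finite.of_injective _ hinj)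
    (Submodule.span ℚ
      ((fun m => H938.AL ℚ (H938.pre (fun w => zpowers (e w)) m)) '' (F : Set (List X))))
    (fun y _ z _ => by
      rw [muL_apply, H938.mu]
      exact Submodule.sum_mem _ fun m hm => Submodule.smul_mem _ _
        (Submodule.subset_span ⟨m, hm, rfl⟩))
    (fun y => {B | ∃ w ∈ Fy y, B = closure {z | ∃ u v, w = u ++ v ∧ z = e u}})
    (fun y hy B hB => by
      obtain ⟨w, hw, rfl⟩ := hB
      refine ⟨?_, (hcy y hy).card w hw⟩
      rw [closure_le]
      rintro _ ⟨u, v, h, rfl⟩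
      exact hmem y hy u v (h ▸ hw))
    (fun y hy z hz => by rw [hmu y hy z hz]; exact mu_head (hcy y hy) hn z)
    (fun y hy z hz => by rw [hmu y hy z hz]; exact H938.comb_mem (hcy y hy) z _ (hmem y hy))
    (fun y hy z hz => by
      rw [hmu y hy z hz]
      exact H938.comb_bd (hcy y hy) z (hSOL y hy z hz).1 (hSOL y hy z hz).2)
    (fun y hy z hz hb => by rw [hmu y hy z hz]; exact bm_ne (hcy y hy) hn hz hb)
    (hD.trans_lt hcount)
  exact ⟨y, hy, w, hw, α, l, h1, by omega⟩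

/-- **Top cycles from the elements of one coset.** -/
theorem top_of_semi [hp : Fact p.Prime] [Finite G] [Fintype X] (hn : 2 ≤ n) (hc : AS.Comb p n F e)
    {N M : Subgroup G} {Y : Finset G} {Fy : G → Finset (List X)} (hd : SemiData p F e N M Y Fy)
    (hcount : F.card < ∑ y ∈ Y, AS.t (Fy y)) (𝕜 : Type w) [Field 𝕜] :
    ∃ y ∈ Y, ∃ w ∈ Fy y, ∃ (α : Ch 𝕜 (Subgroup G)) (l : List (Subgroup G)),
      TopCycle 𝕜 p M (zpowers y ⊔ closure {z | ∃ u v, w = u ++ v ∧ z = e u}) α l ∧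
        l.length = n := by
  classical
  refine semi_aux hn hc hd ?_ hcount 𝕜
  rw [← Finset.coe_image]
  exact (finrank_span_finset_le_card _).trans Finset.card_image_le

end comb

end Vale.Agent.P240.R2.H945
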