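import Vale.Agent.P240.R2.H687.Fy
import Vale.Agent.P240.R2.H472.M2b

/-!
Reversal of frames: the classes `eW ζ u` and `eW ζ v.reverse` generate the same group when `u ++ v`
is a frame.
-/

set_option autoImplicit false

namespace Vale.Agent.P240.R2.H945

open Matrix Vale.Agent.P240.R2.AS Vale.Agent.P240.R2.H687 Vale.Agent.P240.R2.H472

universe u

noncomputable section

variable {K : Type u} [Field K] [StarRing K] {n : ℕ}

theorem sm_perm {u v : List (Ln K n)} (h : u.Perm v) : sm u = sm v := by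
  unfold sm
  exact (h.map _).sum_eq

theorem sm_reverse (u : List (Ln K n)) : sm u.reverse = sm u :=
  sm_perm (List.reverse_perm u)

theorem eW_perm (ζ : K) {u v : List (Ln K n)} (h : u.Perm v) : eW ζ u = eW ζ v := by
  unfold eW
  rw [sm_perm h]

theorem eU_mul {ζ : K} {P Q : Matrix (Fin n) (Fin n) K} (hζ : ζ * star ζ = 1)
    (hP : IsPr P) (hQ : IsPr Q) (hPQ : P * Q = 0) (h1 : P + Q = 1) :
    (((eU ζ P : GU K n) * eU ζ Q : GU K n) : Matrix (Fin n) (Fin n) K) = ζ • 1 := by
  rw [coe_mul', eU_val hP hζ, eU_val hQ hζ]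
  have e : (1 + (ζ - 1) • P) * (1 + (ζ - 1) • Q)
      = 1 + (ζ - 1) • (P + Q) + ((ζ - 1) * (ζ - 1)) • (P * Q) := by
    simp only [Matrix.add_mul, Matrix.mul_add, Matrix.one_mul, Matrix.mul_one, Matrix.smul_mul,
      Matrix.mul_smul, smul_add, smul_smul]
    abel
  rw [e, hPQ, h1, smul_zero, add_zero, sub_smul, one_smul]
  abel

/-- the classes of the two halves of a frame are inverse to each other -/
theorem eW_mul_eW [Fintype K] {ζ : K} (hζ : ζ * star ζ = 1) {u v : List (Ln K n)}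
    (h : u ++ v ∈ Fr K n) : eW ζ u * eW ζ v = 1 := by
  obtain ⟨hl, hO⟩ := (mem_Fr K).1 h
  have hs := sm_eq_one hl hO
  rw [sm_append] at hs
  obtain ⟨hu, hv, huv⟩ := List.pairwise_append.1 hO
  have hPQ : sm u * sm v = 0 := by
    clear hs hl hO hv h
    induction u with
    | nil => simp [sm]
    | cons a t ih =>
      rw [sm_cons, Matrix.add_mul, ih (List.Pairwise.of_cons hu)
        (fun x hx y hy => huv x (List.mem_cons_of_mem _ hx) y hy), add_zero]
      exact mul_sm_zero v fun b hb => huv a List.mem_cons_self b hb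
  have hc := eU_mul hζ (isPr_sm hu) (isPr_sm hv) hPQ hs
  unfold eW
  rw [← QuotientGroup.mk_mul]
  refine (QuotientGroup.eq_one_iff _).2 ?_
  rw [Subgroup.mem_center_iff]
  intro g
  apply Subtype.ext
  have e1 : ∀ a b : GU K n, ((a * b : GU K n) : Matrix (Fin n) (Fin n) K)
      = (a : Matrix (Fin n) (Fin n) K) * (b : Matrix (Fin n) (Fin n) K) := fun _ _ => rfl
  rw [e1 g, e1 _ g, hc, Matrix.mul_smul, Matrix.mul_one, Matrix.smul_mul, Matrix.one_mul]

/-- **Reversal**: `⟨e v.reverse⟩ = ⟨e u⟩` when `u ++ v` is a frame. -/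
theorem eW_rev [Fintype K] {ζ : K} (hζ : ζ * star ζ = 1) {u v : List (Ln K n)}
    (h : u ++ v ∈ Fr K n) :
    Subgroup.zpowers (eW ζ v.reverse) = Subgroup.zpowers (eW ζ u) := by
  have h1 := eW_mul_eW hζ h
  rw [eW_perm ζ (List.reverse_perm v), ← inv_eq_of_mul_eq_one_right h1, Subgroup.zpowers_inv]

theorem eW_rev_map [Fintype K] {G : Type*} [Group G] (f : PGU K n →* G) {ζ : K}
    (hζ : ζ * star ζ = 1) {u v : List (Ln K n)} (h : u ++ v ∈ Fr K n) :
    Subgroup.zpowers (f (eW ζ v.reverse)) = Subgroup.zpowers (f (eW ζ u)) := by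
  rw [← MonoidHom.map_zpowers, ← MonoidHom.map_zpowers, eW_rev hζ h]

end

end Vale.Agent.P240.R2.H945
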