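import Vale.Agent.P240.R2.H38.UDefs
import Vale.Agent.P240.R2.H687.Fy
import Vale.Agent.P240.R2.H472.M2b
import Vale.Agent.P240.R2.H402.A2

/-!
Coordinates for the action of an element `x` on the image of `SU_n(q)`: words, conjugation by unitary
matrices, the standard frame.
-/

set_option autoImplicit false
set_option linter.unusedSectionVars false

namespace Vale.Agent.P240.R2.H945

open Matrix Vale.Agent.P240.R2.AS Vale.Agent.P240.R2.H687 Vale.Agent.P240.R2.H472
open Vale.Agent.P240.R2.H38 (mt mt_inj sM sW Acts De)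
open scoped Classical

universe u v

noncomputable section

section conj
variable {K : Type u} [Field K] [StarRing K] {n : ℕ}

lemma coe_inv' (u : GU K n) : ((u⁻¹ : GU K n) : Matrix (Fin n) (Fin n) K)
    = star (u : Matrix (Fin n) (Fin n) K) := rfl

lemma mul_star_self' (u : GU K n) : (u : Matrix (Fin n) (Fin n) K)
    * star (u : Matrix (Fin n) (Fin n) K) = 1 := mem_unitaryGroup_iff.1 u.2

lemma star_mul_self' (u : GU K n) : star (u : Matrix (Fin n) (Fin n) K)
    * (u : Matrix (Fin n) (Fin n) K) = 1 := mem_unitaryGroup_iff'.1 u.2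

variable [Fintype K]

lemma det_mt (h : H38.SU K n) : (mt h).det = 1 := h.2

lemma mt_mul (h h' : H38.SU K n) : mt (h * h') = mt h * mt h' := rfl

lemma mt_one : mt (1 : H38.SU K n) = 1 := rfl

lemma mt_inv (h : H38.SU K n) : mt h⁻¹ = star (mt h) := rfl

lemma mt_mul_star (h : H38.SU K n) : mt h * star (mt h) = 1 := mul_star_self' h.1

lemma star_mul_mt (h : H38.SU K n) : star (mt h) * mt h = 1 := star_mul_self' h.1

/-- an element of `SU` from its matrix -/
lemma exists_mt {A : Matrix (Fin n) (Fin n) K} (h1 : A * star A = 1) (h2 : A.det = 1) :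
    ∃ g : H38.SU K n, mt g = A :=
  ⟨⟨⟨A, mem_unitaryGroup_iff.2 h1⟩, h2⟩, rfl⟩

/-- conjugation by a unitary matrix -/
def cj (u : GU K n) : H38.SU K n →* H38.SU K n where
  toFun h := ⟨u * h.1 * u⁻¹, by
    show ((u * h.1 * u⁻¹ : GU K n) : Matrix (Fin n) (Fin n) K).det = 1
    rw [coe_mul', coe_mul', coe_inv', det_mul, det_mul]
    have h1 : (h.1 : Matrix (Fin n) (Fin n) K).det = 1 := h.2
    rw [h1, mul_one, ← det_mul, mul_star_self', det_one]⟩
  map_one' := by
    apply Subtype.ext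
    show u * (1 : H38.SU K n).1 * u⁻¹ = 1
    have : (1 : H38.SU K n).1 = 1 := rfl
    rw [this, mul_one, mul_inv_cancel]
  map_mul' h h' := by
    apply Subtype.ext
    show u * (h.1 * h'.1) * u⁻¹ = (u * h.1 * u⁻¹) * (u * h'.1 * u⁻¹)
    group

lemma mt_cj (u : GU K n) (h : H38.SU K n) :
    mt (cj u h) = (u : Matrix (Fin n) (Fin n) K) * mt h * star (u : Matrix (Fin n) (Fin n) K) := rfl

lemma cj_cj (u v : GU K n) (h : H38.SU K n) : cj u (cj v h) = cj (u * v) h := by
  apply Subtype.ext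
  show u * (v * h.1 * v⁻¹) * u⁻¹ = (u * v) * h.1 * (u * v)⁻¹
  group

lemma cj_one (h : H38.SU K n) : cj 1 h = h := by
  apply Subtype.ext
  show 1 * h.1 * 1⁻¹ = h.1
  group

lemma cj_surjective (u : GU K n) : Function.Surjective (cj u) := by
  intro h
  exact ⟨cj u⁻¹ h, by rw [cj_cj, mul_inv_cancel, cj_one]⟩

lemma range_comp_cj {G : Type v} [Group G] (ε : H38.SU K n →* G) (u : GU K n) :
    (ε.comp (cj u)).range = ε.range := by
  ext y
  constructor
  · rintro ⟨h, rfl⟩
    exact ⟨cj u h, rfl⟩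
  · rintro ⟨h, rfl⟩
    obtain ⟨h', rfl⟩ := cj_surjective u h
    exact ⟨h', rfl⟩

/-- scalar kernel -/
def ScK {G : Type v} [Group G] (ε : H38.SU K n →* G) : Prop :=
  ∀ g : H38.SU K n, ε g = 1 ↔ ∃ c : K, mt g = c • (1 : Matrix (Fin n) (Fin n) K)

lemma ScK.comp {G : Type v} [Group G] {ε : H38.SU K n →* G} (h : ScK ε) (u : GU K n) :
    ScK (ε.comp (cj u)) := by
  intro g
  show ε (cj u g) = 1 ↔ _
  rw [h]
  constructor
  · rintro ⟨c, hc⟩
    refine ⟨c, ?_⟩
    rw [mt_cj] at hc
    have h1 : star (u : Matrix (Fin n) (Fin n) K) * ((u : Matrix (Fin n) (Fin n) K) * mt g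
        * star (u : Matrix (Fin n) (Fin n) K)) * (u : Matrix (Fin n) (Fin n) K) = mt g := by
      have : star (u : Matrix (Fin n) (Fin n) K) * ((u : Matrix (Fin n) (Fin n) K) * mt g
        * star (u : Matrix (Fin n) (Fin n) K)) * (u : Matrix (Fin n) (Fin n) K)
        = (star (u : Matrix (Fin n) (Fin n) K) * (u : Matrix (Fin n) (Fin n) K)) * mt g
        * (star (u : Matrix (Fin n) (Fin n) K) * (u : Matrix (Fin n) (Fin n) K)) := by
        simp only [Matrix.mul_assoc]
      rw [this, star_mul_self', Matrix.one_mul, Matrix.mul_one]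
    rw [← h1, hc, Matrix.mul_smul, Matrix.smul_mul, Matrix.mul_one, star_mul_self']
  · rintro ⟨c, hc⟩
    refine ⟨c, ?_⟩
    rw [mt_cj, hc, Matrix.mul_smul, Matrix.smul_mul, Matrix.mul_one, mul_star_self']

/-- equality of images means equality up to a scalar -/
lemma ScK.eq_iff {G : Type v} [Group G] {ε : H38.SU K n →* G} (h : ScK ε) (g g' : H38.SU K n) :
    ε g = ε g' ↔ ∃ c : K, mt g = c • mt g' := by
  have h1 : ε g = ε g' ↔ ε (g * g'⁻¹) = 1 := by
    rw [map_mul, map_inv, mul_inv_eq_one]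
  rw [h1, h]
  constructor
  · rintro ⟨c, hc⟩
    refine ⟨c, ?_⟩
    have h2 : mt g = mt (g * g'⁻¹) * mt g' := by
      rw [← mt_mul, inv_mul_cancel_right]
    rw [h2, hc, Matrix.smul_mul, Matrix.one_mul]
  · rintro ⟨c, hc⟩
    refine ⟨c, ?_⟩
    rw [mt_mul, hc, Matrix.smul_mul, mt_inv, mt_mul_star]

end conj

section words
variable {K : Type u} [Field K] [Fintype K] [StarRing K] {n : ℕ}

/-- numbers `ζ`, `c` for the words -/
structure ZC (n : ℕ) (ζ c : K) : Prop where
  zn : ζ * star ζ = 1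
  cn : c * star c = 1
  rel : c ^ n * ζ = 1

lemma sM_unitary {ζ c : K} (h : ZC n ζ c) {w : List (Ln K n)} (hw : Orth w) :
    sM ζ c w * star (sM ζ c w) = 1 := by
  have h1 := mem_unitaryGroup_iff.1 (eU_aux ⟨(isPr_sm hw).1, (isPr_sm hw).2, h.zn⟩)
  rw [sM, star_smul, smul_mul_smul_comm, h1, star_pow, ← mul_pow, h.cn, one_pow, one_smul]

lemma sM_det {ζ c : K} (h : ZC n ζ c) {w : List (Ln K n)} (hw : Orth w) : (sM ζ c w).det = 1 := by
  rw [sM, det_smul, Fintype.card_fin, H402.det_word ζ hw, ← pow_mul, mul_comm w.length n, pow_mul,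
    ← mul_pow, h.rel, one_pow]

lemma mt_sW {ζ c : K} (h : ZC n ζ c) {w : List (Ln K n)} (hw : Orth w) :
    mt (sW ζ c w) = sM ζ c w := by
  have h1 := exists_mt (sM_unitary h hw) (sM_det h hw)
  rw [sW, dif_pos h1]
  exact h1.choose_spec

lemma sm_mul_sm {u v : List (Ln K n)} (h : Orth (u ++ v)) : sm u * sm v = 0 := by
  obtain ⟨hu, hv, huv⟩ := List.pairwise_append.1 h
  clear h
  induction u with
  | nil => simp [sm]
  | cons a t ih =>
    rw [sm_cons, Matrix.add_mul, ih (List.Pairwise.of_cons hu)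
      (fun x hx y hy => huv x (List.mem_cons_of_mem _ hx) y hy), add_zero]
    exact mul_sm_zero v fun b hb => huv a List.mem_cons_self b hb

lemma sM_append {ζ c : K} {u v : List (Ln K n)} (h : Orth (u ++ v)) :
    sM ζ c (u ++ v) = sM ζ c u * sM ζ c v := by
  rw [sM, sM, sM, smul_mul_smul_comm, ← pow_add, List.length_append, sm_append]
  congr 1
  have e : (1 + (ζ - 1) • sm u) * (1 + (ζ - 1) • sm v)
      = 1 + (ζ - 1) • (sm u + sm v) + ((ζ - 1) * (ζ - 1)) • (sm u * sm v) := by
    simp only [Matrix.add_mul, Matrix.mul_add, Matrix.one_mul, Matrix.mul_one, Matrix.smul_mul,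
      Matrix.mul_smul, smul_add, smul_smul]
    abel
  rw [e, sm_mul_sm h, smul_zero, add_zero]

/-- (i) the words are multiplicative -/
theorem sW_append {ζ c : K} (hz : ZC n ζ c) {u v : List (Ln K n)} (h : Orth (u ++ v)) :
    sW ζ c (u ++ v) = sW ζ c u * sW ζ c v := by
  obtain ⟨hu, hv, -⟩ := List.pairwise_append.1 h
  apply mt_inj
  rw [mt_mul, mt_sW hz h, mt_sW hz hu, mt_sW hz hv, sM_append h]

/-- the identity as a ring homomorphism compatible with `star` -/
lemma id_star (x : K) : (RingHom.id K) (star x) = star ((RingHom.id K) x) := rfl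

/-- the letter moved by a unitary matrix -/
abbrev lu (u : GU K n) : Ln K n → Ln K n := lam (RingHom.id K) id_star u

lemma lu_coe (u : GU K n) (P : Ln K n) : (lu u P).1
    = (u : Matrix (Fin n) (Fin n) K) * P.1 * star (u : Matrix (Fin n) (Fin n) K) := by
  rw [lam_coe, conjM]
  rfl

lemma sm_lu (u : GU K n) (w : List (Ln K n)) : sm (w.map (lu u))
    = (u : Matrix (Fin n) (Fin n) K) * sm w * star (u : Matrix (Fin n) (Fin n) K) := by
  rw [H687.sm_map, conjM]
  rfl

lemma orth_lu (u : GU K n) {w : List (Ln K n)} (h : Orth w) : Orth (w.map (lu u)) :=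
  H687.orth_map _ _ u h

lemma lu_lu (u v : GU K n) (P : Ln K n) : lu u (lu v P) = lu (u * v) P := by
  apply Subtype.ext
  rw [lu_coe, lu_coe, lu_coe, coe_mul', star_mul]
  simp only [Matrix.mul_assoc]

lemma lu_one (P : Ln K n) : lu 1 P = P := by
  apply Subtype.ext
  rw [lu_coe]
  have : ((1 : GU K n) : Matrix (Fin n) (Fin n) K) = 1 := rfl
  rw [this, star_one, Matrix.one_mul, Matrix.mul_one]

lemma map_lu_inv (u : GU K n) (w : List (Ln K n)) : (w.map (lu u)).map (lu u⁻¹) = w := by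
  rw [List.map_map]
  have : lu u⁻¹ ∘ lu u = (id : Ln K n → Ln K n) := by
    funext P
    show lu u⁻¹ (lu u P) = P
    rw [lu_lu, inv_mul_cancel, lu_one]
  rw [this, List.map_id]

lemma map_lu_inv' (u : GU K n) (w : List (Ln K n)) : (w.map (lu u⁻¹)).map (lu u) = w := by
  have := map_lu_inv u⁻¹ w
  rwa [inv_inv] at this

/-- (i') the words of a moved frame -/
theorem sW_lu {ζ c : K} (hz : ZC n ζ c) (u : GU K n) {w : List (Ln K n)} (h : Orth w) :
    sW ζ c (w.map (lu u)) = cj u (sW ζ c w) := by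
  apply mt_inj
  rw [mt_cj, mt_sW hz h, mt_sW hz (orth_lu u h), sM, sM, List.length_map, sm_lu, Matrix.mul_smul,
    Matrix.smul_mul]
  congr 1
  rw [Matrix.mul_add, Matrix.add_mul, Matrix.mul_one, mul_star_self', Matrix.mul_smul,
    Matrix.smul_mul]

lemma orth_of_lu (u : GU K n) {w : List (Ln K n)} (h : Orth (w.map (lu u))) : Orth w := by
  have := orth_lu u⁻¹ h
  rwa [map_lu_inv] at this

lemma lu_mem_Fr (u : GU K n) {w : List (Ln K n)} : w.map (lu u) ∈ Fr K n ↔ w ∈ Fr K n := by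
  rw [mem_Fr, mem_Fr, List.length_map]
  exact ⟨fun h => ⟨h.1, orth_of_lu u h.2⟩, fun h => ⟨h.1, orth_lu u h.2⟩⟩

/-- (i'') the groups `De` of a moved frame -/
theorem De_lu {G : Type v} [Group G] {ζ c : K} (hz : ZC n ζ c) (ε : H38.SU K n →* G) (u : GU K n)
    {w : List (Ln K n)} (h : Orth w) :
    De (fun w => ε (sW ζ c w)) (w.map (lu u)) = De (fun w => (ε.comp (cj u)) (sW ζ c w)) w := by
  unfold De
  congr 1
  ext y
  constructor
  · rintro ⟨a, b, hab, rfl⟩
    obtain ⟨a', b', rfl, rfl, rfl⟩ := List.map_eq_append_iff.1 hab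
    refine ⟨a', b', rfl, ?_⟩
    show ε _ = ε (cj u _)
    rw [sW_lu hz u (List.pairwise_append.1 h).1]
  · rintro ⟨a, b, rfl, rfl⟩
    refine ⟨a.map (lu u), b.map (lu u), List.map_append, ?_⟩
    show ε (cj u _) = ε _
    rw [sW_lu hz u (List.pairwise_append.1 h).1]

/-- `De` contains the elements of the letters -/
theorem letter_mem_De {G : Type v} [Group G] {ζ c : K} (hz : ZC n ζ c) (ε : H38.SU K n →* G)
    {w : List (Ln K n)} (h : Orth w) {P : Ln K n} (hP : P ∈ w) :
    ε (sW ζ c [P]) ∈ De (fun w => ε (sW ζ c w)) w := by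
  obtain ⟨a, b, rfl⟩ := List.append_of_mem hP
  have e1 : a ++ P :: b = (a ++ [P]) ++ b := by simp
  have h1 : ε (sW ζ c a) ∈ De (fun w => ε (sW ζ c w)) (a ++ P :: b) :=
    Subgroup.subset_closure ⟨a, P :: b, rfl, rfl⟩
  have h2 : ε (sW ζ c (a ++ [P])) ∈ De (fun w => ε (sW ζ c w)) (a ++ P :: b) :=
    Subgroup.subset_closure ⟨a ++ [P], b, e1, rfl⟩
  have h3 : Orth (a ++ [P]) := by
    rw [e1] at h
    exact (List.pairwise_append.1 h).1
  rw [sW_append hz h3, map_mul] at h2
  have := Subgroup.mul_mem _ (Subgroup.inv_mem _ h1) h2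
  rwa [inv_mul_cancel_left] at this

/-- the standard letters -/
def Ls (i : Fin n) : Ln K n :=
  ⟨Matrix.single i i 1, Pi.single i 1, by simp [dotProduct, Pi.single_apply], by
    ext j k
    simp only [Matrix.single_apply, vecMulVec_apply, Pi.star_apply, Pi.single_apply]
    by_cases hj : j = i
    · by_cases hk : k = i
      · simp [hj, hk]
      · simp [hj, hk, Ne.symm hk]
    · simp [hj, Ne.symm hj]⟩

lemma Ls_coe (i : Fin n) : (Ls i : Ln K n).1 = Matrix.single i i 1 := rfl

lemma conj_single (A : Matrix (Fin n) (Fin n) K) (k i j : Fin n) :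
    (A * (Matrix.single k k 1 : Matrix (Fin n) (Fin n) K) * star A) i j = A i k * star (A j k) := by
  rw [Matrix.mul_apply, Finset.sum_eq_single k]
  · rw [Matrix.mul_single_apply_same, mul_one, Matrix.star_apply]
  · intro b _ hb
    rw [Matrix.mul_single_apply_of_ne _ _ _ _ _ hb, zero_mul]
  · simp

/-- every frame is the standard frame moved by a unitary matrix -/
theorem exists_M {w : List (Ln K n)} (hw : w ∈ Fr K n) :
    ∃ M : GU K n, w = (List.ofFn (fun i : Fin n => (Ls i : Ln K n))).map (lu M) := by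
  obtain ⟨hl, hO⟩ := (mem_Fr K).1 hw
  have hx : ∀ i : Fin n, ∃ x : Fin n → K, star x ⬝ᵥ x = 1 ∧
      (w.get (Fin.cast hl.symm i)).1 = vecMulVec x (star x) :=
    fun i => (w.get (Fin.cast hl.symm i)).2
  choose x hx1 hx2 using hx
  have horth : ∀ i j : Fin n, i < j → star (x i) ⬝ᵥ x j = 0 := by
    intro i j hij
    have h1 := List.pairwise_iff_get.1 hO (Fin.cast hl.symm i) (Fin.cast hl.symm j) hij
    rw [hx2, hx2, vecMulVec_mul_vecMulVec] at h1
    by_contra hne
    have h3 : vecMulVec (x i) (star (x j)) = 0 := by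
      have h4 := congrArg (fun A => (star (x i) ⬝ᵥ x j)⁻¹ • A) h1
      simpa [smul_smul, hne] using h4
    have h5 : star (x i) ⬝ᵥ (vecMulVec (x i) (star (x j)) *ᵥ x j) = 0 := by
      rw [h3]
      simp
    rw [vecMulVec_mulVec, hx1 j] at h5
    simp [hx1 i] at h5
  set A : Matrix (Fin n) (Fin n) K := Matrix.of fun i j => x j i with hA
  have hAA : star A * A = 1 := by
    ext i j
    have hij : (star A * A) i j = star (x i) ⬝ᵥ x j := by
      simp [Matrix.mul_apply, dotProduct, hA]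
    rw [hij]
    rcases lt_trichotomy i j with h | h | h
    · rw [horth i j h, Matrix.one_apply_ne h.ne]
    · subst h
      rw [hx1, Matrix.one_apply_eq]
    · have := horth j i h
      rw [← star_dot, this, star_zero, Matrix.one_apply_ne h.ne']
  refine ⟨⟨A, mem_unitaryGroup_iff'.2 hAA⟩, ?_⟩
  apply List.ext_get
  · simp [hl]
  · intro k h1 h2
    apply Subtype.ext
    have hk : k < n := hl ▸ h1
    have h3 := hx2 ⟨k, hk⟩
    have h4 : (w.get ⟨k, h1⟩).1 = vecMulVec (x ⟨k, hk⟩) (star (x ⟨k, hk⟩)) := h3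
    rw [h4]
    simp only [List.get_eq_getElem, List.getElem_map, List.getElem_ofFn]
    rw [lu_coe, Ls_coe]
    ext i j
    rw [conj_single]
    rfl

end words

end

end Vale.Agent.P240.R2.H945
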