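import Vale.Agent.P240.R2.H945.RedA
import Vale.Agent.P240.R2.H401.NL5

/-!
The action of an element `x` of order `p` on the image of `SU_n(q)` that centralizes the group of a
frame: after a change of the frame it is the action of a field automorphism.
-/

set_option autoImplicit false
set_option linter.unusedSectionVars false

namespace Vale.Agent.P240.R2.H945

open Matrix Vale.Agent.P240.R2.AS Vale.Agent.P240.R2.H687
open Vale.Agent.P240.R2.H38 (mt mt_inj sM sW Acts De)
open scoped Classical

universe u v

noncomputable section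

variable {K : Type u} [Field K] [Fintype K] [StarRing K] {n : ℕ} {G : Type v} [Group G]

/-- entrywise application of a ring automorphism -/
abbrev su (s : K ≃+* K) (hs : ∀ a, s (star a) = star (s a)) : GU K n →* GU K n :=
  uMap n (s : K →+* K) hs

lemma su_coe (s : K ≃+* K) (hs : ∀ a, s (star a) = star (s a)) (g : GU K n) :
    ((su s hs g : GU K n) : Matrix (Fin n) (Fin n) K) = (g : Matrix (Fin n) (Fin n) K).map s := rfl

/-- the image of `h` under `g s( ) g⁻¹` -/
lemma exists_image (s : K ≃+* K) (hs : ∀ a, s (star a) = star (s a)) (g : GU K n)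
    (h : H38.SU K n) : ∃ h' : H38.SU K n, mt h' = (g : Matrix (Fin n) (Fin n) K) * (mt h).map s
      * star (g : Matrix (Fin n) (Fin n) K) := by
  have h1 : (su s hs h.1 : Matrix (Fin n) (Fin n) K).det = 1 := by
    have h3 : (h.1 : Matrix (Fin n) (Fin n) K).map s
      = (s : K →+* K).mapMatrix (h.1 : Matrix (Fin n) (Fin n) K) := rfl
    have h4 : (h.1 : Matrix (Fin n) (Fin n) K).det = 1 := h.2
    rw [su_coe, h3, ← RingHom.map_det, h4, map_one]
  exact ⟨cj g ⟨su s hs h.1, h1⟩, rfl⟩

/-- change of coordinates -/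
theorem Acts.conj {ε : H38.SU K n →* G} {x : G} {g : GU K n} {s : K ≃+* K}
    (hx : Acts ε x g s) (u : GU K n) : Acts (ε.comp (cj u)) x (u⁻¹ * g * su s hx.1 u) s := by
  refine ⟨hx.1, fun h h' e => ?_⟩
  show x * ε (cj u h) * x⁻¹ = ε (cj u h')
  refine hx.2 _ _ ?_
  have e2 : (mt (cj u h)).map s = ((su s hx.1 u : GU K n) : Matrix (Fin n) (Fin n) K)
      * (mt h).map s * star ((su s hx.1 u : GU K n) : Matrix (Fin n) (Fin n) K) := by
    rw [mt_cj, Matrix.map_mul, Matrix.map_mul, su_coe]
    congr 1
    ext i j
    simp only [Matrix.map_apply, Matrix.star_apply, hx.1]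
  rw [mt_cj, e, e2, coe_mul', coe_mul', coe_inv', star_mul, star_mul, star_star]
  have e3 := mul_star_self' u
  calc (u : Matrix (Fin n) (Fin n) K) * (star (u : Matrix (Fin n) (Fin n) K)
        * (g : Matrix (Fin n) (Fin n) K) * (su s hx.1 u : Matrix (Fin n) (Fin n) K)
        * (mt h).map s * (star (su s hx.1 u : Matrix (Fin n) (Fin n) K)
        * (star (g : Matrix (Fin n) (Fin n) K) * (u : Matrix (Fin n) (Fin n) K))))
        * star (u : Matrix (Fin n) (Fin n) K)
      = ((u : Matrix (Fin n) (Fin n) K) * star (u : Matrix (Fin n) (Fin n) K))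
        * (g : Matrix (Fin n) (Fin n) K) * (su s hx.1 u : Matrix (Fin n) (Fin n) K)
        * (mt h).map s * star (su s hx.1 u : Matrix (Fin n) (Fin n) K)
        * star (g : Matrix (Fin n) (Fin n) K)
        * ((u : Matrix (Fin n) (Fin n) K) * star (u : Matrix (Fin n) (Fin n) K)) := by
        simp only [Matrix.mul_assoc]
    _ = _ := by
        rw [e3, Matrix.one_mul, Matrix.mul_one]
        simp only [Matrix.mul_assoc]

/-- composition -/
theorem Acts.mul {ε : H38.SU K n →* G} {x y : G} {g g' : GU K n} {s s' : K ≃+* K}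
    (hx : Acts ε x g s) (hy : Acts ε y g' s') :
    Acts ε (x * y) (g * su s hx.1 g') ((s : RingAut K) * (s' : RingAut K)) := by
  refine ⟨fun a => ?_, fun h h' e => ?_⟩
  · show s (s' (star a)) = star (s (s' a))
    rw [hy.1, hx.1]
  · obtain ⟨h1, e1⟩ := exists_image s' hy.1 g' h
    have h2 := hy.2 h h1 e1
    have h3 := hx.2 h1 h' ?_
    · rw [← h3, ← h2]
      group
    · rw [e, e1, Matrix.map_mul, Matrix.map_mul, coe_mul', star_mul, su_coe]
      have e4 : (star (g' : Matrix (Fin n) (Fin n) K)).map s
          = star ((g' : Matrix (Fin n) (Fin n) K).map s) := by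
        ext i j
        simp only [Matrix.map_apply, Matrix.star_apply, hx.1]
      rw [e4]
      have e5 : ((mt h).map s').map s = (mt h).map ((s : RingAut K) * (s' : RingAut K)) := by
        ext i j
        rfl
      rw [e5]
      simp only [Matrix.mul_assoc]

theorem Acts.one (ε : H38.SU K n →* G) : Acts ε 1 1 (1 : RingAut K) := by
  refine ⟨fun a => rfl, fun h h' e => ?_⟩
  have : mt h' = mt h := by
    rw [e]
    have h1 : ((1 : GU K n) : Matrix (Fin n) (Fin n) K) = 1 := rfl
    rw [h1, star_one, Matrix.one_mul, Matrix.mul_one]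
    ext i j
    rfl
  rw [mt_inj this, one_mul, inv_one, mul_one]

/-- scalars do not matter -/
theorem Acts.smul {ε : H38.SU K n →* G} {x : G} {g g' : GU K n} {s : K ≃+* K}
    (hx : Acts ε x g s) {k : K} (hk : k * star k = 1)
    (e : (g : Matrix (Fin n) (Fin n) K) = k • (g' : Matrix (Fin n) (Fin n) K)) :
    Acts ε x g' s := by
  refine ⟨hx.1, fun h h' e1 => hx.2 h h' ?_⟩
  rw [e1, e, star_smul, Matrix.smul_mul, Matrix.smul_mul, Matrix.mul_smul, smul_smul, hk, one_smul]

/-- diagonal unitary matrices -/
def dg (a : Fin n → K) (ha : ∀ i, a i * star (a i) = 1) : GU K n :=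
  ⟨Matrix.diagonal a, by
    rw [mem_unitaryGroup_iff, star_eq_conjTranspose, Matrix.diagonal_conjTranspose,
      Matrix.diagonal_mul_diagonal]
    ext i j
    by_cases h : i = j
    · subst h
      simp [ha]
    · simp [h]⟩

lemma dg_coe (a : Fin n → K) (ha : ∀ i, a i * star (a i) = 1) :
    ((dg a ha : GU K n) : Matrix (Fin n) (Fin n) K) = Matrix.diagonal a := rfl

lemma su_dg (s : K ≃+* K) (hs : ∀ a, s (star a) = star (s a)) (a : Fin n → K)
    (ha : ∀ i, a i * star (a i) = 1) (ha' : ∀ i, s (a i) * star (s (a i)) = 1) :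
    su s hs (dg a ha) = dg (fun i => s (a i)) ha' := by
  apply Subtype.ext
  rw [su_coe, dg_coe, dg_coe, Matrix.diagonal_map (map_zero s)]

lemma conj_dg (b : Fin n → K) (A : Matrix (Fin n) (Fin n) K) (i j : Fin n) :
    (Matrix.diagonal b * A * star (Matrix.diagonal b)) i j = b i * A i j * star (b j) := by
  rw [star_eq_conjTranspose, Matrix.diagonal_conjTranspose, Matrix.mul_diagonal,
    Matrix.diagonal_mul]
  rfl

/-- (ii) `x` commutes with the elements of the standard letters: its matrix is diagonal -/
theorem diag_of_comm {ε : H38.SU K n →* G} (hker : ScK ε) (hn : 3 ≤ n) {ζ c : K}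
    (hz : ZC n ζ c) (hζ1 : ζ ≠ 1) {x : G} {A : GU K n} {s : K ≃+* K} (hx : Acts ε x A s)
    (hcomm : ∀ i : Fin n, x * ε (sW ζ c [Ls i]) = ε (sW ζ c [Ls i]) * x) :
    ∀ i j : Fin n, j ≠ i → (A : Matrix (Fin n) (Fin n) K) j i = 0 := by
  intro i j hji
  by_contra hne
  set B : Matrix (Fin n) (Fin n) K := (A : Matrix (Fin n) (Fin n) K) with hB
  have hO : Orth [(Ls i : Ln K n)] := List.pairwise_singleton _ _
  obtain ⟨h', e⟩ := exists_image s hx.1 A (sW ζ c [Ls i])
  have h1 := hx.2 _ h' e
  rw [hcomm i, mul_inv_cancel_right, hker.eq_iff] at h1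
  obtain ⟨k, hk⟩ := h1
  rw [e, mt_sW hz hO, sM] at hk
  -- entries
  have hsm : sm [(Ls i : Ln K n)] = Matrix.single i i 1 := by
    simp [sm, Ls_coe]
  rw [hsm, List.length_singleton, pow_one] at hk
  have hmap : (c • (1 + (ζ - 1) • Matrix.single i i (1 : K)) : Matrix (Fin n) (Fin n) K).map s
      = s c • (1 + (s ζ - 1) • Matrix.single i i (1 : K)) := by
    ext a b
    simp only [Matrix.map_apply, Matrix.smul_apply, Matrix.add_apply, smul_eq_mul,
      Matrix.one_apply, Matrix.single_apply, map_mul, map_add, map_sub, map_one]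
    split_ifs <;> simp
  rw [hmap] at hk
  have hE : B * (s c • (1 + (s ζ - 1) • Matrix.single i i (1 : K))) * star B
      = s c • (1 + (s ζ - 1) • (B * Matrix.single i i (1 : K) * star B)) := by
    rw [Matrix.mul_smul, Matrix.smul_mul, Matrix.mul_add, Matrix.add_mul, Matrix.mul_one,
      Matrix.mul_smul, Matrix.smul_mul, hB, mul_star_self']
  rw [hE] at hk
  have hent : ∀ a b : Fin n, c * ((1 : Matrix (Fin n) (Fin n) K) a b + (ζ - 1) *
      (Matrix.single i i (1 : K) : Matrix (Fin n) (Fin n) K) a b) =
      k * s c * ((1 : Matrix (Fin n) (Fin n) K) a b + (s ζ - 1) * (B a i * star (B b i))) := by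
    intro a b
    have h2 := congrFun (congrFun hk a) b
    simp only [Matrix.smul_apply, Matrix.add_apply, smul_eq_mul, conj_single] at h2
    rw [mul_assoc]
    exact h2
  set m : K := k * s c with hm
  have hc0 : c ≠ 0 := left_ne_zero_of_mul_eq_one hz.cn
  have hζ0 : s ζ - 1 ≠ 0 := by
    intro h3
    apply hζ1
    apply s.injective
    rw [map_one]
    exact sub_eq_zero.1 h3
  obtain ⟨l, hli, hlj⟩ : ∃ l : Fin n, l ≠ i ∧ l ≠ j := by
    by_contra hcon
    push Not at hcon
    have h4 : (Finset.univ : Finset (Fin n)) ⊆ {i, j} := by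
      intro l _
      rw [Finset.mem_insert, Finset.mem_singleton]
      by_cases h5 : l = i
      · exact Or.inl h5
      · exact Or.inr (hcon l h5)
    have h5 := Finset.card_le_card h4
    rw [Finset.card_univ, Fintype.card_fin] at h5
    have h6 := Finset.card_le_two (a := i) (b := j)
    omega
  have h3 := hent l l
  rw [Matrix.one_apply_eq, Matrix.single_apply, if_neg (fun h => hli h.1.symm), mul_zero,
    add_zero, mul_one] at h3
  have hm0 : m ≠ 0 := by
    intro h4
    rw [h4, zero_mul] at h3
    exact hc0 h3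
  -- the other entries of the column vanish
  have hcol : ∀ l : Fin n, l ≠ j → B l i = 0 := by
    intro l hl
    have h3 := hent j l
    rw [Matrix.one_apply_ne hl.symm, Matrix.single_apply, if_neg (fun h => hji h.1.symm)] at h3
    simp only [zero_add, mul_zero] at h3
    have h4 : star (B l i) = 0 := by
      rcases mul_eq_zero.1 h3.symm with h5 | h5
      · exact absurd h5 hm0
      · rcases mul_eq_zero.1 h5 with h6 | h6
        · exact absurd h6 hζ0
        · rcases mul_eq_zero.1 h6 with h7 | h7
          · exact absurd h7 hne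
          · exact h7
    exact star_eq_zero.1 h4
  rw [hcol l hlj, zero_mul, mul_zero, add_zero, mul_one] at h3
  have h4 := hent j j
  rw [Matrix.one_apply_eq, Matrix.single_apply, if_neg (fun h => hji h.1.symm), mul_zero,
    add_zero, mul_one] at h4
  have h5 : m * ((s ζ - 1) * (B j i * star (B j i))) = 0 := by linear_combination h3 - h4
  have h6 : star (B j i) ≠ 0 := fun h => hne (star_eq_zero.1 h)
  exact mul_ne_zero hm0 (mul_ne_zero hζ0 (mul_ne_zero hne h6)) h5

/-- a unitary matrix with zeros outside of the diagonal -/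
theorem exists_dg {A : GU K n} (h : ∀ i j : Fin n, j ≠ i → (A : Matrix (Fin n) (Fin n) K) j i = 0) :
    ∃ (a : Fin n → K) (ha : ∀ i, a i * star (a i) = 1), A = dg a ha := by
  have hd : (A : Matrix (Fin n) (Fin n) K)
      = Matrix.diagonal (fun i => (A : Matrix (Fin n) (Fin n) K) i i) := by
    ext i j
    by_cases hij : i = j
    · subst hij
      simp
    · rw [Matrix.diagonal_apply_ne _ hij, h j i hij]
  have ha : ∀ i, (A : Matrix (Fin n) (Fin n) K) i i
      * star ((A : Matrix (Fin n) (Fin n) K) i i) = 1 := by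
    intro i
    have h1 := mul_star_self' A
    rw [hd, star_eq_conjTranspose, Matrix.diagonal_conjTranspose,
      Matrix.diagonal_mul_diagonal] at h1
    have h2 := congrFun (congrFun h1 i) i
    simpa using h2
  exact ⟨_, ha, Subtype.ext hd⟩

/-- a semilinear diagonal map that acts trivially -/
theorem trivial_of_acts_one {q : ℕ} (hK : Nat.card K = q ^ 2) (hs : ∀ x : K, star x = x ^ q)
    (hn : 3 ≤ n) {ε : H38.SU K n →* G} (hker : ScK ε) {b : Fin n → K}
    (hb : ∀ i, b i * star (b i) = 1) {τ : K ≃+* K} (h1 : Acts ε 1 (dg b hb) τ) :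
    τ = 1 ∧ ∀ i j, b i = b j := by
  have key : ∀ h : H38.SU K n, ∃ k : K, ∀ i j, b i * τ (mt h i j) * star (b j) = k * mt h i j := by
    intro h
    obtain ⟨h', e⟩ := exists_image τ h1.1 (dg b hb) h
    have h2 := h1.2 h h' e
    rw [one_mul, inv_one, mul_one, hker.eq_iff] at h2
    obtain ⟨k, hk⟩ := h2
    refine ⟨k⁻¹, fun i j => ?_⟩
    have hk0 : k ≠ 0 := by
      rintro rfl
      have h3 := mt_mul_star h
      rw [hk, zero_smul, Matrix.zero_mul] at h3
      have h4 := congrFun (congrFun h3 ⟨0, by omega⟩) ⟨0, by omega⟩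
      simp at h4
    have h3 := congrFun (congrFun hk i) j
    rw [e, dg_coe, Matrix.smul_apply, conj_dg, Matrix.map_apply, smul_eq_mul] at h3
    rw [eq_comm, inv_mul_eq_iff_eq_mul₀ hk0]
    exact h3
  have hstar0 : ∀ i, star (b i) ≠ 0 := fun i => right_ne_zero_of_mul_eq_one (hb i)
  -- three indices
  have hthird : ∀ i j : Fin n, ∃ l, l ≠ i ∧ l ≠ j := by
    intro i j
    by_contra hcon
    push Not at hcon
    have h4 : (Finset.univ : Finset (Fin n)) ⊆ {i, j} := by
      intro l _
      rw [Finset.mem_insert, Finset.mem_singleton]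
      by_cases h5 : l = i
      · exact Or.inl h5
      · exact Or.inr (hcon l h5)
    have h5 := Finset.card_le_card h4
    rw [Finset.card_univ, Fintype.card_fin] at h5
    have h6 := Finset.card_le_two (a := i) (b := j)
    omega
  constructor
  · refine H401.eq_one_of_norm_one hK hs τ fun z hz => ?_
    set i0 : Fin n := ⟨0, by omega⟩
    set i1 : Fin n := ⟨1, by omega⟩
    have h01 : i0 ≠ i1 := by
      intro h
      have := congrArg Fin.val h
      simp [i0, i1] at this
    set a : Fin n → K := fun k => (if k = i0 then z else 1) * (if k = i1 then star z else 1) with ha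
    have ha1 : ∀ i, a i * star (a i) = 1 := by
      intro i
      have hz' : star z * z = 1 := by rw [mul_comm]; exact hz
      simp only [ha, star_mul']
      split_ifs <;> simp [hz, hz']
    have hdet : (Matrix.diagonal a).det = 1 := by
      rw [Matrix.det_diagonal, ha, Finset.prod_mul_distrib, Finset.prod_ite_eq',
        Finset.prod_ite_eq']
      simp [hz]
    obtain ⟨h, hh⟩ := exists_mt (mul_star_self' (dg a ha1)) hdet
    obtain ⟨k, hk⟩ := key h
    obtain ⟨l, hl0, hl1⟩ := hthird i0 i1
    have e1 : ∀ i, mt h i i = a i := by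
      intro i
      rw [hh, dg_coe, Matrix.diagonal_apply_eq]
    have h3 := hk l l
    rw [e1] at h3
    have hal : a l = 1 := by simp [ha, hl0, hl1]
    rw [hal, map_one, mul_one, mul_one, hb] at h3
    have h4 := hk i0 i0
    rw [e1, ← h3, one_mul] at h4
    have ha0 : a i0 = z := by simp [ha, h01]
    rw [ha0, mul_comm (b i0), mul_assoc, hb, mul_one] at h4
    exact h4
  · intro i j
    by_cases hij : i = j
    · rw [hij]
    set d : Fin n → K := fun k => if k = i then -1 else 1 with hd
    have hd1 : ∀ i, d i * star (d i) = 1 := by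
      intro k
      simp only [hd]
      split_ifs <;> simp
    set R : Matrix (Fin n) (Fin n) K := Matrix.diagonal d * (Equiv.swap i j).permMatrix K with hR
    have hRR : R * star R = 1 := by
      rw [hR, star_mul]
      have e1 : (Equiv.swap i j).permMatrix K * star ((Equiv.swap i j).permMatrix K) = 1 := by
        rw [star_eq_conjTranspose, Matrix.conjTranspose_permMatrix, ← Matrix.permMatrix_mul,
          inv_mul_cancel, Matrix.permMatrix_one]
      calc Matrix.diagonal d * (Equiv.swap i j).permMatrix K
            * (star ((Equiv.swap i j).permMatrix K) * star (Matrix.diagonal d))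
          = Matrix.diagonal d * ((Equiv.swap i j).permMatrix K
            * star ((Equiv.swap i j).permMatrix K)) * star (Matrix.diagonal d) := by
            simp only [Matrix.mul_assoc]
        _ = 1 := by
            rw [e1, Matrix.mul_one]
            exact mul_star_self' (dg d hd1)
    have hdet : R.det = 1 := by
      rw [hR, Matrix.det_mul, Matrix.det_diagonal, Matrix.det_permutation,
        Equiv.Perm.sign_swap hij, hd, Finset.prod_ite_eq']
      simp
    obtain ⟨h, hh⟩ := exists_mt hRR hdet
    obtain ⟨k, hk⟩ := key h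
    obtain ⟨l, hl0, hl1⟩ := hthird i j
    have e1 : ∀ a b, mt h a b = d a * (if Equiv.swap i j a = b then 1 else 0) := by
      intro a b
      rw [hh, hR, Matrix.diagonal_mul]
      congr 1
      simp [PEquiv.toMatrix_apply, Equiv.toPEquiv_apply]
    have h3 := hk l l
    have hl : mt h l l = 1 := by
      rw [e1, Equiv.swap_apply_of_ne_of_ne hl0 hl1]
      simp [hd, hl0]
    rw [hl, map_one, mul_one, mul_one, hb] at h3
    have h4 := hk i j
    have hl2 : mt h i j = -1 := by
      rw [e1, Equiv.swap_apply_left]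
      simp [hd]
    rw [hl2, ← h3, map_neg, map_one] at h4
    have h5 : b i * star (b j) = b j * star (b j) := by
      rw [hb]
      linear_combination -h4
    exact mul_right_cancel₀ (hstar0 j) h5

end

end Vale.Agent.P240.R2.H945
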