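import Vale.Agent.P240.Bdl.B1

/-!
Chains: cones over several points at once. Linear algebra for sums of cycles.
-/

set_option linter.all false

namespace Vale.Agent.P240.R2.H945

open Finsupp hiding cons
open Subgroup Vale.Agent.P240.K

universe u v

section
variable {𝕜 : Type v} [Field 𝕜] {α : Type u}

/-- strict version of `hc_mem`, with lengths -/
lemma hc_st [PartialOrder α] {T S : Set α} {φ : α → α} {F : α} (hTS : T ⊆ S) (hFS : F ∈ S)
    (hφS : ∀ x ∈ T, φ x ∈ S) (hF : ∀ x ∈ T, F < φ x)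
    (hle : ∀ x ∈ T, x < φ x) (hmono : ∀ x ∈ T, ∀ y ∈ T, x < y → φ x < φ y) {r : ℕ} {c : Ch 𝕜 α}
    (hc' : c ∈ Sp 𝕜 (fun l => st T l ∧ l.length = r)) :
    hc φ F c ∈ Sp 𝕜 (fun l => st S l ∧ l.length = r + 1) := by
  have hmono' : ∀ x ∈ T, ∀ y ∈ T, x ≤ y → φ x ≤ φ y := by
    intro x hx y hy h
    rcases h.lt_or_eq with h | h
    · exact (hmono x hx y hy h).le
    · rw [h]
  refine Submodule.add_mem _ ?_ ?_
  · refine map_mem _ (fun l hl => ?_) hc'
    rw [h1_single]
    have key : ∀ l : List α, st T l → h1L φ l ∈ Sp 𝕜 (fun m : List α =>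
        (st S m ∧ m.length = l.length + 1) ∧ ∀ a ∈ m, ∃ b ∈ l, a ≤ φ b) := by
      intro l
      induction l with
      | nil => intro _; exact Submodule.zero_mem _
      | cons x l ih =>
        intro hl
        have hp := List.pairwise_cons.1 hl.1
        have hxT : x ∈ T := hl.2 x (by simp)
        have hlT : st T l := ⟨hp.2, fun a ha => hl.2 a (by simp [ha])⟩
        have c1 : (st S (φ x :: x :: l) ∧ (φ x :: x :: l).length = (x :: l).length + 1) ∧
            ∀ a ∈ φ x :: x :: l, ∃ b ∈ x :: l, a ≤ φ b := by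
          refine ⟨⟨⟨?_, ?_⟩, by simp⟩, ?_⟩
          · rw [List.pairwise_cons]
            refine ⟨?_, hl.1⟩
            intro a ha
            rcases List.mem_cons.1 ha with h | ha
            · rw [h]; exact hle _ hxT
            · exact lt_trans (hp.1 a ha) (hle _ hxT)
          · intro a ha
            rcases List.mem_cons.1 ha with h | ha
            · rw [h]; exact hφS _ hxT
            · exact hTS (hl.2 a ha)
          · intro a ha
            refine ⟨x, by simp, ?_⟩
            rcases List.mem_cons.1 ha with h | ha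
            · rw [h]
            rcases List.mem_cons.1 ha with h | ha
            · rw [h]; exact (hle _ hxT).le
            · exact (lt_trans (hp.1 a ha) (hle _ hxT)).le
        have c2 : ∀ m : List α, ((st S m ∧ m.length = l.length + 1) ∧ ∀ a ∈ m, ∃ b ∈ l, a ≤ φ b) →
            ((st S (φ x :: m) ∧ (φ x :: m).length = (x :: l).length + 1) ∧
              ∀ a ∈ φ x :: m, ∃ b ∈ x :: l, a ≤ φ b) := by
          rintro m ⟨⟨hm, hlen⟩, hm'⟩
          refine ⟨⟨⟨?_, ?_⟩, by simp [hlen]⟩, ?_⟩
          · rw [List.pairwise_cons]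
            refine ⟨?_, hm.1⟩
            intro a ha
            obtain ⟨b, hb, hab⟩ := hm' a ha
            exact lt_of_le_of_lt hab (hmono _ (hlT.2 b hb) _ hxT (hp.1 b hb))
          · intro a ha
            rcases List.mem_cons.1 ha with h | ha
            · rw [h]; exact hφS _ hxT
            · exact hm.2 a ha
          · intro a ha
            rcases List.mem_cons.1 ha with h | ha
            · rw [h]; exact ⟨x, by simp, le_refl _⟩
            · obtain ⟨b, hb, hab⟩ := hm' a ha
              exact ⟨b, by simp [hb], hab⟩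
        exact Submodule.sub_mem _ (single_mem_Sp c1 _) (cons_mem c2 (ih hlT))
    exact Sp_mono (fun m hm => ⟨hm.1.1, by rw [hm.1.2, hl.2]⟩) (key l hl.1)
  · have h1 : mp φ c ∈ Sp 𝕜 (fun m : List α => (st S m ∧ m.length = r) ∧ ∀ a ∈ m, F < a) := by
      refine mp_mem (P := fun l => st T l ∧ l.length = r) ?_ hc'
      rintro l ⟨hl, hlen⟩
      refine ⟨⟨⟨?_, ?_⟩, by simp [hlen]⟩, ?_⟩
      · rw [List.pairwise_map]
        exact hl.1.imp_of_mem fun {a b} ha hb hab => hmono _ (hl.2 b hb) _ (hl.2 a ha) hab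
      · intro a ha
        obtain ⟨b, hb, rfl⟩ := List.mem_map.1 ha
        exact hφS _ (hl.2 b hb)
      · intro a ha
        obtain ⟨b, hb, rfl⟩ := List.mem_map.1 ha
        exact hF _ (hl.2 b hb)
    refine sn_mem ?_ h1
    rintro m ⟨⟨hm, hlen⟩, hm'⟩
    refine ⟨⟨?_, ?_⟩, by simp [hlen]⟩
    · rw [List.pairwise_append]
      refine ⟨hm.1, by simp, ?_⟩
      intro a ha b hb
      rw [List.mem_singleton] at hb
      subst hb
      exact hm' a ha
    · intro a ha
      rcases List.mem_append.1 ha with ha | ha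
      · exact hm.2 a ha
      · rw [List.mem_singleton] at ha
        subst ha
        exact hFS

/-- chains whose lists do not end with `F` have no coefficient at the lists ending with `F` -/
lemma cf_zero {F : α} {c : Ch 𝕜 α} (h : c ∈ Sp 𝕜 (fun m : List α => ∀ l, m ≠ l ++ [F])) :
    cf [F] c = 0 := by
  ext l
  rw [cf_apply]
  by_contra hne
  exact (mem_Sp.1 h) _ (Finsupp.mem_support_iff.2 hne) l rfl

lemma h1_end {φ : α → α} {F : α} {c : Ch 𝕜 α}
    (h : c ∈ Sp 𝕜 (fun m : List α => ∀ a ∈ m, a ≠ F)) :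
    h1 φ c ∈ Sp 𝕜 (fun m : List α => ∀ l, m ≠ l ++ [F]) := by
  refine map_mem _ (fun l hl => ?_) h
  rw [h1_single]
  have key : ∀ l : List α, (∀ a ∈ l, a ≠ F) →
      h1L φ l ∈ Sp 𝕜 (fun m : List α => m ≠ [] ∧ ∀ l', m ≠ l' ++ [F]) := by
    intro l
    induction l with
    | nil => intro _; exact Submodule.zero_mem _
    | cons x l ih =>
      intro hl
      have c1 : (φ x :: x :: l) ≠ [] ∧ ∀ l', φ x :: x :: l ≠ l' ++ [F] := by
        refine ⟨by simp, ?_⟩
        intro l' h
        have h2 : (φ x :: x :: l).getLast? = some F := by rw [h]; simp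
        rw [List.getLast?_cons_cons] at h2
        exact hl F (List.mem_of_getLast? h2) rfl
      have c2 : ∀ m : List α, (m ≠ [] ∧ ∀ l', m ≠ l' ++ [F]) →
          (φ x :: m ≠ [] ∧ ∀ l', φ x :: m ≠ l' ++ [F]) := by
        rintro m ⟨hm, hm'⟩
        refine ⟨by simp, ?_⟩
        intro l' h
        cases l' with
        | nil =>
          simp only [List.nil_append, List.cons.injEq] at h
          exact hm h.2
        | cons y l' =>
          simp only [List.cons_append, List.cons.injEq] at h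
          exact hm' l' h.2
      exact Submodule.sub_mem _ (single_mem_Sp c1 _)
        (cons_mem c2 (ih fun a ha => hl a (by simp [ha])))
  exact Sp_mono (fun m hm => hm.2) (key l hl)

lemma cf_sn (F : α) (c : Ch 𝕜 α) : cf [F] (sn F c) = sg c := by
  classical
  have := lin_ext_apply (f := (cf [F]).comp (sn F)) (g := (sg (𝕜 := 𝕜)))
    (fun l => by
      simp only [LinearMap.comp_apply, sn_single, sg_single, map_smul]
      congr 1
      ext m
      rw [cf_apply, Finsupp.single_apply, Finsupp.single_apply]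
      simp [List.append_left_inj]) c
  simpa using this

lemma cf_sn_ne {F F' : α} (h : F' ≠ F) (c : Ch 𝕜 α) : cf [F] (sn F' c) = 0 := by
  refine cf_zero (sn_mem (P := fun _ => True) ?_ (mem_Sp.2 fun _ _ => trivial))
  intro l _ l' h2
  have := List.append_inj_right' h2 rfl
  simp only [List.cons.injEq, and_true] at this
  exact h this

lemma cf_hc {φ : α → α} {F : α} {c : Ch 𝕜 α} (h : c ∈ Sp 𝕜 (fun m : List α => ∀ a ∈ m, a ≠ F)) :
    cf [F] (hc φ F c) = sg (mp φ c) := by
  rw [hc, LinearMap.add_apply, map_add, cf_zero (h1_end h), zero_add, LinearMap.comp_apply, cf_sn]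

lemma cf_hc_ne {φ : α → α} {F F' : α} (hne : F' ≠ F) {c : Ch 𝕜 α}
    (h : c ∈ Sp 𝕜 (fun m : List α => ∀ a ∈ m, a ≠ F)) : cf [F] (hc φ F' c) = 0 := by
  rw [hc, LinearMap.add_apply, map_add, cf_zero (h1_end h), zero_add, LinearMap.comp_apply,
    cf_sn_ne hne]

end

/-- a family of vectors, not all killed by `b`, with sum zero -/
lemma exists_family {ι : Type*} [DecidableEq ι] (s : Finset ι) {X : Type*} [DecidableEq X] (U : Finset X)
    {V : Type*} [AddCommGroup V] [Module ℚ V] (b : (X → ℚ) →ₗ[ℚ] V) (S : ι → Submodule ℚ (X → ℚ))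
    (hS : ∀ i ∈ s, ∀ z ∈ S i, ∀ x, x ∉ U → z x = 0)
    (hc : U.card < ∑ i ∈ s, Module.finrank ℚ ((S i).map b)) :
    ∃ z : ι → (X → ℚ), (∀ i ∈ s, z i ∈ S i) ∧ ∑ i ∈ s, z i = 0 ∧ ∃ i ∈ s, b (z i) ≠ 0 := by
  classical
  -- `S i` is finite-dimensional: restrict to `U`
  let ρ : (X → ℚ) →ₗ[ℚ] (U → ℚ) := LinearMap.funLeft ℚ ℚ (Subtype.val : U → X)
  have hρ : ∀ i ∈ s, ∀ z ∈ S i, ρ z = 0 → z = 0 := by
    intro i hi z hz h
    ext x
    by_cases hx : x ∈ U
    · exact congrFun h ⟨x, hx⟩
    · exact hS i hi z hz x hx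
  -- complements of the kernels
  have hC : ∀ i : ι, ∃ C : Submodule ℚ (X → ℚ), C ≤ S i ∧ (i ∈ s → FiniteDimensional ℚ C) ∧
      (i ∈ s → Module.finrank ℚ C = Module.finrank ℚ ((S i).map b)) ∧ ∀ z ∈ C, b z = 0 → z = 0 := by
    intro i
    obtain ⟨D, hD⟩ := Submodule.exists_isCompl (LinearMap.ker (b.domRestrict (S i)))
    refine ⟨D.map (S i).subtype, Submodule.map_subtype_le _ _, ?_, ?_, ?_⟩
    · intro hi
      have hinj : Function.Injective (ρ.domRestrict (S i)) := by
        rw [← LinearMap.ker_eq_bot, LinearMap.ker_eq_bot']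
        intro z hz
        exact Subtype.ext (hρ i hi z.1 z.2 hz)
      have : FiniteDimensional ℚ (S i) := Module.Finite.of_injective _ hinj
      infer_instance
    · intro hi
      have h1 : (D.map (S i).subtype).map b = (S i).map b := by
        apply le_antisymm
        · exact Submodule.map_mono (Submodule.map_subtype_le _ _)
        · rintro _ ⟨z, hz, rfl⟩
          obtain ⟨k, hk, d, hd, hkd⟩ := Submodule.mem_sup.1
            (hD.sup_eq_top ▸ Submodule.mem_top : (⟨z, hz⟩ : S i) ∈ _ ⊔ D)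
          refine ⟨d.1, ⟨d, hd, rfl⟩, ?_⟩
          have h2 : b k.1 = 0 := hk
          have h3 : z = k.1 + d.1 := by rw [← Submodule.coe_add, hkd]
          rw [h3, map_add, h2, zero_add]
      have h4 : (D.map (S i).subtype).map b =
        LinearMap.range (b.domRestrict (D.map (S i).subtype)) := (LinearMap.range_domRestrict _ _).symm
      rw [← h1, h4]
      refine (LinearMap.finrank_range_of_inj (f := b.domRestrict (D.map (S i).subtype)) ?_).symm
      rw [← LinearMap.ker_eq_bot, LinearMap.ker_eq_bot']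
      rintro ⟨_, ⟨d, hd, rfl⟩⟩ h
      have h1 : d ∈ LinearMap.ker (b.domRestrict (S i)) := h
      have h2 := hD.inf_eq_bot
      have h3 : d ∈ (⊥ : Submodule ℚ (S i)) := by rw [← h2]; exact ⟨h1, hd⟩
      have h5 : d = 0 := (Submodule.mem_bot ℚ).1 h3
      subst h5
      exact Subtype.ext rfl
    · rintro _ ⟨d, hd, rfl⟩ h
      have h1 : d ∈ LinearMap.ker (b.domRestrict (S i)) := h
      have h2 := hD.inf_eq_bot
      have h3 : d ∈ (⊥ : Submodule ℚ (S i)) := by rw [← h2]; exact ⟨h1, hd⟩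
      rw [(Submodule.mem_bot ℚ).1 h3]
      rfl
  choose C hCS hfin hrank hker using hC
  have hf : ∀ i : s, FiniteDimensional ℚ (C i.1) := fun i => hfin i.1 i.2
  let Ψ : ((i : s) → C i.1) →ₗ[ℚ] (U → ℚ) :=
    ρ.comp (∑ i : s, (C i.1).subtype.comp (LinearMap.proj i))
  have hlt : Module.finrank ℚ (U → ℚ) < Module.finrank ℚ ((i : s) → C i.1) := by
    rw [Module.finrank_fintype_fun_eq_card, Fintype.card_coe, Module.finrank_pi_fintype]
    rw [Finset.sum_coe_sort s (fun i => Module.finrank ℚ (C i))]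
    refine hc.trans_le (le_of_eq (Finset.sum_congr rfl fun i hi => ?_))
    rw [hrank i hi]
  obtain ⟨y, hy, hy0⟩ := (Submodule.ne_bot_iff _).1 (LinearMap.ker_ne_bot_of_finrank_lt (f := Ψ) hlt)
  let z : ι → (X → ℚ) := fun i => if h : i ∈ s then (y ⟨i, h⟩ : X → ℚ) else 0
  have hz : ∀ i (h : i ∈ s), z i = (y ⟨i, h⟩ : X → ℚ) := fun i h => dif_pos h
  have hzC : ∀ i (h : i ∈ s), z i ∈ C i := fun i h => by rw [hz i h]; exact (y ⟨i, h⟩).2
  refine ⟨z, fun i hi => hCS i (hzC i hi), ?_, ?_⟩
  · have h1 : ∑ i ∈ s, z i = ∑ i : s, (y i : X → ℚ) := by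
      rw [← Finset.sum_coe_sort s]
      exact Finset.sum_congr rfl fun i _ => hz i.1 i.2
    have h2 : ρ (∑ i ∈ s, z i) = 0 := by
      have h3 : Ψ y = 0 := hy
      simp only [Ψ, LinearMap.comp_apply, LinearMap.sum_apply, LinearMap.proj_apply,
        Submodule.subtype_apply] at h3
      rw [h1, h3]
    ext x
    by_cases hx : x ∈ U
    · exact congrFun h2 ⟨x, hx⟩
    · rw [Finset.sum_apply]
      exact Finset.sum_eq_zero fun i hi => hS i hi _ (hCS i (hzC i hi)) x hx
  · by_contra hcon
    push Not at hcon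
    apply hy0
    ext i
    have h1 := hker i.1 (z i.1) (hzC i.1 i.2) (hcon i.1 i.2)
    rw [hz i.1 i.2] at h1
    rw [h1]
    rfl

end Vale.Agent.P240.R2.H945
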