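import Vale.Agent.P240.R2.H945.SemiA

/-!
Top cycles of `N⟨φ⟩` from top cycles of `N` that are centralized by elements of one coset of `N`.
-/

set_option linter.all false

namespace Vale.Agent.P240.R2.H945

open Finsupp hiding cons
open Subgroup Vale.Agent.P240.K

universe u v

section
variable {Γ : Type u} [Group Γ] {p : ℕ} [hp : Fact p.Prime] {N : Subgroup Γ}

lemma inf_zpowers {φ : Γ} (hφ : φ ^ p = 1) (hN : φ ∉ N) : zpowers φ ⊓ N = ⊥ := by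
  rw [eq_bot_iff]
  rintro _ ⟨⟨k, rfl⟩, hk⟩
  simp only at hk
  rw [Subgroup.mem_bot]
  by_cases h : (p : ℤ) ∣ k
  · obtain ⟨m, rfl⟩ := h
    change φ ^ ((p : ℤ) * m) = 1
    rw [zpow_mul, zpow_natCast, hφ, one_zpow]
  · exfalso
    apply hN
    have h1 : IsCoprime (p : ℤ) k := by
      rw [Prime.coprime_iff_not_dvd (Nat.prime_iff_prime_int.1 hp.out)]
      exact h
    obtain ⟨a, b, hab⟩ := h1
    have h2 : φ = (φ ^ k) ^ b := by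
      calc φ = φ ^ (a * p + b * k) := by rw [hab, zpow_one]
        _ = (φ ^ k) ^ b := by
          rw [zpow_add, mul_comm a, zpow_mul, zpow_natCast, hφ, one_zpow, one_mul, mul_comm b,
            zpow_mul]
    rw [h2]
    exact N.zpow_mem hk b

lemma zpowers_mem_ApS {φ : Γ} (hφ : φ ^ p = 1) (hN : φ ∉ N) : zpowers φ ∈ ApS p Γ := by
  refine ⟨?_, ?_, ?_⟩
  · rw [Ne, Subgroup.zpowers_eq_bot]
    rintro rfl
    exact hN N.one_mem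
  · rintro _ ⟨a, rfl⟩ _ ⟨b, rfl⟩
    exact (Commute.zpow_zpow_self φ a b).eq
  · rintro _ ⟨a, rfl⟩
    change (φ ^ a) ^ p = 1
    rw [← zpow_natCast, ← zpow_mul, mul_comm, zpow_mul, zpow_natCast, hφ, one_zpow]

/-- Nonzero cycles of `K ≥ N` on chains with `r + 1` terms from a family of spaces of cycles of `N` with `r` terms, the spaces
belonging to different elements `φ` of order `p` of one coset of `N`. -/
theorem semi_cycle {K : Subgroup Γ} {r : ℕ} {X : Type*} [DecidableEq X] (Φ : Finset Γ)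
    (hNK : N ≤ K) (hΦK : ∀ φ ∈ Φ, φ ∈ K) (hΦp : ∀ φ ∈ Φ, φ ^ p = 1) (hΦN : ∀ φ ∈ Φ, φ ∉ N)
    (hΦc : ∀ φ ∈ Φ, ∀ ψ ∈ Φ, φ⁻¹ * ψ ∈ N)
    {V : Type*} [AddCommGroup V] [Module ℚ V] (b : (X → ℚ) →ₗ[ℚ] V)
    (mu : (X → ℚ) →ₗ[ℚ] Ch ℚ (Subgroup Γ)) (S : Γ → Submodule ℚ (X → ℚ)) (U : Finset X)
    (hU : ∀ φ ∈ Φ, ∀ z ∈ S φ, ∀ x, x ∉ U → z x = 0)
    (hmem : ∀ φ ∈ Φ, ∀ z ∈ S φ, mu z ∈ Sp ℚ (fun l =>
      st (Ain p (N ⊓ centralizer (zpowers φ : Set Γ))) l ∧ l.length = r))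
    (hbd : ∀ φ ∈ Φ, ∀ z ∈ S φ, bd (mu z) = 0)
    (hsep : ∀ φ ∈ Φ, ∀ z ∈ S φ, b z ≠ 0 → mp (fun B => zpowers φ ⊔ B) (mu z) ≠ 0)
    (hcount : U.card < ∑ φ ∈ Φ, Module.finrank ℚ ((S φ).map b)) :
    ∃ c ∈ Sp ℚ (fun l => st (Ain p K) l ∧ l.length = r + 1), bd c = 0 ∧ c ≠ 0 := by
  classical
  obtain ⟨z, hzS, hsum, φ₀, hφ₀, hb⟩ := exists_family Φ U b S hU hcount
  -- the chain
  let nu : Γ → Ch ℚ (Subgroup Γ) := fun φ => hc (fun B => zpowers φ ⊔ B) (zpowers φ) (mu (z φ))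
  have hFM : ∀ φ ∈ Φ, zpowers φ ⊓ N = ⊥ := fun φ hφ => inf_zpowers (hΦp φ hφ) (hΦN φ hφ)
  have hPA : ∀ φ ∈ Φ, zpowers φ ∈ ApS p Γ := fun φ hφ => zpowers_mem_ApS (hΦp φ hφ) (hΦN φ hφ)
  have hPK : ∀ φ ∈ Φ, zpowers φ ≤ K := fun φ hφ => by
    rw [Subgroup.zpowers_le]; exact hΦK φ hφ
  have hmemN : ∀ φ ∈ Φ, ∀ B ∈ Ain p (N ⊓ centralizer (zpowers φ : Set Γ)), B ≤ N :=
    fun φ _ B hB x hx => (hB.2 hx).1
  have hnu : ∀ φ ∈ Φ, nu φ ∈ Sp ℚ (fun l => st (Ain p K) l ∧ l.length = r + 1) := by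
    intro φ hφ
    refine hc_st (T := Ain p (N ⊓ centralizer (zpowers φ : Set Γ))) (S := Ain p K) ?_
      (show zpowers φ ∈ Ain p K from ⟨hPA φ hφ, hPK φ hφ⟩) ?_ ?_ ?_ ?_ (hmem φ hφ _ (hzS φ hφ))
    · exact fun B hB => ⟨hB.1, (hmemN φ hφ B hB).trans hNK⟩
    · intro B hB
      exact ⟨(r2_sup_mem (Or.inr (hPA φ hφ)) (hFM φ hφ) hB).1.1,
        sup_le (hPK φ hφ) ((hmemN φ hφ B hB).trans hNK)⟩
    · intro B hB
      exact (r2_sup_mem (Or.inr (hPA φ hφ)) (hFM φ hφ) hB).1.2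
    · intro B hB
      refine lt_of_le_of_ne le_sup_right fun h => hΦN φ hφ ?_
      have h1 : zpowers φ ≤ B := by
        rw [h]
        exact le_sup_left
      exact hmemN φ hφ B hB (h1 (Subgroup.mem_zpowers φ))
    · intro B hB B' hB' h
      exact (r2_lt (hFM φ hφ) hB hB').1 h
  refine ⟨∑ φ ∈ Φ, nu φ, Submodule.sum_mem _ hnu, ?_, ?_⟩
  · have h1 : ∀ φ ∈ Φ, bd (nu φ) = mu (z φ) := by
      intro φ hφ
      have h2 := bd_hc (fun B => zpowers φ ⊔ B) (zpowers φ) (mu (z φ))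
      rw [hbd φ hφ _ (hzS φ hφ), map_zero, add_zero] at h2
      exact h2
    rw [map_sum, Finset.sum_congr rfl h1, ← map_sum, hsum, map_zero]
  · intro h0
    have hne : ∀ φ ∈ Φ, mu (z φ) ∈ Sp ℚ (fun m : List (Subgroup Γ) => ∀ a ∈ m, a ≠ zpowers φ₀) := by
      intro φ hφ
      refine Sp_mono (fun l hl a ha h => ?_) (hmem φ hφ _ (hzS φ hφ))
      apply hΦN φ₀ hφ₀
      have h1 : a ≤ N := hmemN φ hφ a (hl.1.2 a ha)
      rw [h] at h1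
      exact h1 (Subgroup.mem_zpowers φ₀)
    have h1 : cf [zpowers φ₀] (∑ φ ∈ Φ, nu φ) = sg (mp (fun B => zpowers φ₀ ⊔ B) (mu (z φ₀))) := by
      rw [map_sum, Finset.sum_eq_single φ₀]
      · exact cf_hc (hne φ₀ hφ₀)
      · intro φ hφ hφne
        refine cf_hc_ne (fun h => hφne ?_) (hne φ hφ)
        have h2 : φ⁻¹ * φ₀ ∈ zpowers φ ⊓ N := by
          refine ⟨?_, hΦc φ hφ φ₀ hφ₀⟩
          refine (zpowers φ).mul_mem ((zpowers φ).inv_mem (Subgroup.mem_zpowers φ)) ?_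
          rw [h]
          exact Subgroup.mem_zpowers φ₀
        rw [hFM φ hφ, Subgroup.mem_bot, inv_mul_eq_one] at h2
        exact h2
      · intro h
        exact absurd hφ₀ h
    rw [h0, map_zero] at h1
    refine hsep φ₀ hφ₀ _ (hzS φ₀ hφ₀) hb ?_
    rw [← sg_sg (mp (fun B => zpowers φ₀ ⊔ B) (mu (z φ₀))), ← h1, map_zero]

end

end Vale.Agent.P240.R2.H945
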