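import Vale.Agent.P240.R2.H945.SemiB

/-!
Version of `semi_cycle` in which the number of obstructions is the dimension of the space of the chains `mu z`.
-/

set_option linter.all false

namespace Vale.Agent.P240.R2.H945

open Finsupp hiding cons
open Subgroup Vale.Agent.P240.K

universe u v

/-- a family of vectors, not all killed by `b`, with sum killed by `c` -/
lemma exists_family' {ι : Type*} [DecidableEq ι] (s : Finset ι) {W V C : Type*} [AddCommGroup W] [Module ℚ W]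
    [AddCommGroup V] [Module ℚ V] [AddCommGroup C] [Module ℚ C] (b : W →ₗ[ℚ] V) (c : W →ₗ[ℚ] C)
    (S : ι → Submodule ℚ W) (hfin : ∀ i ∈ s, FiniteDimensional ℚ (S i)) (M : Submodule ℚ C)
    [FiniteDimensional ℚ M] (hM : ∀ i ∈ s, ∀ z ∈ S i, c z ∈ M)
    (hc : Module.finrank ℚ M < ∑ i ∈ s, Module.finrank ℚ ((S i).map b)) :
    ∃ z : ι → W, (∀ i ∈ s, z i ∈ S i) ∧ c (∑ i ∈ s, z i) = 0 ∧ ∃ i ∈ s, b (z i) ≠ 0 := by
  classical
  -- complements of the kernels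
  have hC : ∀ i : ι, ∃ D : Submodule ℚ W, D ≤ S i ∧ (i ∈ s → FiniteDimensional ℚ D) ∧
      (i ∈ s → Module.finrank ℚ D = Module.finrank ℚ ((S i).map b)) ∧ ∀ z ∈ D, b z = 0 → z = 0 := by
    intro i
    obtain ⟨D, hD⟩ := Submodule.exists_isCompl (LinearMap.ker (b.domRestrict (S i)))
    have hker : ∀ d ∈ D, b (d : W) = 0 → d = 0 := by
      intro d hd h
      have h1 : d ∈ LinearMap.ker (b.domRestrict (S i)) := h
      have h2 := hD.inf_eq_bot
      have h3 : d ∈ (⊥ : Submodule ℚ (S i)) := by rw [← h2]; exact ⟨h1, hd⟩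
      exact (Submodule.mem_bot ℚ).1 h3
    refine ⟨D.map (S i).subtype, Submodule.map_subtype_le _ _, ?_, ?_, ?_⟩
    · intro hi
      have := hfin i hi
      infer_instance
    · intro hi
      have h1 : (D.map (S i).subtype).map b = (S i).map b := by
        apply le_antisymm
        · exact Submodule.map_mono (Submodule.map_subtype_le _ _)
        · rintro _ ⟨z, hz, rfl⟩
          obtain ⟨k, hk, d, hd, hkd⟩ := Submodule.mem_sup.1
            (hD.sup_eq_top ▸ Submodule.mem_top : (⟨z, hz⟩ : S i) ∈ _ ⊔ D)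
          refine ⟨d.1, ⟨d, hd, rfl⟩, ?_⟩
          have h2 : b k.1 = 0 := hk
          have h3 : z = k.1 + d.1 := by rw [← Submodule.coe_add, hkd]
          rw [h3, map_add, h2, zero_add]
      have h4 : (D.map (S i).subtype).map b =
        LinearMap.range (b.domRestrict (D.map (S i).subtype)) := (LinearMap.range_domRestrict _ _).symm
      rw [← h1, h4]
      refine (LinearMap.finrank_range_of_inj (f := b.domRestrict (D.map (S i).subtype)) ?_).symm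
      rw [← LinearMap.ker_eq_bot, LinearMap.ker_eq_bot']
      rintro ⟨_, ⟨d, hd, rfl⟩⟩ h
      have h5 : d = 0 := hker d hd h
      subst h5
      exact Subtype.ext rfl
    · rintro _ ⟨d, hd, rfl⟩ h
      rw [hker d hd h]
      rfl
  choose D hDS hDfin hrank hker using hC
  have hf : ∀ i : s, FiniteDimensional ℚ (D i.1) := fun i => hDfin i.1 i.2
  let Ψ₀ : ((i : s) → D i.1) →ₗ[ℚ] C := c.comp (∑ i : s, (D i.1).subtype.comp (LinearMap.proj i))
  have hΨ₀ : ∀ y, Ψ₀ y = c (∑ i : s, (y i : W)) := by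
    intro y
    simp only [Ψ₀, LinearMap.comp_apply, LinearMap.sum_apply, LinearMap.proj_apply,
      Submodule.subtype_apply]
  let Ψ : ((i : s) → D i.1) →ₗ[ℚ] M := Ψ₀.codRestrict M (fun y => by
    rw [hΨ₀, map_sum]
    exact Submodule.sum_mem _ fun i _ => hM i.1 i.2 _ (hDS i.1 (y i).2))
  have hlt : Module.finrank ℚ M < Module.finrank ℚ ((i : s) → D i.1) := by
    rw [Module.finrank_pi_fintype, Finset.sum_coe_sort s (fun i => Module.finrank ℚ (D i))]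
    refine hc.trans_le (le_of_eq (Finset.sum_congr rfl fun i hi => ?_))
    rw [hrank i hi]
  obtain ⟨y, hy, hy0⟩ := (Submodule.ne_bot_iff _).1 (LinearMap.ker_ne_bot_of_finrank_lt (f := Ψ) hlt)
  let z : ι → W := fun i => if h : i ∈ s then (y ⟨i, h⟩ : W) else 0
  have hz : ∀ i (h : i ∈ s), z i = (y ⟨i, h⟩ : W) := fun i h => dif_pos h
  have hzC : ∀ i (h : i ∈ s), z i ∈ D i := fun i h => by rw [hz i h]; exact (y ⟨i, h⟩).2
  refine ⟨z, fun i hi => hDS i (hzC i hi), ?_, ?_⟩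
  · have h1 : ∑ i ∈ s, z i = ∑ i : s, (y i : W) := by
      rw [← Finset.sum_coe_sort s]
      exact Finset.sum_congr rfl fun i _ => hz i.1 i.2
    rw [h1, ← hΨ₀]
    exact congrArg Subtype.val (show Ψ y = 0 from hy)
  · by_contra hcon
    push Not at hcon
    apply hy0
    ext i
    have h1 := hker i.1 (z i.1) (hzC i.1 i.2) (hcon i.1 i.2)
    rw [hz i.1 i.2] at h1
    rw [h1]
    rfl

section
variable {𝕜 : Type v} [Field 𝕜] {α : Type u}

/-- heads of the lists of a cone -/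
lemma hc_head {φ : α → α} {F : α} {T : Set α} {c : Ch 𝕜 α}
    (h : c ∈ Sp 𝕜 (fun l : List α => ∃ B ∈ T, l.head? = some B)) :
    hc φ F c ∈ Sp 𝕜 (fun l : List α => ∃ B ∈ T, l.head? = some (φ B)) := by
  refine map_mem _ ?_ h
  rintro l ⟨B, hB, hl⟩
  cases l with
  | nil => simp at hl
  | cons x l =>
    have hx : x = B := by simpa using hl
    subst hx
    rw [hc, LinearMap.add_apply]
    refine Submodule.add_mem _ ?_ ?_
    · rw [h1_single]
      refine Submodule.sub_mem _ (single_mem_Sp ⟨x, hB, rfl⟩ _)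
        (cons_mem (P := fun _ => True) (fun l _ => ⟨x, hB, rfl⟩) (mem_Sp.2 fun _ _ => trivial))
    · rw [LinearMap.comp_apply, mp_single, sn_single]
      exact Submodule.smul_mem _ _ (single_mem_Sp ⟨x, hB, by simp⟩ _)

end

section
variable {Γ : Type u} [Group Γ] {p : ℕ} [hp : Fact p.Prime] {N : Subgroup Γ}

/-- `B ↦ P ⊔ B` does not kill chains of groups that meet `P` trivially and commute with it -/
lemma mp_sup_ne {𝕜 : Type v} [Field 𝕜] {F : Subgroup Γ} (hFM : F ⊓ N = ⊥) {r : ℕ}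
    {c : Ch 𝕜 (Subgroup Γ)}
    (hc : c ∈ Sp 𝕜 (fun l => st (Ain p (N ⊓ centralizer (F : Set Γ))) l ∧ l.length = r))
    (hne : c ≠ 0) : mp (fun B => F ⊔ B) c ≠ 0 := by
  intro h0
  apply hne
  have h1 : mp (fun B => B ⊓ N) (mp (fun B => F ⊔ B) c) = c := by
    rw [mp_mp]
    refine eq_of_Sp (F := mp ((fun B => B ⊓ N) ∘ fun B => F ⊔ B)) (G := LinearMap.id) ?_ hc
    rintro l ⟨hl, -⟩
    rw [mp_single, LinearMap.id_apply]
    congr 1
    conv_rhs => rw [← List.map_id l]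
    refine List.map_congr_left fun B hB => ?_
    exact r2_sup hFM (hl.2 B hB)
  rw [← h1, h0, map_zero]

/-- Nonzero cycles of `K ≥ N` on chains with `r + 1` terms from a family of spaces of cycles of `N` with `r` terms, the spaces
belonging to different elements `φ` of order `p` of one coset of `N`; the number of obstructions is the dimension of a space `M`
containing all these cycles. -/
theorem semi_cycle' {K : Subgroup Γ} {r : ℕ} (Φ : Finset Γ)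
    (hNK : N ≤ K) (hΦK : ∀ φ ∈ Φ, φ ∈ K) (hΦp : ∀ φ ∈ Φ, φ ^ p = 1) (hΦN : ∀ φ ∈ Φ, φ ∉ N)
    (hΦc : ∀ φ ∈ Φ, ∀ ψ ∈ Φ, φ⁻¹ * ψ ∈ N)
    {W V : Type*} [AddCommGroup W] [Module ℚ W] [AddCommGroup V] [Module ℚ V] (b : W →ₗ[ℚ] V)
    (mu : W →ₗ[ℚ] Ch ℚ (Subgroup Γ)) (S : Γ → Submodule ℚ W)
    (hfin : ∀ φ ∈ Φ, FiniteDimensional ℚ (S φ)) (M : Submodule ℚ (Ch ℚ (Subgroup Γ)))
    [FiniteDimensional ℚ M] (hM : ∀ φ ∈ Φ, ∀ z ∈ S φ, mu z ∈ M) (T : Γ → Set (Subgroup Γ))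
    (hT : ∀ φ ∈ Φ, ∀ z ∈ S φ, mu z ∈ Sp ℚ (fun l => ∃ B ∈ T φ, l.head? = some B))
    (hmem : ∀ φ ∈ Φ, ∀ z ∈ S φ, mu z ∈ Sp ℚ (fun l =>
      st (Ain p (N ⊓ centralizer (zpowers φ : Set Γ))) l ∧ l.length = r))
    (hbd : ∀ φ ∈ Φ, ∀ z ∈ S φ, bd (mu z) = 0)
    (hsep : ∀ φ ∈ Φ, ∀ z ∈ S φ, b z ≠ 0 → mu z ≠ 0)
    (hcount : Module.finrank ℚ M < ∑ φ ∈ Φ, Module.finrank ℚ ((S φ).map b)) :
    ∃ c ∈ Sp ℚ (fun l => (st (Ain p K) l ∧ l.length = r + 1) ∧
      ∃ φ ∈ Φ, ∃ B ∈ T φ, l.head? = some (zpowers φ ⊔ B)), bd c = 0 ∧ c ≠ 0 := by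
  classical
  obtain ⟨z, hzS, hsum, φ₀, hφ₀, hb⟩ := exists_family' Φ b mu S hfin M hM hcount
  -- the chain
  let nu : Γ → Ch ℚ (Subgroup Γ) := fun φ => hc (fun B => zpowers φ ⊔ B) (zpowers φ) (mu (z φ))
  have hFM : ∀ φ ∈ Φ, zpowers φ ⊓ N = ⊥ := fun φ hφ => inf_zpowers (hΦp φ hφ) (hΦN φ hφ)
  have hPA : ∀ φ ∈ Φ, zpowers φ ∈ ApS p Γ := fun φ hφ => zpowers_mem_ApS (hΦp φ hφ) (hΦN φ hφ)
  have hPK : ∀ φ ∈ Φ, zpowers φ ≤ K := fun φ hφ => by
    rw [Subgroup.zpowers_le]; exact hΦK φ hφ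
  have hmemN : ∀ φ ∈ Φ, ∀ B ∈ Ain p (N ⊓ centralizer (zpowers φ : Set Γ)), B ≤ N :=
    fun φ _ B hB x hx => (hB.2 hx).1
  have hnu : ∀ φ ∈ Φ, nu φ ∈ Sp ℚ (fun l => st (Ain p K) l ∧ l.length = r + 1) := by
    intro φ hφ
    refine hc_st (T := Ain p (N ⊓ centralizer (zpowers φ : Set Γ))) (S := Ain p K) ?_
      (show zpowers φ ∈ Ain p K from ⟨hPA φ hφ, hPK φ hφ⟩) ?_ ?_ ?_ ?_ (hmem φ hφ _ (hzS φ hφ))
    · exact fun B hB => ⟨hB.1, (hmemN φ hφ B hB).trans hNK⟩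
    · intro B hB
      exact ⟨(r2_sup_mem (Or.inr (hPA φ hφ)) (hFM φ hφ) hB).1.1,
        sup_le (hPK φ hφ) ((hmemN φ hφ B hB).trans hNK)⟩
    · intro B hB
      exact (r2_sup_mem (Or.inr (hPA φ hφ)) (hFM φ hφ) hB).1.2
    · intro B hB
      refine lt_of_le_of_ne le_sup_right fun h => hΦN φ hφ ?_
      have h1 : zpowers φ ≤ B := by
        rw [h]
        exact le_sup_left
      exact hmemN φ hφ B hB (h1 (Subgroup.mem_zpowers φ))
    · intro B hB B' hB' h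
      exact (r2_lt (hFM φ hφ) hB hB').1 h
  have hnu' : ∀ φ ∈ Φ, nu φ ∈ Sp ℚ (fun l => (st (Ain p K) l ∧ l.length = r + 1) ∧
      ∃ φ ∈ Φ, ∃ B ∈ T φ, l.head? = some (zpowers φ ⊔ B)) := fun φ hφ =>
    Sp_mono (fun l hl => ⟨hl.1, φ, hφ, hl.2⟩)
      (mem_Sp_inf (hnu φ hφ) (hc_head (hT φ hφ _ (hzS φ hφ))))
  refine ⟨∑ φ ∈ Φ, nu φ, Submodule.sum_mem _ hnu', ?_, ?_⟩
  · have h1 : ∀ φ ∈ Φ, bd (nu φ) = mu (z φ) := by
      intro φ hφ
      have h2 := bd_hc (fun B => zpowers φ ⊔ B) (zpowers φ) (mu (z φ))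
      rw [hbd φ hφ _ (hzS φ hφ), map_zero, add_zero] at h2
      exact h2
    rw [map_sum, Finset.sum_congr rfl h1, ← map_sum, hsum]
  · intro h0
    have hne : ∀ φ ∈ Φ, mu (z φ) ∈ Sp ℚ (fun m : List (Subgroup Γ) => ∀ a ∈ m, a ≠ zpowers φ₀) := by
      intro φ hφ
      refine Sp_mono (fun l hl a ha h => ?_) (hmem φ hφ _ (hzS φ hφ))
      apply hΦN φ₀ hφ₀
      have h1 : a ≤ N := hmemN φ hφ a (hl.1.2 a ha)
      rw [h] at h1
      exact h1 (Subgroup.mem_zpowers φ₀)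
    have h1 : cf [zpowers φ₀] (∑ φ ∈ Φ, nu φ) = sg (mp (fun B => zpowers φ₀ ⊔ B) (mu (z φ₀))) := by
      rw [map_sum, Finset.sum_eq_single φ₀]
      · exact cf_hc (hne φ₀ hφ₀)
      · intro φ hφ hφne
        refine cf_hc_ne (fun h => hφne ?_) (hne φ hφ)
        have h2 : φ⁻¹ * φ₀ ∈ zpowers φ ⊓ N := by
          refine ⟨?_, hΦc φ hφ φ₀ hφ₀⟩
          refine (zpowers φ).mul_mem ((zpowers φ).inv_mem (Subgroup.mem_zpowers φ)) ?_
          rw [h]
          exact Subgroup.mem_zpowers φ₀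
        rw [hFM φ hφ, Subgroup.mem_bot, inv_mul_eq_one] at h2
        exact h2
      · intro h
        exact absurd hφ₀ h
    rw [h0, map_zero] at h1
    refine mp_sup_ne (hFM φ₀ hφ₀) (hmem φ₀ hφ₀ _ (hzS φ₀ hφ₀)) (hsep φ₀ hφ₀ _ (hzS φ₀ hφ₀) hb) ?_
    rw [← sg_sg (mp (fun B => zpowers φ₀ ⊔ B) (mu (z φ₀))), ← h1, map_zero]

end

end Vale.Agent.P240.R2.H945
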