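import Vale.Agent.P240.R2.H945.SemiF

/-!
Joins of the initial segments of a word: the shuffle relations, and the dimension of the space that they
span.
-/

set_option linter.all false

namespace Vale.Agent.P240.R2.H945

open Finsupp hiding cons
open Subgroup Vale.Agent.P240 Vale.Agent.P240.K

universe u v w

section op
variable {𝕜 : Type v} [Field 𝕜] {Λ : Type u} [SemilatticeSup Λ]

/-- the operator of a point -/
noncomputable def Hx (𝕜 : Type v) [Field 𝕜] (x : Λ) : Module.End 𝕜 (Ch 𝕜 Λ) :=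
  hc (fun a => x ⊔ a) x

lemma Hx_anti (x y : Λ) : Hx 𝕜 x * Hx 𝕜 y = (-1 : 𝕜) • (Hx 𝕜 y * Hx 𝕜 x) := by
  refine LinearMap.ext fun c => ?_
  rw [LinearMap.smul_apply, neg_one_smul]
  exact hc_anti x y c

/-- the Arnold relation for three points of a line -/
lemma arnold {x y z : Λ} (h1 : x ⊔ y = x ⊔ z) (h2 : x ⊔ y = y ⊔ z) :
    Hx 𝕜 x * Hx 𝕜 y = Hx 𝕜 x * Hx 𝕜 z + (-1 : 𝕜) • (Hx 𝕜 y * Hx 𝕜 z) := by
  have key := ch_ext_apply (𝕜 := 𝕜)
    (F := (hc (𝕜 := 𝕜) (fun a => x ⊔ a) x).comp (hc (fun a => y ⊔ a) y))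
    (G := (hc (𝕜 := 𝕜) (fun a => x ⊔ a) x).comp (hc (fun a => z ⊔ a) z) -
      (hc (𝕜 := 𝕜) (fun a => y ⊔ a) y).comp (hc (fun a => z ⊔ a) z))
    (by
      have e1 : ∀ w : Λ, (single [w] (1 : 𝕜) : Ch 𝕜 Λ) = cons w (single [] 1) := fun w => by
        rw [cons_single]
      simp only [LinearMap.comp_apply, LinearMap.sub_apply, hc_nil]
      rw [e1 y, e1 z, hc_cons, hc_cons, hc_cons, hc_nil, hc_nil, ← h1, ← h2]
      simp only [map_sub, cons_single]
      abel)
    (fun a c h => by
      simp only [LinearMap.comp_apply, LinearMap.sub_apply] at h ⊢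
      rw [hc_cons, hc_cons, hc_cons, hc_cons, hc_cons]
      simp only [map_sub, hc_cons]
      rw [h]
      have e1 : x ⊔ (z ⊔ a) = x ⊔ (y ⊔ a) := by rw [← sup_assoc, ← sup_assoc, ← h1]
      have e2 : y ⊔ (z ⊔ a) = x ⊔ (y ⊔ a) := by rw [← sup_assoc, ← sup_assoc, ← h2]
      rw [e1, e2]
      simp only [map_sub, map_neg]
      abel)
  refine LinearMap.ext fun c => ?_
  rw [LinearMap.add_apply, LinearMap.smul_apply, neg_one_smul, ← sub_eq_add_neg]
  exact key c

/-- products of operators -/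
noncomputable def HP (𝕜 : Type v) [Field 𝕜] (S : List Λ) : Module.End 𝕜 (Ch 𝕜 Λ) :=
  (S.map (Hx 𝕜)).prod

lemma HP_append (S T : List Λ) : HP 𝕜 (S ++ T) = HP 𝕜 S * HP 𝕜 T := by
  rw [HP, HP, HP, List.map_append, List.prod_append]

lemma HP_single (x : Λ) : HP 𝕜 [x] = Hx 𝕜 x := by simp [HP]

lemma AL_HP (S : List Λ) : AL 𝕜 S = HP 𝕜 S (single [] 1) := by
  induction S with
  | nil => rfl
  | cons x S ih =>
    rw [AL, ih, HP, HP, List.map_cons, List.prod_cons]
    rfl

/-- the product of the operators of the initial segments, for words written backwards -/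
noncomputable def RR {X : Type w} (𝕜 : Type v) [Field 𝕜] (C : List X → Λ) :
    List X → Module.End 𝕜 (Ch 𝕜 Λ)
  | [] => 1
  | a :: s => RR 𝕜 C s * Hx 𝕜 (C (a :: s))

/-- the product of the operators of the final segments -/
noncomputable def QQ {X : Type w} (𝕜 : Type v) [Field 𝕜] (C : List X → Λ) :
    List X → Module.End 𝕜 (Ch 𝕜 Λ)
  | [] => 1
  | a :: s => Hx 𝕜 (C (a :: s)) * QQ 𝕜 C s

variable {X : Type w}

/-- equal up to sign -/
def Pm (a b : Module.End 𝕜 (Ch 𝕜 Λ)) : Prop := a = b ∨ a = (-1 : 𝕜) • b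

lemma Pm.mem {a b : Module.End 𝕜 (Ch 𝕜 Λ)} (h : Pm a b)
    {S : Submodule 𝕜 (Module.End 𝕜 (Ch 𝕜 Λ))} (hb : b ∈ S) : a ∈ S := by
  rcases h with rfl | rfl
  · exact hb
  · exact S.smul_mem _ hb

lemma neg_neg' (a : Module.End 𝕜 (Ch 𝕜 Λ)) : (-1 : 𝕜) • (-1 : 𝕜) • a = a := by
  rw [smul_smul]
  simp

lemma Hx_RR (C : List X → Λ) (x : Λ) (t : List X) :
    Pm (Hx 𝕜 x * RR 𝕜 C t) (RR 𝕜 C t * Hx 𝕜 x) := by
  induction t with
  | nil => left; rw [RR, mul_one, one_mul]
  | cons b t ih =>
    rw [RR, ← mul_assoc]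
    rcases ih with h | h
    · right
      rw [h, mul_assoc, Hx_anti, mul_smul_comm, mul_assoc]
    · left
      rw [h, smul_mul_assoc, mul_assoc, Hx_anti, mul_smul_comm, neg_neg', mul_assoc]

lemma QQ_RR (C : List X → Λ) (t : List X) : Pm (QQ 𝕜 C t) (RR 𝕜 C t) := by
  induction t with
  | nil => left; rfl
  | cons b t ih =>
    rw [RR, QQ]
    have h1 := Hx_RR (𝕜 := 𝕜) C (C (b :: t)) t
    rcases ih with h | h
    · rw [h]
      exact h1
    · rw [h, mul_smul_comm]
      rcases h1 with h1 | h1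
      · right; rw [h1]
      · left; rw [h1, neg_neg']

/-- data of points for the words below a perm-closed set of words -/
structure PtData (F : Finset (List X)) (C : List X → Λ) : Prop where
  fperm : ∀ w ∈ F, ∀ w', w.Perm w' → w' ∈ F
  perm : ∀ u u' v : List X, u ++ v ∈ F → u.Perm u' → C u = C u'
  compl : ∀ u v : List X, u ++ v ∈ F → C u = C v
  line1 : ∀ s t v : List X, s ++ (t ++ v) ∈ F → C s ⊔ C t = C s ⊔ C (s ++ t)
  line2 : ∀ s t v : List X, s ++ (t ++ v) ∈ F → C s ⊔ C t = C t ⊔ C (s ++ t)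

/-- **The shuffle relation**, in the form that is needed -/
theorem shuffle {F : Finset (List X)} {C : List X → Λ} (hC : PtData F C) : ∀ (k : ℕ)
    (s t : List X), s.length + t.length ≤ k → (∃ v, s ++ (t ++ v) ∈ F) →
    RR 𝕜 C s * RR 𝕜 C t ∈ Submodule.span 𝕜 (RR 𝕜 C '' {m | m.Perm (s ++ t)}) := by
  intro k
  induction k with
  | zero =>
    intro s t hk _
    have hs : s = [] := List.length_eq_zero_iff.1 (by omega)
    have ht : t = [] := List.length_eq_zero_iff.1 (by omega)
    subst hs ht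
    exact Submodule.subset_span ⟨[], List.Perm.refl _, by rw [RR, mul_one]⟩
  | succ k ih =>
    intro s t hk hF
    match s, t, hk, hF with
    | [], t, _, _ =>
      exact Submodule.subset_span ⟨t, List.Perm.refl _, by rw [RR, one_mul]⟩
    | a :: s, [], _, _ =>
      refine Submodule.subset_span ⟨a :: s, ?_, ?_⟩
      · rw [List.append_nil]; exact List.Perm.refl _
      · rw [RR, RR, mul_one]
    | a :: s, b :: t, hk, hF =>
      obtain ⟨v, hv⟩ := hF
      simp only [List.length_cons] at hk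
      set z := C ((a :: s) ++ (b :: t)) with hz
      have hA := arnold (𝕜 := 𝕜) (hC.line1 _ _ _ hv) (hC.line2 _ _ _ hv)
      -- the two parts
      have h1 : (RR 𝕜 C (a :: s) * RR 𝕜 C t) * Hx 𝕜 z ∈
          Submodule.span 𝕜 (RR 𝕜 C '' {m | m.Perm ((a :: s) ++ (b :: t))}) := by
        have h2 := ih (a :: s) t (by simp only [List.length_cons]; omega) ⟨b :: v, by
          refine hC.fperm _ hv _ ?_
          exact List.Perm.append_left _ (List.perm_middle (a := b) (l₁ := t) (l₂ := v)).symm⟩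
        have h3 : ∀ P ∈ Submodule.span 𝕜 (RR 𝕜 C '' {m | m.Perm ((a :: s) ++ t)}),
            P * Hx 𝕜 z ∈ Submodule.span 𝕜 (RR 𝕜 C '' {m | m.Perm ((a :: s) ++ (b :: t))}) := by
          intro P hP
          induction hP using Submodule.span_induction with
          | mem x hx =>
            obtain ⟨m, hm, rfl⟩ := hx
            refine Submodule.subset_span ⟨b :: m, ?_, ?_⟩
            · exact (hm.cons b).trans List.perm_middle.symm
            · rw [RR, hz]
              congr 2
              refine (hC.perm _ _ v ?_ ?_).symm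
              · rw [List.append_assoc]; exact hv
              · exact List.perm_middle.trans (hm.symm.cons b)
          | zero => rw [zero_mul]; exact Submodule.zero_mem _
          | add x y _ _ hx hy => rw [add_mul]; exact Submodule.add_mem _ hx hy
          | smul c x _ hx => rw [smul_mul_assoc]; exact Submodule.smul_mem _ _ hx
        exact h3 _ h2
      have h1' : (RR 𝕜 C s * RR 𝕜 C (b :: t)) * Hx 𝕜 z ∈
          Submodule.span 𝕜 (RR 𝕜 C '' {m | m.Perm ((a :: s) ++ (b :: t))}) := by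
        have h2 := ih s (b :: t) (by simp only [List.length_cons]; omega) ⟨a :: v, by
          refine hC.fperm _ hv _ ?_
          rw [List.cons_append, ← List.append_assoc s]
          refine (List.perm_middle.symm).trans ?_
          rw [List.append_assoc]⟩
        have h3 : ∀ P ∈ Submodule.span 𝕜 (RR 𝕜 C '' {m | m.Perm (s ++ (b :: t))}),
            P * Hx 𝕜 z ∈ Submodule.span 𝕜 (RR 𝕜 C '' {m | m.Perm ((a :: s) ++ (b :: t))}) := by
          intro P hP
          induction hP using Submodule.span_induction with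
          | mem x hx =>
            obtain ⟨m, hm, rfl⟩ := hx
            refine Submodule.subset_span ⟨a :: m, ?_, ?_⟩
            · exact hm.cons a
            · rw [RR, hz]
              congr 2
              refine (hC.perm _ _ v ?_ ?_).symm
              · rw [List.append_assoc]; exact hv
              · exact hm.symm.cons a
          | zero => rw [zero_mul]; exact Submodule.zero_mem _
          | add x y _ _ hx hy => rw [add_mul]; exact Submodule.add_mem _ hx hy
          | smul c x _ hx => rw [smul_mul_assoc]; exact Submodule.smul_mem _ _ hx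
        exact h3 _ h2
      -- the identity
      have e1 : RR 𝕜 C (a :: s) * RR 𝕜 C (b :: t)
          = RR 𝕜 C s * (Hx 𝕜 (C (a :: s)) * RR 𝕜 C t) * Hx 𝕜 (C (b :: t)) := by
        rw [RR, RR]
        simp only [mul_assoc]
      have e2 : RR 𝕜 C (a :: s) * RR 𝕜 C t = RR 𝕜 C s * (Hx 𝕜 (C (a :: s)) * RR 𝕜 C t) := by
        rw [RR, mul_assoc]
      have e3 : RR 𝕜 C s * RR 𝕜 C (b :: t) = RR 𝕜 C s * RR 𝕜 C t * Hx 𝕜 (C (b :: t)) := by
        rw [RR, mul_assoc]
      rcases Hx_RR (𝕜 := 𝕜) C (C (a :: s)) t with h | h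
      · have e4 : RR 𝕜 C (a :: s) * RR 𝕜 C (b :: t)
            = (RR 𝕜 C (a :: s) * RR 𝕜 C t) * Hx 𝕜 z
              + (-1 : 𝕜) • ((RR 𝕜 C s * RR 𝕜 C (b :: t)) * Hx 𝕜 z) := by
          rw [e1, e2, e3, h]
          have : RR 𝕜 C s * (RR 𝕜 C t * Hx 𝕜 (C (a :: s))) * Hx 𝕜 (C (b :: t))
              = RR 𝕜 C s * RR 𝕜 C t * (Hx 𝕜 (C (a :: s)) * Hx 𝕜 (C (b :: t))) := by
            simp only [mul_assoc]
          rw [this, hA, mul_add, mul_smul_comm]
          simp only [mul_assoc]
          rfl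
        rw [e4]
        exact Submodule.add_mem _ h1 (Submodule.smul_mem _ _ h1')
      · have e4 : RR 𝕜 C (a :: s) * RR 𝕜 C (b :: t)
            = (RR 𝕜 C (a :: s) * RR 𝕜 C t) * Hx 𝕜 z
              + (RR 𝕜 C s * RR 𝕜 C (b :: t)) * Hx 𝕜 z := by
          rw [e1, e2, e3, h]
          have : RR 𝕜 C s * ((-1 : 𝕜) • (RR 𝕜 C t * Hx 𝕜 (C (a :: s)))) * Hx 𝕜 (C (b :: t))
              = (-1 : 𝕜) • (RR 𝕜 C s * RR 𝕜 C t * (Hx 𝕜 (C (a :: s)) * Hx 𝕜 (C (b :: t)))) := by
            simp only [mul_assoc, mul_smul_comm, smul_mul_assoc]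
          rw [this, hA, mul_add, mul_smul_comm, smul_add, neg_neg']
          simp only [mul_assoc, mul_smul_comm, smul_mul_assoc]
          rfl
        rw [e4]
        exact Submodule.add_mem _ h1 h1'

end op

end Vale.Agent.P240.R2.H945
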