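import Vale.Agent.P240.R2.H945.Shuf
import Vale.Agent.P240.R2.H945.SemiG

/-!
The chains of the words of a system of frames span a space of dimension at most `#F / n`.
-/

set_option linter.all false

namespace Vale.Agent.P240.R2.H945

open Finsupp hiding cons
open Subgroup Vale.Agent.P240 Vale.Agent.P240.K

universe u v w

section op
variable {𝕜 : Type v} [Field 𝕜] {Λ : Type u} [SemilatticeSup Λ] {X : Type w}

lemma RR_pfx {F : Finset (List X)} {C : List X → Λ} (hC : PtData F C) (w : List X) :
    ∀ (l : X) (v : List X), w ++ v ∈ F →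
      RR 𝕜 C w.reverse = HP 𝕜 ((H938.pfx (w ++ [l])).map C) := by
  induction w using List.reverseRecOn with
  | nil =>
    intro l v _
    rfl
  | append_singleton w a ih =>
    intro l v h
    have h' : w ++ (a :: v) ∈ F := by
      rwa [List.append_assoc] at h
    rw [List.reverse_append, List.reverse_singleton, List.singleton_append, RR,
      ih a _ h', H938.pfx_snoc (w ++ [a]) l (by simp), List.map_append, HP_append]
    congr 1
    rw [List.map_singleton, HP_single]
    congr 1
    refine (hC.perm _ _ v h ?_).symm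
    exact (List.perm_append_comm).trans ((List.reverse_perm w).symm.cons a)

/-- the initial segments beginning with `p` -/
def ext : List X → List X → List (List X)
  | _, [] => []
  | p, b :: v => p :: ext (p ++ [b]) v

lemma pfx_ext (v : List X) : ∀ (u : List X) (l : X),
    H938.pfx (u ++ l :: v) = H938.pfx (u ++ [l]) ++ ext (u ++ [l]) v := by
  induction v with
  | nil => intro u l; simp [ext]
  | cons b v ih =>
    intro u l
    have h1 : u ++ l :: b :: v = (u ++ [l]) ++ b :: v := by simp
    rw [h1, ih, H938.pfx_snoc _ _ (by simp), ext, List.append_assoc, List.singleton_append]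

lemma HP_ext {F : Finset (List X)} {C : List X → Λ} (hC : PtData F C) (v : List X) :
    ∀ p : List X, p ++ v ∈ F → HP 𝕜 ((ext p v).map C) = QQ 𝕜 C v := by
  induction v with
  | nil => intro p _; rfl
  | cons b v ih =>
    intro p h
    have h' : (p ++ [b]) ++ v ∈ F := by
      rw [List.append_assoc]; exact h
    have h2 := ih _ h'
    rw [ext, List.map_cons, QQ, ← h2, ← hC.compl _ _ h]
    rw [HP, HP, List.map_cons, List.prod_cons]

lemma AL_split {F : Finset (List X)} {C : List X → Λ} (hC : PtData F C) {u v : List X} {l : X}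
    (h : u ++ l :: v ∈ F) :
    AL 𝕜 ((H938.pfx (u ++ l :: v)).map C) =
      (RR 𝕜 C u.reverse * QQ 𝕜 C v) (single [] 1) := by
  rw [AL_HP, pfx_ext, List.map_append, HP_append, RR_pfx hC u l _ h, HP_ext hC v (u ++ [l]) (by
    rw [List.append_assoc]; exact h)]

/-- the chain of a word is in the span of the chains of the words of the same frame with last letter
`l` -/
theorem AL_last {F : Finset (List X)} {C : List X → Λ} (hC : PtData F C) {u v : List X} {l : X}
    (h : u ++ l :: v ∈ F) :
    AL 𝕜 ((H938.pfx (u ++ l :: v)).map C) ∈ Submodule.span 𝕜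
      ((fun m => AL 𝕜 ((H938.pfx m).map C)) '' {m | ∃ g, m = g ++ [l] ∧ g.Perm (u ++ v)}) := by
  rw [AL_split hC h]
  have h1 : Pm (RR 𝕜 C u.reverse * QQ 𝕜 C v) (RR 𝕜 C u.reverse * RR 𝕜 C v) := by
    rcases QQ_RR (𝕜 := 𝕜) C v with h | h
    · left; rw [h]
    · right; rw [h, mul_smul_comm]
  have h2 := shuffle (𝕜 := 𝕜) hC _ u.reverse v le_rfl ⟨[l], by
    refine hC.fperm _ h _ ?_
    refine (List.Perm.append_left u (List.perm_append_comm (l₁ := [l]) (l₂ := v))).trans ?_
    exact (List.reverse_perm u).symm.append_right _⟩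
  have h3 := h1.mem h2
  generalize RR 𝕜 C u.reverse * QQ 𝕜 C v = T at h3
  induction h3 using Submodule.span_induction with
  | mem x hx =>
    obtain ⟨m, hm, rfl⟩ := hx
    have hm' : m.Perm (u.reverse ++ v) := hm
    have hp : m.reverse.Perm (u ++ v) :=
      (List.reverse_perm m).trans (hm'.trans ((List.reverse_perm u).append_right v))
    refine Submodule.subset_span ⟨m.reverse ++ [l], ⟨m.reverse, rfl, hp⟩, ?_⟩
    have h5 := RR_pfx (𝕜 := 𝕜) hC m.reverse l [l] (by
      refine hC.fperm _ h _ ?_
      refine (List.Perm.append_left u (List.perm_append_comm (l₁ := [l]) (l₂ := v))).trans ?_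
      rw [← List.append_assoc]
      exact hp.symm.append_right _)
    rw [List.reverse_reverse] at h5
    show AL 𝕜 _ = _
    rw [AL_HP, h5]
  | zero => exact Submodule.zero_mem _
  | add x y _ _ hx hy => exact Submodule.add_mem _ hx hy
  | smul c x _ hx => exact Submodule.smul_mem _ _ hx

end op

section count
variable {X : Type w} [Fintype X]

/-- the numbering of the letters -/
noncomputable def nu (x : X) : ℕ := (Fintype.equivFin X x : ℕ)

lemma nu_inj {x y : X} (h : nu x = nu y) : x = y :=
  (Fintype.equivFin X).injective (Fin.ext h)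

/-- the last letter is the smallest one -/
def LP (w : List X) : Prop := ∃ (h : w ≠ []), ∀ x ∈ w, nu (w.getLast h) ≤ nu x

/-- the words with smallest last letter are at most `#F / n` -/
theorem card_LP {n : ℕ} {F : Finset (List X)} (hlen : ∀ w ∈ F, w.length = n)
    (hnd : ∀ w ∈ F, w.Nodup) (hperm : ∀ w ∈ F, ∀ w', w.Perm w' → w' ∈ F)
    [DecidablePred (LP (X := X))] :
    n * (F.filter LP).card ≤ F.card := by
  classical
  have h1 : ((F.filter LP) ×ˢ Finset.range n).card = (F.filter LP).card * n := by
    rw [Finset.card_product, Finset.card_range]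
  rw [mul_comm, ← h1]
  refine Finset.card_le_card_of_injOn (fun x => x.1.rotate x.2) ?_ ?_
  · rintro ⟨g, k⟩ hx
    rw [Finset.mem_coe, Finset.mem_product, Finset.mem_filter] at hx
    exact hperm _ hx.1.1 _ (List.rotate_perm g k).symm
  · rintro ⟨g, k⟩ hx ⟨g', k'⟩ hx' h
    rw [Finset.mem_coe, Finset.mem_product, Finset.mem_filter, Finset.mem_range] at hx hx'
    obtain ⟨⟨hgF, hg0, hg⟩, hk⟩ := hx
    obtain ⟨⟨hgF', hg0', hg'⟩, hk'⟩ := hx'
    simp only at hgF hg0 hg hk hgF' hg0' hg' hk' h
    have hln := hlen g hgF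
    have hln' := hlen g' hgF'
    have hpp : g.Perm g' := by
      have h2 := (List.rotate_perm g k).symm
      rw [h] at h2
      exact h2.trans (List.rotate_perm g' k')
    -- the last letters agree
    have hl : g.getLast hg0 = g'.getLast hg0' := by
      apply nu_inj
      apply le_antisymm
      · exact hg _ (hpp.mem_iff.2 (List.getLast_mem hg0'))
      · exact hg' _ (hpp.mem_iff.1 (List.getLast_mem hg0))
    have key : ∀ (g : List X) (hg0 : g ≠ []) (k : ℕ) (hln : g.length = n) (hk : k < n),
        ∃ hi : n - 1 - k < (g.rotate k).length, (g.rotate k)[n - 1 - k] = g.getLast hg0 := by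
      intro g hg0 k hln hk
      refine ⟨by rw [List.length_rotate, hln]; omega, ?_⟩
      rw [List.getElem_rotate, List.getLast_eq_getElem]
      congr 1
      rw [hln, Nat.sub_add_cancel (by omega), Nat.mod_eq_of_lt (by omega)]
    obtain ⟨h1, e1⟩ := key g hg0 k hln hk
    obtain ⟨h2, e2⟩ := key g' hg0' k' hln' hk'
    have hnd' : (g.rotate k).Nodup := List.nodup_rotate.2 (hnd g hgF)
    have h3 : n - 1 - k' < (g.rotate k).length := by rw [h]; exact h2
    have e3 : (g.rotate k)[n - 1 - k] = (g.rotate k)[n - 1 - k'] := by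
      rw [e1, hl, ← e2]
      congr 1
      exact h.symm
    have e4 := (hnd'.getElem_inj_iff).1 e3
    have hkk : k = k' := by omega
    subst hkk
    have hgg : g = g' := List.rotate_injective k h
    rw [hgg]

/-- **The bound `#F / n`.** -/
theorem finrank_n {Λ : Type u} [SemilatticeSup Λ] {n : ℕ} {F : Finset (List X)}
    {C : List X → Λ} (hC : PtData F C) (hn : 1 ≤ n) (hlen : ∀ w ∈ F, w.length = n)
    (hnd : ∀ w ∈ F, w.Nodup) :
    n * Module.finrank ℚ (Submodule.span ℚ
      ((fun m => AL ℚ ((H938.pfx m).map C)) '' (F : Set (List X)))) ≤ F.card := by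
  classical
  refine (Nat.mul_le_mul_left n ?_).trans (card_LP hlen hnd hC.fperm)
  have hle : Submodule.span ℚ ((fun m => AL ℚ ((H938.pfx m).map C)) '' (F : Set (List X))) ≤
      Submodule.span ℚ ((((F.filter LP).image (fun m => AL ℚ ((H938.pfx m).map C)) :
        Finset (Ch ℚ Λ))) : Set (Ch ℚ Λ)) := by
    rw [Submodule.span_le]
    rintro _ ⟨m, hm, rfl⟩
    rw [Finset.mem_coe] at hm
    have hm0 : m ≠ [] := by
      intro h0
      have := hlen m hm
      rw [h0] at this
      simp at this
      omega
    obtain ⟨l, hl, hmin⟩ : ∃ l ∈ m, ∀ x ∈ m, nu l ≤ nu x := by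
      obtain ⟨l, hl, hmin⟩ := Finset.exists_min_image m.toFinset nu
        (by
          obtain ⟨y, hy⟩ := List.exists_mem_of_ne_nil m hm0
          exact ⟨y, List.mem_toFinset.2 hy⟩)
      exact ⟨l, List.mem_toFinset.1 hl, fun x hx => hmin x (List.mem_toFinset.2 hx)⟩
    obtain ⟨u, v, rfl⟩ := List.append_of_mem hl
    refine Submodule.span_mono ?_ (AL_last (𝕜 := ℚ) hC hm)
    rintro _ ⟨m', ⟨g, rfl, hg⟩, rfl⟩
    rw [Finset.mem_coe, Finset.mem_image]
    have hpp : (u ++ l :: v).Perm (g ++ [l]) := by
      refine List.perm_middle.trans ?_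
      refine (hg.symm.cons l).trans ?_
      exact (List.perm_append_comm (l₁ := [l]) (l₂ := g))
    refine ⟨g ++ [l], Finset.mem_filter.2 ⟨hC.fperm _ hm _ hpp, by simp, ?_⟩, rfl⟩
    intro x hx
    have h1 : (g ++ [l]).getLast (by simp) = l := by simp
    rw [h1]
    exact hmin x (hpp.mem_iff.2 hx)
  refine (Submodule.finrank_mono hle).trans ?_
  exact (finrank_span_finset_le_card _).trans Finset.card_image_le

end count

end Vale.Agent.P240.R2.H945
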