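import Vale.Agent.P240.R2.H945.U4e
import Vale.Agent.P240.R2.H401.E4
import Vale.Agent.P240.R2.H296.OFam

/-!
`TopFac` at the prime `2` for `PSU_4(q)`, `q ≡ 3 mod 4`, `q ≥ 7`.
-/

set_option autoImplicit false
set_option linter.all false

namespace Vale.Agent.P240.R2.H945.U4

open Matrix Vale.Agent.P240.R2.AS
open Vale.Agent.P240.R2.OF (OA POm dl)
open Vale.Agent.P240.R2.H487 (LocTopF TopFac)
open scoped Classical

universe u v w

/-- simplicity is invariant under isomorphisms -/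
lemma simple_congr {A B : Type*} [Group A] [Group B] (e : A ≃* B) (h : IsSimpleGroup A) :
    IsSimpleGroup B := by
  haveI : Nontrivial B := e.symm.toEquiv.nontrivial
  exact e.symm.isSimpleGroup

/-- **`PSU_4(q)`, `q ≡ 3 mod 4`, `q ≥ 7`** -/
theorem topFac_three {K : Type} [Field K] [Fintype K] [StarRing K] {q : ℕ} (𝕜 : Type w) [Field 𝕜]
    (hF : H986.E.Fld K q) (hq : q % 4 = 3) (h7 : 7 ≤ q) {L : Type v} [Group L]
    (hL : IsSimpleGroup L) (e : L ≃* AS.PSU K 4) : TopFac 𝕜 2 L := by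
  obtain ⟨hc, ⟨f⟩⟩ := psu4_three hF hq (simple_congr e hL)
  letI : StarRing (H281.fx K) := starRingOfComm
  exact H401.E.topFac_Even (K := H281.fx K) (n := 6) 𝕜 (fun x => rfl)
    (by rw [hc]; exact hF.1) (by rw [hc]; exact h7) (by rw [hc]; omega) (by rw [hc]; omega)
    (by decide) le_rfl ((e.trans f).trans OF.pomOne)

end Vale.Agent.P240.R2.H945.U4
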