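import Vale.Agent.P240.R2.H945.EH
import Vale.Agent.P240.R2.H145.EO1

/-!
`SU_4(q)` acts on a six-dimensional orthogonal space: the alternating `4 × 4` matrices `X` with
`ad X = conj X`.
-/
set_option autoImplicit false
set_option linter.all false

namespace Vale.Agent.P240.R2.H945.U4

open Matrix Vale.Agent.P240.R2.AS

universe u

section alt
variable {K : Type u} [Field K]

/-- the general alternating matrix -/
def al (a b c d e f : K) : Matrix (Fin 4) (Fin 4) K :=
  !![0, a, b, c; -a, 0, d, e; -b, -d, 0, f; -c, -e, -f, 0]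

def ad (A : Matrix (Fin 4) (Fin 4) K) : Matrix (Fin 4) (Fin 4) K :=
  al (A 2 3) (-A 1 3) (A 1 2) (A 0 3) (-A 0 2) (A 0 1)

lemma ent (g : Matrix (Fin 4) (Fin 4) K) (a b c d e f : K) (i j : Fin 4) :
    (g * al a b c d e f * gᵀ) i j =
      a * (g i 0 * g j 1 - g i 1 * g j 0) + b * (g i 0 * g j 2 - g i 2 * g j 0) +
      c * (g i 0 * g j 3 - g i 3 * g j 0) + d * (g i 1 * g j 2 - g i 2 * g j 1) +
      e * (g i 1 * g j 3 - g i 3 * g j 1) + f * (g i 2 * g j 3 - g i 3 * g j 2) := by
  simp only [Matrix.mul_apply, Fin.sum_univ_four, transpose_apply, al, of_apply, cons_val', cons_val_zero, cons_val_one, cons_val_two, cons_val_three, head_cons, tail_cons, empty_val', cons_val_fin_one, cons_val, head_fin_const]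
  ring

lemma det4 (g : Matrix (Fin 4) (Fin 4) K) : g.det =
    (g 0 0 * g 1 1 - g 0 1 * g 1 0) * (g 2 2 * g 3 3 - g 2 3 * g 3 2) -
    (g 0 0 * g 1 2 - g 0 2 * g 1 0) * (g 2 1 * g 3 3 - g 2 3 * g 3 1) +
    (g 0 0 * g 1 3 - g 0 3 * g 1 0) * (g 2 1 * g 3 2 - g 2 2 * g 3 1) +
    (g 0 1 * g 1 2 - g 0 2 * g 1 1) * (g 2 0 * g 3 3 - g 2 3 * g 3 0) -
    (g 0 1 * g 1 3 - g 0 3 * g 1 1) * (g 2 0 * g 3 2 - g 2 2 * g 3 0) +
    (g 0 2 * g 1 3 - g 0 3 * g 1 2) * (g 2 0 * g 3 1 - g 2 1 * g 3 0) := by
  rw [Matrix.det_succ_row_zero]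
  simp only [Fin.sum_univ_four, det_fin_three, submatrix_apply, Fin.succAbove_zero, Fin.val_zero, Fin.val_one, Fin.val_two]
  simp [Fin.succAbove, Fin.ext_iff]
  ring

lemma adj (g : Matrix (Fin 4) (Fin 4) K) (a b c d e f : K) :
    gᵀ * ad (g * al a b c d e f * gᵀ) * g = g.det • ad (al a b c d e f) := by
  ext i j
  have h := ent gᵀ ((g * al a b c d e f * gᵀ) 2 3) (-(g * al a b c d e f * gᵀ) 1 3)
    ((g * al a b c d e f * gᵀ) 1 2) ((g * al a b c d e f * gᵀ) 0 3)
    (-(g * al a b c d e f * gᵀ) 0 2) ((g * al a b c d e f * gᵀ) 0 1) i j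
  rw [transpose_transpose] at h
  rw [ad, h, Matrix.smul_apply, smul_eq_mul, det4]
  simp only [ent, transpose_apply]
  fin_cases i <;> fin_cases j <;>
    simp only [ad, al, Fin.isValue, Fin.mk_zero, Fin.mk_one, Fin.reduceFinMk, of_apply, cons_val', cons_val_zero, cons_val_one, cons_val_two, cons_val_three, head_cons, tail_cons, empty_val', cons_val_fin_one, cons_val, head_fin_const, Fin.zero_eta] <;> ring

lemma al_apply_zero (a b c d e f : K) : (fun i : Fin 3 => al a b c d e f 0 i.succ) = ![a, b, c] := by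
  funext i
  fin_cases i <;> rfl

lemma al_add (a b c d e f a' b' c' d' e' f' : K) :
    al a b c d e f + al a' b' c' d' e' f' = al (a + a') (b + b') (c + c') (d + d') (e + e') (f + f') := by
  ext i j
  fin_cases i <;> fin_cases j <;> simp [al] <;> ring

lemma al_smul (t a b c d e f : K) :
    t • al a b c d e f = al (t * a) (t * b) (t * c) (t * d) (t * e) (t * f) := by
  ext i j
  fin_cases i <;> fin_cases j <;> simp [al]

lemma al_inj {a b c d e f a' b' c' d' e' f' : K} (h : al a b c d e f = al a' b' c' d' e' f') :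
    a = a' ∧ b = b' ∧ c = c' ∧ d = d' ∧ e = e' ∧ f = f' := by
  refine ⟨congrFun (congrFun h 0) 1, congrFun (congrFun h 0) 2, congrFun (congrFun h 0) 3,
    congrFun (congrFun h 1) 2, congrFun (congrFun h 1) 3, congrFun (congrFun h 2) 3⟩

/-- the conjugate of an alternating matrix is alternating -/
lemma conj_al (g : Matrix (Fin 4) (Fin 4) K) (a b c d e f : K) :
    g * al a b c d e f * gᵀ = al ((g * al a b c d e f * gᵀ) 0 1) ((g * al a b c d e f * gᵀ) 0 2)
      ((g * al a b c d e f * gᵀ) 0 3) ((g * al a b c d e f * gᵀ) 1 2)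
      ((g * al a b c d e f * gᵀ) 1 3) ((g * al a b c d e f * gᵀ) 2 3) := by
  ext i j
  simp only [ent]
  fin_cases i <;> fin_cases j
  all_goals simp only [al, Fin.isValue, Fin.mk_zero, Fin.mk_one, Fin.reduceFinMk, of_apply,
      cons_val', cons_val_zero, cons_val_one, cons_val_two, cons_val_three, head_cons, tail_cons,
      empty_val', cons_val_fin_one, cons_val, head_fin_const, Fin.zero_eta]
  all_goals ring

lemma al_transpose (a b c d e f : K) : (al a b c d e f)ᵀ = -al a b c d e f := by
  ext i j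
  rw [transpose_apply, Matrix.neg_apply]
  fin_cases i <;> fin_cases j
  all_goals simp only [al, Fin.isValue, Fin.mk_zero, Fin.mk_one, Fin.reduceFinMk, of_apply,
      cons_val', cons_val_zero, cons_val_one, cons_val_two, cons_val_three, head_cons, tail_cons,
      empty_val', cons_val_fin_one, cons_val, head_fin_const, Fin.zero_eta, neg_neg, neg_zero]

lemma mul_aux (a b c a' b' c' x y z x' y' z' : K) :
    al a b c c' (-b') a' * al x' y' z' z (-y) x + al x y z z' (-y') x' * al a' b' c' c (-b) a =
      -((a * x' + x * a') + (b * y' + y * b') + (c * z' + z * c')) •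
        (1 : Matrix (Fin 4) (Fin 4) K) := by
  ext i j
  rw [Matrix.add_apply, Matrix.mul_apply, Matrix.mul_apply, Matrix.smul_apply, smul_eq_mul,
    Fin.sum_univ_four, Fin.sum_univ_four]
  fin_cases i <;> fin_cases j
  all_goals simp [al]
  all_goals ring

lemma mul_aux1 (a b c a' b' c' : K) :
    al a b c c' (-b') a' * al a' b' c' c (-b) a =
      -(a * a' + b * b' + c * c') • (1 : Matrix (Fin 4) (Fin 4) K) := by
  ext i j
  rw [Matrix.mul_apply, Matrix.smul_apply, smul_eq_mul, Fin.sum_univ_four]
  fin_cases i <;> fin_cases j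
  all_goals simp [al]
  all_goals ring

lemma det_aux (a b c a' b' c' : K) :
    (al a b c c' (-b') a').det = (a * a' + b * b' + c * c') ^ 2 := by
  rw [det4]
  simp [al]
  ring

end alt

section star

variable {K : Type u} [Field K] [StarRing K]

/-- the matrix of a vector -/
def X (v : Fin 3 → K) : Matrix (Fin 4) (Fin 4) K :=
  al (v 0) (v 1) (v 2) (star (v 2)) (-star (v 1)) (star (v 0))

/-- the hermitian norm -/
def N (v : Fin 3 → K) : K := v 0 * star (v 0) + v 1 * star (v 1) + v 2 * star (v 2)

/-- the polar form -/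
def Bh (v w : Fin 3 → K) : K :=
  (v 0 * star (w 0) + w 0 * star (v 0)) + (v 1 * star (w 1) + w 1 * star (v 1)) +
    (v 2 * star (w 2) + w 2 * star (v 2))

lemma al_map_star (a b c d e f : K) :
    (al a b c d e f).map star = al (star a) (star b) (star c) (star d) (star e) (star f) := by
  ext i j
  rw [map_apply]
  fin_cases i <;> fin_cases j <;> first | rfl | exact star_zero K | exact star_neg _

lemma ad_X (v : Fin 3 → K) : ad (X v) = (X v).map star := by
  rw [X, al_map_star]
  simp only [ad, al, Fin.isValue, of_apply, cons_val', cons_val_zero, cons_val_one, cons_val_two,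
    cons_val_three, head_cons, tail_cons, empty_val', cons_val_fin_one, cons_val, head_fin_const,
    star_star, star_neg, neg_neg]

lemma of_ad {a b c d e f : K} (h : ad (al a b c d e f) = (al a b c d e f).map star) :
    al a b c d e f = X ![a, b, c] := by
  rw [al_map_star] at h
  have h1 : ad (al a b c d e f) = al f (-e) d c (-b) a := by
    simp only [ad, al, Fin.isValue, of_apply, cons_val', cons_val_zero, cons_val_one, cons_val_two,
      cons_val_three, head_cons, tail_cons, empty_val', cons_val_fin_one, cons_val, head_fin_const]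
  rw [h1] at h
  obtain ⟨e1, e2, e3, e4, e5, e6⟩ := al_inj h
  show al a b c d e f = al a b c (star c) (-star b) (star a)
  rw [← e1, ← e2, ← e3, neg_neg]

lemma X_inj {v w : Fin 3 → K} (h : X v = X w) : v = w := by
  obtain ⟨e1, e2, e3, -, -, -⟩ := al_inj h
  funext i
  fin_cases i
  · exact e1
  · exact e2
  · exact e3

lemma X_add (v w : Fin 3 → K) : X (v + w) = X v + X w := by
  rw [X, X, X, al_add]
  simp only [Pi.add_apply, star_add, neg_add]

lemma X_mul_star (v w : Fin 3 → K) :
    X v * (X w).map star + X w * (X v).map star = -(Bh v w) • (1 : Matrix (Fin 4) (Fin 4) K) := by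
  rw [X, X, al_map_star, al_map_star, star_star, star_star, star_neg, star_neg, star_star,
    star_star, star_star, star_star]
  exact mul_aux _ _ _ _ _ _ _ _ _ _ _ _

lemma Bh_self (v : Fin 3 → K) : Bh v v = 2 * N v := by
  rw [Bh, N]; ring

lemma X_mul_self (v : Fin 3 → K) :
    X v * (X v).map star = -(N v) • (1 : Matrix (Fin 4) (Fin 4) K) := by
  rw [X, al_map_star, star_star, star_neg, star_star, star_star]
  exact mul_aux1 _ _ _ _ _ _

lemma det_X (v : Fin 3 → K) : (X v).det = (N v) ^ 2 := by
  exact det_aux _ _ _ _ _ _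

lemma X_transpose (v : Fin 3 → K) : (X v)ᵀ = -X v := by
  exact al_transpose _ _ _ _ _ _

lemma N_star (v : Fin 3 → K) : star (N v) = N v := by
  simp only [N, star_add, star_mul', star_star]
  ring

/-- the action on vectors -/
def act (g : Matrix (Fin 4) (Fin 4) K) (v : Fin 3 → K) : Fin 3 → K :=
  fun i => (g * X v * gᵀ) 0 i.succ

/-- unitary matrices of determinant one act on the space of the matrices `X v` -/
lemma X_act {g : Matrix (Fin 4) (Fin 4) K} (hg : g * star g = 1) (hd : g.det = 1)
    (v : Fin 3 → K) : X (act g v) = g * X v * gᵀ := by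
  have h1 : star g * g = 1 := mul_eq_one_comm.1 hg
  have h2 : star g = (g.map star)ᵀ := rfl
  have h3 : g.map star * gᵀ = 1 := by
    have := congrArg Matrix.transpose hg
    rwa [transpose_mul, h2, transpose_transpose, transpose_one] at this
  have h4 : gᵀ * g.map star = 1 := mul_eq_one_comm.1 h3
  have key := adj g (v 0) (v 1) (v 2) (star (v 2)) (-star (v 1)) (star (v 0))
  rw [hd, one_smul] at key
  have key2 : ad (g * X v * gᵀ) = (g * X v * gᵀ).map star := by
    have h5 : gᵀ * ad (g * X v * gᵀ) * g = (X v).map star := by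
      rw [← ad_X]; exact key
    calc ad (g * X v * gᵀ) = (g.map star * gᵀ) * ad (g * X v * gᵀ) * (g * star g) := by
          rw [h3, hg, one_mul, mul_one]
      _ = g.map star * (gᵀ * ad (g * X v * gᵀ) * g) * star g := by simp only [mul_assoc]
      _ = (g * X v * gᵀ).map star := by
          rw [h5]
          have : ∀ A B : Matrix (Fin 4) (Fin 4) K, (A * B).map star = A.map star * B.map star := by
            intro A B
            exact Matrix.map_mul (f := (starRingEnd K))
          rw [this, this]
          rfl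
  have h6 := conj_al g (v 0) (v 1) (v 2) (star (v 2)) (-star (v 1)) (star (v 0))
  have h7 : g * X v * gᵀ = al ((g * X v * gᵀ) 0 1) ((g * X v * gᵀ) 0 2)
      ((g * X v * gᵀ) 0 3) ((g * X v * gᵀ) 1 2)
      ((g * X v * gᵀ) 1 3) ((g * X v * gᵀ) 2 3) := h6
  rw [h7] at key2
  have h8 := of_ad key2
  rw [← h7] at h8
  rw [h8]
  congr 1
  funext i
  fin_cases i <;> rfl

end star

end Vale.Agent.P240.R2.H945.U4
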