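import Vale.Agent.P240.R2.H945.U4a

/-!
`SU_4(q)` acts on a six-dimensional orthogonal space: reflections, kernel.
-/

set_option autoImplicit false
set_option linter.all false

namespace Vale.Agent.P240.R2.H945.U4

open Matrix Vale.Agent.P240.R2.AS

universe u v

section star
variable {K : Type u} [Field K] [StarRing K]

lemma map_mul_star (A B : Matrix (Fin 4) (Fin 4) K) : (A * B).map star = A.map star * B.map star :=
  Matrix.map_mul (f := (starRingEnd K))

lemma map_smul_star (c : K) (A : Matrix (Fin 4) (Fin 4) K) :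
    (c • A).map star = star c • A.map star := by
  ext i j
  simp only [map_apply, Matrix.smul_apply, smul_eq_mul, star_mul']

lemma map_star_star (A : Matrix (Fin 4) (Fin 4) K) : (A.map star).map star = A := by
  ext i j
  simp only [map_apply, star_star]

lemma det_map_star (A : Matrix (Fin 4) (Fin 4) K) : (A.map star).det = star A.det :=
  ((starRingEnd K).map_det A).symm

lemma X_smul {c : K} (hc : star c = c) (v : Fin 3 → K) : X (c • v) = c • X v := by
  rw [X, X, al_smul]
  simp only [Pi.smul_apply, smul_eq_mul, star_mul', hc, mul_neg]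

lemma X_sub (v w : Fin 3 → K) : X (v - w) = X v - X w := by
  have h1 : v - w = v + (-1 : K) • w := by rw [neg_one_smul, sub_eq_add_neg]
  rw [h1, X_add, X_smul (by rw [star_neg, star_one]), neg_one_smul, sub_eq_add_neg]

lemma star_mul_X (v : Fin 3 → K) :
    (X v).map star * X v = -(N v) • (1 : Matrix (Fin 4) (Fin 4) K) := by
  have h := congrArg (fun A => Matrix.map A star) (X_mul_self v)
  simp only [map_mul_star, map_star_star, map_smul_star, star_neg, N_star] at h
  rw [h]
  congr 1
  ext i j
  rw [map_apply, one_apply]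
  split_ifs
  · exact star_one K
  · exact star_zero K

lemma Bh_star (v w : Fin 3 → K) : star (Bh v w) = Bh v w := by
  simp only [Bh, star_add, star_mul', star_star]
  ring

/-- the reflection -/
def re (v x : Fin 3 → K) : Fin 3 → K := x - (Bh v x / N v) • v

lemma X_re (v x : Fin 3 → K) (hv : N v ≠ 0) :
    X v * (X x).map star * X v = N v • X (re v x) := by
  have h1 := X_mul_star v x
  have h2 : X v * (X x).map star = -(Bh v x) • (1 : Matrix (Fin 4) (Fin 4) K) -
      X x * (X v).map star := eq_sub_of_add_eq h1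
  have h3 : star (Bh v x / N v) = Bh v x / N v := by rw [star_div₀, Bh_star, N_star]
  rw [h2, sub_mul, mul_assoc, star_mul_X, re, X_sub, X_smul h3, smul_sub, smul_smul,
    mul_div_cancel₀ _ hv, mul_smul_comm, mul_one, smul_mul_assoc, one_mul, neg_smul, neg_smul]
  abel

lemma X_re' (v x : Fin 3 → K) (hv : N v ≠ 0) :
    (X v).map star * X x * (X v).map star = N v • (X (re v x)).map star := by
  have h := congrArg (fun A => Matrix.map A star) (X_re v x hv)
  simp only [map_mul_star, map_star_star, map_smul_star, N_star] at h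
  exact h

/-- the element of `SU_4` that acts as the product of two reflections -/
def gg (u v : Fin 3 → K) : Matrix (Fin 4) (Fin 4) K := (N u)⁻¹ • (X u * (X v).map star)

lemma star_X (v : Fin 3 → K) : star (X v) = -(X v).map star := by
  have h1 : star (X v) = ((X v)ᵀ).map star := rfl
  rw [h1, X_transpose]
  ext i j
  simp only [map_apply, Matrix.neg_apply, star_neg]

lemma gg_mul_star {u v : Fin 3 → K} (hu : N u ≠ 0) (huv : N u = N v) :
    gg u v * star (gg u v) = 1 := by
  have h1 : star ((X v).map star) = -X v := by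
    ext i j
    have h := congrFun (congrFun (X_transpose v) i) j
    rw [star_apply, map_apply, star_star]
    exact h
  rw [gg, star_smul, star_mul, h1, star_X, star_inv₀, N_star, smul_mul_smul_comm, neg_mul_neg]
  have h2 : X u * (X v).map star * (X v * (X u).map star) =
      X u * ((X v).map star * X v) * (X u).map star := by simp only [mul_assoc]
  rw [h2, star_mul_X, mul_smul_comm, mul_one, smul_mul_assoc, X_mul_self, smul_smul, smul_smul,
    ← huv]
  rw [← one_smul K (1 : Matrix (Fin 4) (Fin 4) K), smul_smul]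
  congr 1
  field_simp

lemma gg_det {u v : Fin 3 → K} (hu : N u ≠ 0) (huv : N u = N v) : (gg u v).det = 1 := by
  rw [gg, det_smul, det_mul, det_map_star, det_X, det_X, ← huv, star_pow, N_star, Fintype.card_fin]
  field_simp

lemma gg_act {u v : Fin 3 → K} (hu : N u ≠ 0) (huv : N u = N v) (x : Fin 3 → K) :
    gg u v * X x * (gg u v)ᵀ = X (re u (re v x)) := by
  have hv : N v ≠ 0 := huv ▸ hu
  have h1 : (gg u v)ᵀ = (N u)⁻¹ • ((X v).map star * X u) := by
    rw [gg, transpose_smul, transpose_mul, X_transpose]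
    have : ((X v).map star)ᵀ = -(X v).map star := by
      ext i j
      have h := congrFun (congrFun (X_transpose v) i) j
      rw [transpose_apply, map_apply, Matrix.neg_apply, map_apply, ← star_neg]
      exact congrArg star h
    rw [this, neg_mul_neg]
  rw [h1, gg, smul_mul_assoc, smul_mul_smul_comm]
  have h2 : X u * (X v).map star * X x * ((X v).map star * X u) =
      X u * ((X v).map star * X x * (X v).map star) * X u := by simp only [mul_assoc]
  rw [h2, X_re' _ _ hv, mul_smul_comm, smul_mul_assoc, X_re _ _ hu, smul_smul, smul_smul, ← huv]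
  have h5 : (N u)⁻¹ * (N u)⁻¹ * N u * N u = 1 := by field_simp
  rw [h5, one_smul]

lemma scal_key {g : Matrix (Fin 4) (Fin 4) K} (hg : g * star g = 1) {c : K}
    (h : ∀ v : Fin 3 → K, g * X v * gᵀ = c • X v) (v : Fin 3 → K) :
    g * X v = c • (X v * g.map star) := by
  have h2' : star g = (g.map star)ᵀ := rfl
  have h3 : g.map star * gᵀ = 1 := by
    have := congrArg Matrix.transpose hg
    rwa [transpose_mul, h2', transpose_transpose, transpose_one] at this
  have h4 : gᵀ * g.map star = 1 := mul_eq_one_comm.1 h3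
  calc g * X v = g * X v * (gᵀ * g.map star) := by rw [h4, mul_one]
    _ = (g * X v * gᵀ) * g.map star := by simp only [mul_assoc]
    _ = _ := by rw [h, smul_mul_assoc]

/-- the relation for the vector `(t, 0, 0)` -/
def R1 (g : Matrix (Fin 4) (Fin 4) K) (c t : K) : Prop := ∀ i j : Fin 4,
    g i 0 * al t 0 0 0 0 (star t) 0 j + g i 1 * al t 0 0 0 0 (star t) 1 j +
      g i 2 * al t 0 0 0 0 (star t) 2 j + g i 3 * al t 0 0 0 0 (star t) 3 j =
      c * (al t 0 0 0 0 (star t) i 0 * star (g 0 j) + al t 0 0 0 0 (star t) i 1 * star (g 1 j) +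
            al t 0 0 0 0 (star t) i 2 * star (g 2 j) + al t 0 0 0 0 (star t) i 3 * star (g 3 j))

/-- the relation for the vector `(0, t, 0)` -/
def R2 (g : Matrix (Fin 4) (Fin 4) K) (c t : K) : Prop := ∀ i j : Fin 4,
    g i 0 * al 0 t 0 0 (-star t) 0 0 j + g i 1 * al 0 t 0 0 (-star t) 0 1 j +
      g i 2 * al 0 t 0 0 (-star t) 0 2 j + g i 3 * al 0 t 0 0 (-star t) 0 3 j =
      c * (al 0 t 0 0 (-star t) 0 i 0 * star (g 0 j) + al 0 t 0 0 (-star t) 0 i 1 * star (g 1 j) +
            al 0 t 0 0 (-star t) 0 i 2 * star (g 2 j) + al 0 t 0 0 (-star t) 0 i 3 * star (g 3 j))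

/-- the relation for the vector `(0, 0, t)` -/
def R3 (g : Matrix (Fin 4) (Fin 4) K) (c t : K) : Prop := ∀ i j : Fin 4,
    g i 0 * al 0 0 t (star t) 0 0 0 j + g i 1 * al 0 0 t (star t) 0 0 1 j +
      g i 2 * al 0 0 t (star t) 0 0 2 j + g i 3 * al 0 0 t (star t) 0 0 3 j =
      c * (al 0 0 t (star t) 0 0 i 0 * star (g 0 j) + al 0 0 t (star t) 0 0 i 1 * star (g 1 j) +
            al 0 0 t (star t) 0 0 i 2 * star (g 2 j) + al 0 0 t (star t) 0 0 i 3 * star (g 3 j))

section
variable {g : Matrix (Fin 4) (Fin 4) K} (hg : g * star g = 1) {c : K}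
  (h : ∀ v : Fin 3 → K, g * X v * gᵀ = c • X v)
include hg h

lemma r1 (t : K) : R1 g c t := by
  intro i j
  have h5 := congrFun (congrFun (scal_key hg h ![t, 0, 0]) i) j
  have h6 : X ![t, 0, 0] = al t 0 0 0 0 (star t) := by
    show al t 0 0 (star 0) (-star 0) (star t) = _
    rw [star_zero, neg_zero]
  rw [h6, Matrix.smul_apply, smul_eq_mul, Matrix.mul_apply, Matrix.mul_apply, Fin.sum_univ_four,
    Fin.sum_univ_four] at h5
  exact h5

lemma r2 (t : K) : R2 g c t := by
  intro i j
  have h5 := congrFun (congrFun (scal_key hg h ![0, t, 0]) i) j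
  have h6 : X ![0, t, 0] = al 0 t 0 0 (-star t) 0 := by
    show al 0 t 0 (star 0) (-star t) (star 0) = _
    rw [star_zero]
  rw [h6, Matrix.smul_apply, smul_eq_mul, Matrix.mul_apply, Matrix.mul_apply, Fin.sum_univ_four,
    Fin.sum_univ_four] at h5
  exact h5

lemma r3 (t : K) : R3 g c t := by
  intro i j
  have h5 := congrFun (congrFun (scal_key hg h ![0, 0, t]) i) j
  have h6 : X ![0, 0, t] = al 0 0 t (star t) 0 0 := by
    show al 0 0 t (star t) (-star 0) (star 0) = _
    rw [star_zero, neg_zero]
  rw [h6, Matrix.smul_apply, smul_eq_mul, Matrix.mul_apply, Matrix.mul_apply, Fin.sum_univ_four,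
    Fin.sum_univ_four] at h5
  exact h5

end

section
variable {g : Matrix (Fin 4) (Fin 4) K} {c : K}

lemma n03 (h2 : (2 : K) ≠ 0) {η : K} (hη : star η = -η) (hη0 : η ≠ 0)
    (r : ∀ t, R1 g c t) : g 0 3 = 0 := by
  have a1 := r 1 0 2
  have a2 := r η 0 2
  simp only [al] at a1 a2
  simp [hη] at a1 a2
  have h7 : 2 * η * g 0 3 = 0 := by
    first
    | linear_combination a2 - η * a1
    | linear_combination a2 + η * a1
    | linear_combination -a2 - η * a1
    | linear_combination -a2 + η * a1
  exact (mul_eq_zero.1 h7).resolve_left (mul_ne_zero h2 hη0)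

lemma n02 (h2 : (2 : K) ≠ 0) {η : K} (hη : star η = -η) (hη0 : η ≠ 0)
    (r : ∀ t, R1 g c t) : g 0 2 = 0 := by
  have a1 := r 1 0 3
  have a2 := r η 0 3
  simp only [al] at a1 a2
  simp [hη] at a1 a2
  have h7 : 2 * η * g 0 2 = 0 := by
    first
    | linear_combination a2 - η * a1
    | linear_combination a2 + η * a1
    | linear_combination -a2 - η * a1
    | linear_combination -a2 + η * a1
  exact (mul_eq_zero.1 h7).resolve_left (mul_ne_zero h2 hη0)

lemma n13 (h2 : (2 : K) ≠ 0) {η : K} (hη : star η = -η) (hη0 : η ≠ 0)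
    (r : ∀ t, R1 g c t) : g 1 3 = 0 := by
  have a1 := r 1 1 2
  have a2 := r η 1 2
  simp only [al] at a1 a2
  simp [hη] at a1 a2
  have h7 : 2 * η * g 1 3 = 0 := by
    first
    | linear_combination a2 - η * a1
    | linear_combination a2 + η * a1
    | linear_combination -a2 - η * a1
    | linear_combination -a2 + η * a1
  exact (mul_eq_zero.1 h7).resolve_left (mul_ne_zero h2 hη0)

lemma n12 (h2 : (2 : K) ≠ 0) {η : K} (hη : star η = -η) (hη0 : η ≠ 0)
    (r : ∀ t, R1 g c t) : g 1 2 = 0 := by
  have a1 := r 1 1 3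
  have a2 := r η 1 3
  simp only [al] at a1 a2
  simp [hη] at a1 a2
  have h7 : 2 * η * g 1 2 = 0 := by
    first
    | linear_combination a2 - η * a1
    | linear_combination a2 + η * a1
    | linear_combination -a2 - η * a1
    | linear_combination -a2 + η * a1
  exact (mul_eq_zero.1 h7).resolve_left (mul_ne_zero h2 hη0)

lemma n21 (h2 : (2 : K) ≠ 0) {η : K} (hη : star η = -η) (hη0 : η ≠ 0)
    (r : ∀ t, R1 g c t) : g 2 1 = 0 := by
  have a1 := r 1 2 0
  have a2 := r η 2 0
  simp only [al] at a1 a2
  simp [hη] at a1 a2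
  have h7 : 2 * η * g 2 1 = 0 := by
    first
    | linear_combination a2 - η * a1
    | linear_combination a2 + η * a1
    | linear_combination -a2 - η * a1
    | linear_combination -a2 + η * a1
  exact (mul_eq_zero.1 h7).resolve_left (mul_ne_zero h2 hη0)

lemma n20 (h2 : (2 : K) ≠ 0) {η : K} (hη : star η = -η) (hη0 : η ≠ 0)
    (r : ∀ t, R1 g c t) : g 2 0 = 0 := by
  have a1 := r 1 2 1
  have a2 := r η 2 1
  simp only [al] at a1 a2
  simp [hη] at a1 a2
  have h7 : 2 * η * g 2 0 = 0 := by
    first
    | linear_combination a2 - η * a1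
    | linear_combination a2 + η * a1
    | linear_combination -a2 - η * a1
    | linear_combination -a2 + η * a1
  exact (mul_eq_zero.1 h7).resolve_left (mul_ne_zero h2 hη0)

lemma n31 (h2 : (2 : K) ≠ 0) {η : K} (hη : star η = -η) (hη0 : η ≠ 0)
    (r : ∀ t, R1 g c t) : g 3 1 = 0 := by
  have a1 := r 1 3 0
  have a2 := r η 3 0
  simp only [al] at a1 a2
  simp [hη] at a1 a2
  have h7 : 2 * η * g 3 1 = 0 := by
    first
    | linear_combination a2 - η * a1
    | linear_combination a2 + η * a1
    | linear_combination -a2 - η * a1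
    | linear_combination -a2 + η * a1
  exact (mul_eq_zero.1 h7).resolve_left (mul_ne_zero h2 hη0)

lemma n30 (h2 : (2 : K) ≠ 0) {η : K} (hη : star η = -η) (hη0 : η ≠ 0)
    (r : ∀ t, R1 g c t) : g 3 0 = 0 := by
  have a1 := r 1 3 1
  have a2 := r η 3 1
  simp only [al] at a1 a2
  simp [hη] at a1 a2
  have h7 : 2 * η * g 3 0 = 0 := by
    first
    | linear_combination a2 - η * a1
    | linear_combination a2 + η * a1
    | linear_combination -a2 - η * a1
    | linear_combination -a2 + η * a1
  exact (mul_eq_zero.1 h7).resolve_left (mul_ne_zero h2 hη0)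

lemma n01 (h2 : (2 : K) ≠ 0) {η : K} (hη : star η = -η) (hη0 : η ≠ 0)
    (r : ∀ t, R2 g c t) : g 0 1 = 0 := by
  have a1 := r 1 0 3
  have a2 := r η 0 3
  simp only [al] at a1 a2
  simp [hη] at a1 a2
  have h7 : 2 * η * g 0 1 = 0 := by
    first
    | linear_combination a2 - η * a1
    | linear_combination a2 + η * a1
    | linear_combination -a2 - η * a1
    | linear_combination -a2 + η * a1
  exact (mul_eq_zero.1 h7).resolve_left (mul_ne_zero h2 hη0)

lemma n10 (h2 : (2 : K) ≠ 0) {η : K} (hη : star η = -η) (hη0 : η ≠ 0)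
    (r : ∀ t, R2 g c t) : g 1 0 = 0 := by
  have a1 := r 1 1 2
  have a2 := r η 1 2
  simp only [al] at a1 a2
  simp [hη] at a1 a2
  have h7 : 2 * η * g 1 0 = 0 := by
    first
    | linear_combination a2 - η * a1
    | linear_combination a2 + η * a1
    | linear_combination -a2 - η * a1
    | linear_combination -a2 + η * a1
  exact (mul_eq_zero.1 h7).resolve_left (mul_ne_zero h2 hη0)

lemma n23 (h2 : (2 : K) ≠ 0) {η : K} (hη : star η = -η) (hη0 : η ≠ 0)
    (r : ∀ t, R2 g c t) : g 2 3 = 0 := by
  have a1 := r 1 2 1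
  have a2 := r η 2 1
  simp only [al] at a1 a2
  simp [hη] at a1 a2
  have h7 : 2 * η * g 2 3 = 0 := by
    first
    | linear_combination a2 - η * a1
    | linear_combination a2 + η * a1
    | linear_combination -a2 - η * a1
    | linear_combination -a2 + η * a1
  exact (mul_eq_zero.1 h7).resolve_left (mul_ne_zero h2 hη0)

lemma n32 (h2 : (2 : K) ≠ 0) {η : K} (hη : star η = -η) (hη0 : η ≠ 0)
    (r : ∀ t, R2 g c t) : g 3 2 = 0 := by
  have a1 := r 1 3 0
  have a2 := r η 3 0
  simp only [al] at a1 a2
  simp [hη] at a1 a2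
  have h7 : 2 * η * g 3 2 = 0 := by
    first
    | linear_combination a2 - η * a1
    | linear_combination a2 + η * a1
    | linear_combination -a2 - η * a1
    | linear_combination -a2 + η * a1
  exact (mul_eq_zero.1 h7).resolve_left (mul_ne_zero h2 hη0)

lemma d1 (r : ∀ t, R1 g c t) : g 0 0 = c * star (g 1 1) := by
  have a := r 1 0 1
  simp only [al] at a
  simp at a
  first
  | exact a
  | linear_combination a
  | linear_combination -a

lemma d3 (r : ∀ t, R2 g c t) : g 0 0 = c * star (g 2 2) := by
  have a := r 1 0 2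
  simp only [al] at a
  simp at a
  first
  | exact a
  | linear_combination a
  | linear_combination -a

lemma d6 (r : ∀ t, R3 g c t) : g 1 1 = c * star (g 2 2) := by
  have a := r 1 1 2
  simp only [al] at a
  simp at a
  first
  | exact a
  | linear_combination a
  | linear_combination -a

lemma d7 (r : ∀ t, R3 g c t) : g 2 2 = c * star (g 1 1) := by
  have a := r 1 2 1
  simp only [al] at a
  simp at a
  first
  | exact a
  | linear_combination a
  | linear_combination -a

lemma d8 (r : ∀ t, R1 g c t) : g 3 3 = c * star (g 2 2) := by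
  have a := r 1 3 2
  simp only [al] at a
  simp at a
  first
  | exact a
  | linear_combination a
  | linear_combination -a

end

/-- a unitary matrix that acts as a scalar is scalar -/
lemma scal (h2 : (2 : K) ≠ 0) {η : K} (hη : star η = -η) (hη0 : η ≠ 0)
    {g : Matrix (Fin 4) (Fin 4) K} (hg : g * star g = 1) {c : K}
    (h : ∀ v : Fin 3 → K, g * X v * gᵀ = c • X v) : g = g 0 0 • (1 : Matrix (Fin 4) (Fin 4) K) := by
  have e1 := r1 hg h
  have e2 := r2 hg h
  have e3 := r3 hg h
  have f1 : g 1 1 = g 0 0 := by rw [d6 e3, d3 e2]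
  have f2 : g 2 2 = g 0 0 := by rw [d7 e3, d1 e1]
  have f3 : g 3 3 = g 0 0 := by rw [d8 e1, d3 e2]
  have m01 := n01 h2 hη hη0 e2
  have m02 := n02 h2 hη hη0 e1
  have m03 := n03 h2 hη hη0 e1
  have m10 := n10 h2 hη hη0 e2
  have m12 := n12 h2 hη hη0 e1
  have m13 := n13 h2 hη hη0 e1
  have m20 := n20 h2 hη hη0 e1
  have m21 := n21 h2 hη hη0 e1
  have m23 := n23 h2 hη hη0 e2
  have m30 := n30 h2 hη hη0 e1
  have m31 := n31 h2 hη hη0 e1
  have m32 := n32 h2 hη hη0 e2
  clear e1 e2 e3
  ext i j
  rw [Matrix.smul_apply, smul_eq_mul, one_apply]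
  fin_cases i <;> fin_cases j
  all_goals first
    | exact (mul_one _).symm
    | (rw [if_neg (by decide), mul_zero]; assumption)
    | (rw [if_pos rfl, mul_one]; assumption)

end star

end Vale.Agent.P240.R2.H945.U4
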