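import Vale.Agent.P240.R2.H945.U4b

/-!
The homomorphism `SU_4(q) → O_6(q)` in coordinates.
-/

set_option autoImplicit false
set_option linter.all false

namespace Vale.Agent.P240.R2.H945.U4

open Matrix Vale.Agent.P240.R2.AS
open Vale.Agent.P240.R2.H145.EO (B ac OD rf Big ac_mul ac_rf gl_ext ac_one)

universe u v

noncomputable section

variable {K : Type u} [Field K] [StarRing K] {F : Type v} [Field F] [Algebra F K]

/-- `F` is the fixed field of the star, `η` a skew element with `η ^ 2 = δ` -/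
structure Dt (η : K) (δ : F) : Prop where
  fix : ∀ x : F, star (algebraMap F K x) = algebraMap F K x
  all : ∀ y : K, star y = y → ∃ x : F, algebraMap F K x = y
  eta : star η = -η
  eta0 : η ≠ 0
  two : (2 : K) ≠ 0
  sq : algebraMap F K δ = η * η

/-- the diagonal form -/
def dd (δ : F) : Fin 6 → F := ![1, -δ, 1, -δ, 1, -δ]

/-- the coordinates -/
def ph (η : K) : (Fin 6 → F) →ₗ[F] (Fin 3 → K) where
  toFun y := ![algebraMap F K (y 0) + algebraMap F K (y 1) * η,
    algebraMap F K (y 2) + algebraMap F K (y 3) * η, algebraMap F K (y 4) + algebraMap F K (y 5) * η]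
  map_add' x y := by
    funext i
    fin_cases i
    · show algebraMap F K (x 0 + y 0) + algebraMap F K (x 1 + y 1) * η =
        (algebraMap F K (x 0) + algebraMap F K (x 1) * η) + (algebraMap F K (y 0) + algebraMap F K (y 1) * η)
      rw [map_add, map_add]; ring
    · show algebraMap F K (x 2 + y 2) + algebraMap F K (x 3 + y 3) * η =
        (algebraMap F K (x 2) + algebraMap F K (x 3) * η) + (algebraMap F K (y 2) + algebraMap F K (y 3) * η)
      rw [map_add, map_add]; ring
    · show algebraMap F K (x 4 + y 4) + algebraMap F K (x 5 + y 5) * η =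
        (algebraMap F K (x 4) + algebraMap F K (x 5) * η) + (algebraMap F K (y 4) + algebraMap F K (y 5) * η)
      rw [map_add, map_add]; ring
  map_smul' c x := by
    funext i
    rw [RingHom.id_apply]
    fin_cases i
    · show algebraMap F K (c * x 0) + algebraMap F K (c * x 1) * η =
        c • (algebraMap F K (x 0) + algebraMap F K (x 1) * η)
      rw [Algebra.smul_def, map_mul, map_mul]; ring
    · show algebraMap F K (c * x 2) + algebraMap F K (c * x 3) * η =
        c • (algebraMap F K (x 2) + algebraMap F K (x 3) * η)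
      rw [Algebra.smul_def, map_mul, map_mul]; ring
    · show algebraMap F K (c * x 4) + algebraMap F K (c * x 5) * η =
        c • (algebraMap F K (x 4) + algebraMap F K (x 5) * η)
      rw [Algebra.smul_def, map_mul, map_mul]; ring

lemma ph_zero (η : K) (y : Fin 6 → F) :
    ph η y 0 = algebraMap F K (y 0) + algebraMap F K (y 1) * η := rfl
lemma ph_one (η : K) (y : Fin 6 → F) :
    ph η y 1 = algebraMap F K (y 2) + algebraMap F K (y 3) * η := rfl
lemma ph_two (η : K) (y : Fin 6 → F) :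
    ph η y 2 = algebraMap F K (y 4) + algebraMap F K (y 5) * η := rfl

section
variable {η : K} {δ : F} (hD : Dt η δ)
include hD

lemma Dt.pair {a b : F} (h : algebraMap F K a + algebraMap F K b * η = 0) : a = 0 ∧ b = 0 := by
  have h1 := congrArg star h
  rw [star_add, star_mul', hD.fix, hD.fix, hD.eta, star_zero] at h1
  have h2 : 2 * algebraMap F K a = 0 := by linear_combination h + h1
  have h3 : algebraMap F K a = 0 := (mul_eq_zero.1 h2).resolve_left hD.two
  have h4 : algebraMap F K b * η = 0 := by rw [h3, zero_add] at h; exact h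
  have h5 : algebraMap F K b = 0 := (mul_eq_zero.1 h4).resolve_right hD.eta0
  exact ⟨(map_eq_zero _).1 h3, (map_eq_zero _).1 h5⟩

lemma Dt.exists_pair (z : K) : ∃ a b : F, algebraMap F K a + algebraMap F K b * η = z := by
  have h2 := hD.two
  have he := hD.eta0
  have hs2 : star (2 : K) = 2 := by
    have : (2 : K) = 1 + 1 := by norm_num
    rw [this, star_add, star_one]
  obtain ⟨a, ha⟩ := hD.all ((z + star z) / 2) (by
    rw [star_div₀, star_add, star_star, hs2, add_comm])
  obtain ⟨b, hb⟩ := hD.all ((z - star z) / (2 * η)) (by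
    rw [star_div₀, star_sub, star_star, star_mul', hs2, hD.eta]
    field_simp
    ring)
  refine ⟨a, b, ?_⟩
  rw [ha, hb]
  field_simp
  ring

lemma Dt.bij : Function.Bijective (ph η : (Fin 6 → F) →ₗ[F] (Fin 3 → K)) := by
  constructor
  · rw [← LinearMap.ker_eq_bot, LinearMap.ker_eq_bot']
    intro y hy
    obtain ⟨h0, h1⟩ := hD.pair ((ph_zero η y).symm.trans (congrFun hy 0))
    obtain ⟨h2, h3⟩ := hD.pair ((ph_one η y).symm.trans (congrFun hy 1))
    obtain ⟨h4, h5⟩ := hD.pair ((ph_two η y).symm.trans (congrFun hy 2))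
    funext i
    fin_cases i
    · exact h0
    · exact h1
    · exact h2
    · exact h3
    · exact h4
    · exact h5
  · intro z
    obtain ⟨a, b, h0⟩ := hD.exists_pair (z 0)
    obtain ⟨c, d, h1⟩ := hD.exists_pair (z 1)
    obtain ⟨e, f, h2⟩ := hD.exists_pair (z 2)
    refine ⟨![a, b, c, d, e, f], ?_⟩
    funext i
    fin_cases i
    · exact h0
    · exact h1
    · exact h2

lemma Dt.Bh (x y : Fin 6 → F) : Bh (ph η x) (ph η y) = algebraMap F K (2 * B (dd δ) x y) := by
  have h1 : B (dd δ) x y = x 0 * y 0 - δ * (x 1 * y 1) + (x 2 * y 2) - δ * (x 3 * y 3) +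
      x 4 * y 4 - δ * (x 5 * y 5) := by
    rw [B, Fin.sum_univ_six]
    show 1 * x 0 * y 0 + -δ * x 1 * y 1 + 1 * x 2 * y 2 + -δ * x 3 * y 3 + 1 * x 4 * y 4 +
      -δ * x 5 * y 5 = _
    ring
  rw [h1, U4.Bh]
  simp only [ph_zero, ph_one, ph_two, star_add, star_mul', hD.fix, hD.eta, map_mul, map_add, map_sub,
    map_ofNat, hD.sq]
  ring

lemma Dt.N (x : Fin 6 → F) : N (ph η x) = algebraMap F K (B (dd δ) x x) := by
  have h1 := hD.Bh x x
  rw [Bh_self, map_mul, map_ofNat] at h1
  exact mul_left_cancel₀ hD.two h1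

lemma Dt.X_smul (c : F) (v : Fin 3 → K) : X (c • v) = algebraMap F K c • X v := by
  have h1 : c • v = algebraMap F K c • v := by
    funext i
    exact Algebra.smul_def c (v i)
  rw [h1, U4.X_smul (hD.fix c)]

lemma Dt.ph_re (x : Fin 6 → F) {v : Fin 6 → F} (hv : B (dd δ) v v ≠ 0) :
    ph η (ac (rf (dd δ) v hv) x) = re (ph η v) (ph η x) := by
  rw [ac_rf, map_sub, map_smul, re, hD.Bh, hD.N]
  congr 1
  funext i
  rw [Pi.smul_apply, Pi.smul_apply, Algebra.smul_def, smul_eq_mul, map_div₀]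

/-- the action as a linear map -/
def Dt.actL (g : Matrix (Fin 4) (Fin 4) K) : (Fin 3 → K) →ₗ[F] (Fin 3 → K) where
  toFun := act g
  map_add' v w := by
    funext i
    show (g * X (v + w) * gᵀ) 0 i.succ = (g * X v * gᵀ) 0 i.succ + (g * X w * gᵀ) 0 i.succ
    rw [X_add, mul_add, add_mul]
    rfl
  map_smul' c v := by
    funext i
    show (g * X (c • v) * gᵀ) 0 i.succ = c • (g * X v * gᵀ) 0 i.succ
    rw [hD.X_smul, mul_smul_comm, smul_mul_assoc, Matrix.smul_apply, smul_eq_mul, Algebra.smul_def]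

/-- the coordinates as a linear equivalence -/
def Dt.eq : (Fin 6 → F) ≃ₗ[F] (Fin 3 → K) := LinearEquiv.ofBijective (ph η) hD.bij

/-- the action on `F ^ 6` -/
def Dt.rL (g : Matrix (Fin 4) (Fin 4) K) : (Fin 6 → F) →ₗ[F] (Fin 6 → F) :=
  hD.eq.symm.toLinearMap ∘ₗ hD.actL g ∘ₗ hD.eq.toLinearMap

lemma Dt.ph_rL (g : Matrix (Fin 4) (Fin 4) K) (y : Fin 6 → F) :
    ph η (hD.rL g y) = act g (ph η y) := hD.eq.apply_symm_apply _

end

lemma su_star {g : H38.SU K 4} : (g.1.1 : Matrix (Fin 4) (Fin 4) K) * star g.1.1 = 1 :=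
  (Matrix.mem_unitaryGroup_iff).1 g.1.2

lemma X_act_su (g : H38.SU K 4) (v : Fin 3 → K) : X (act g.1.1 v) = g.1.1 * X v * g.1.1ᵀ :=
  X_act su_star g.2 v

lemma act_mul (g h : H38.SU K 4) (v : Fin 3 → K) :
    act (g * h).1.1 v = act g.1.1 (act h.1.1 v) := by
  apply X_inj
  rw [X_act_su, X_act_su, X_act_su]
  have : (g * h).1.1 = g.1.1 * h.1.1 := rfl
  rw [this, transpose_mul]
  simp only [mul_assoc]

lemma act_one (v : Fin 3 → K) : act (1 : H38.SU K 4).1.1 v = v := by
  apply X_inj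
  rw [X_act_su]
  have : (1 : H38.SU K 4).1.1 = 1 := rfl
  rw [this, transpose_one, one_mul, mul_one]

section
variable {η : K} {δ : F} (hD : Dt η δ)
include hD

lemma Dt.rL_mul (g h : H38.SU K 4) : hD.rL (g * h).1.1 = hD.rL g.1.1 * hD.rL h.1.1 := by
  apply LinearMap.ext
  intro y
  apply hD.bij.1
  rw [hD.ph_rL, act_mul, Module.End.mul_apply, hD.ph_rL, hD.ph_rL]

lemma Dt.rL_one : hD.rL (1 : H38.SU K 4).1.1 = 1 := by
  apply LinearMap.ext
  intro y
  apply hD.bij.1
  rw [hD.ph_rL, act_one, Module.End.one_apply]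

/-- the homomorphism `SU_4 → GL_6` -/
def Dt.rho : H38.SU K 4 →* GL (Fin 6) F :=
  MonoidHom.toHomUnits
    { toFun := fun g => LinearMap.toMatrix' (hD.rL g.1.1)
      map_one' := by rw [hD.rL_one]; exact LinearMap.toMatrix'_one
      map_mul' := fun g h => by rw [hD.rL_mul]; exact LinearMap.toMatrix'_mul _ _ }

lemma Dt.rho_coe (g : H38.SU K 4) : (hD.rho g).1 = LinearMap.toMatrix' (hD.rL g.1.1) := rfl

lemma Dt.ph_rho (g : H38.SU K 4) (y : Fin 6 → F) : ph η (ac (hD.rho g) y) = act g.1.1 (ph η y) := by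
  have h1 : ac (hD.rho g) y = hD.rL g.1.1 y := by
    rw [ac, hD.rho_coe, LinearMap.toMatrix'_mulVec]
  rw [h1, hD.ph_rL]

lemma Dt.X_rho (g : H38.SU K 4) (y : Fin 6 → F) :
    X (ph η (ac (hD.rho g) y)) = g.1.1 * X (ph η y) * g.1.1ᵀ := by
  rw [hD.ph_rho, X_act_su]

lemma Dt.rho_mem (g : H38.SU K 4) : hD.rho g ∈ OD (dd δ) := by
  intro x y
  have h0 : g.1.1 * star g.1.1 = 1 := su_star
  have h2' : star g.1.1 = (g.1.1.map star)ᵀ := rfl
  have h3 : g.1.1.map star * g.1.1ᵀ = 1 := by
    have := congrArg Matrix.transpose h0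
    rwa [transpose_mul, h2', transpose_transpose, transpose_one] at this
  have h4 : g.1.1ᵀ * g.1.1.map star = 1 := mul_eq_one_comm.1 h3
  have h1 := X_mul_star (ph η (ac (hD.rho g) x)) (ph η (ac (hD.rho g) y))
  rw [hD.X_rho, hD.X_rho] at h1
  have h5 : ∀ A B : Matrix (Fin 4) (Fin 4) K,
      (g.1.1 * A * g.1.1ᵀ) * (g.1.1 * B * g.1.1ᵀ).map star = g.1.1 * (A * B.map star) * star g.1.1 := by
    intro A B
    have h6 : (g.1.1ᵀ).map star = star g.1.1 := rfl
    rw [map_mul_star, map_mul_star, h6]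
    calc g.1.1 * A * g.1.1ᵀ * (g.1.1.map star * B.map star * star g.1.1) =
        g.1.1 * A * (g.1.1ᵀ * g.1.1.map star) * B.map star * star g.1.1 := by simp only [mul_assoc]
      _ = _ := by rw [h4, mul_one]; simp only [mul_assoc]
  rw [h5, h5, ← add_mul, ← mul_add, X_mul_star, mul_smul_comm, mul_one, smul_mul_assoc, h0] at h1
  have h7 := congrFun (congrFun h1 0) 0
  rw [Matrix.smul_apply, Matrix.smul_apply, one_apply_eq, smul_eq_mul, smul_eq_mul, mul_one,
    mul_one, neg_inj, hD.Bh, hD.Bh] at h7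
  have h8 := (algebraMap F K).injective h7
  have h9 : (2 : F) ≠ 0 := by
    intro h
    apply hD.two
    have := congrArg (algebraMap F K) h
    rwa [map_ofNat, map_zero] at this
  exact (mul_left_cancel₀ h9 h8).symm

lemma Dt.big : Big (dd δ) hD.rho.range := by
  intro u v hu hv huv
  have hu' : U4.N (ph η u) ≠ 0 := by
    rw [hD.N]
    exact (map_ne_zero _).2 hu
  have huv' : U4.N (ph η u) = U4.N (ph η v) := by rw [hD.N, hD.N, huv]
  have hm : gg (ph η u) (ph η v) ∈ Matrix.unitaryGroup (Fin 4) K :=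
    (Matrix.mem_unitaryGroup_iff).2 (gg_mul_star hu' huv')
  let g : H38.SU K 4 := ⟨⟨gg (ph η u) (ph η v), hm⟩, gg_det hu' huv'⟩
  refine ⟨g, ?_⟩
  apply gl_ext
  intro x
  apply hD.bij.1
  apply X_inj
  rw [hD.X_rho, ac_mul, hD.ph_re _ hu, hD.ph_re _ hv]
  exact gg_act hu' huv' _

lemma Dt.rho_scal (g : H38.SU K 4) : (∃ c : F, (hD.rho g).1 = c • (1 : Matrix (Fin 6) (Fin 6) F)) ↔
    ∃ z : K, g.1.1 = z • (1 : Matrix (Fin 4) (Fin 4) K) := by
  constructor
  · rintro ⟨c, hc⟩
    refine ⟨g.1.1 0 0, scal hD.two hD.eta hD.eta0 (c := algebraMap F K c) su_star ?_⟩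
    intro v
    obtain ⟨y, rfl⟩ := hD.bij.2 v
    rw [← hD.X_rho, ac, hc, smul_mulVec, one_mulVec, map_smul, hD.X_smul]
  · rintro ⟨z, hz⟩
    have h1 : z ^ 4 = 1 := by
      have h2 : g.1.1.det = 1 := g.2
      rw [hz, det_smul, det_one, mul_one, Fintype.card_fin] at h2
      exact h2
    have h2 : (z ^ 2 - 1) * (z ^ 2 + 1) = 0 := by linear_combination h1
    have h3 : ∃ c : F, algebraMap F K c = z ^ 2 := by
      rcases mul_eq_zero.1 h2 with h | h
      · exact ⟨1, by rw [map_one]; linear_combination -h⟩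
      · exact ⟨-1, by rw [map_neg, map_one]; linear_combination -h⟩
    obtain ⟨c, hc⟩ := h3
    refine ⟨c, ?_⟩
    apply Matrix.ext_of_mulVec_single
    intro i
    rw [smul_mulVec, one_mulVec]
    apply hD.bij.1
    apply X_inj
    have h4 := hD.X_rho g (Pi.single i 1)
    rw [ac] at h4
    rw [h4, map_smul, hD.X_smul, hc, hz, transpose_smul, transpose_one, smul_mul_assoc, one_mul,
      smul_mul_assoc, mul_smul_comm, mul_one, smul_smul, pow_two]

end

end

end Vale.Agent.P240.R2.H945.U4
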