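import Vale.Agent.P240.R2.H945.U4c
import Vale.Agent.P240.R2.H296.Cen
import Vale.Agent.P240.R2.AS.Defs2

/-!
`PSU_4(q)` is isomorphic to the commutator subgroup of the projective orthogonal group of a
six-dimensional form.
-/

set_option autoImplicit false
set_option linter.all false

namespace Vale.Agent.P240.R2.H945.U4

open Matrix Vale.Agent.P240.R2.AS
open Vale.Agent.P240.R2.H145.EO (B B_comm B_add_left B_add_right B_sub_left B_sub_right
  B_smul_left B_smul_right B_single B_neg_left B_neg_right ac OD OD_B rf rf_mem rf_inv rf_rf rf_conj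
  rf_fix rf_sub rf_add exists_pm Big ac_mul ac_rf gl_ext ac_one ac_neg ac_add ac_smul ac_inv ac_inv')

universe u v

noncomputable section

section refl

variable {F : Type u} [Field F] {n : ℕ} {a : Fin n → F}

/-- the group generated by the reflections -/
def Rf (a : Fin n → F) : Subgroup (GL (Fin n) F) :=
  Subgroup.closure {g | ∃ (v : Fin n → F) (hv : B a v v ≠ 0), g = rf a v hv}

lemma rf_mem_Rf {v : Fin n → F} (hv : B a v v ≠ 0) : rf a v hv ∈ Rf a :=
  Subgroup.subset_closure ⟨v, hv, rfl⟩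

lemma rf_self {v : Fin n → F} (hv : B a v v ≠ 0) : ac (rf a v hv) v = -v := by
  rw [ac_rf, mul_div_assoc, div_self hv, mul_one, two_smul]
  abel

lemma exists_mv (h2 : (2 : F) ≠ 0) {v w : Fin n → F} (hvw : B a v v = B a w w)
    (hv : B a v v ≠ 0) : ∃ r ∈ Rf a, ac r v = w ∧ ∀ u, B a v u = 0 → B a w u = 0 → ac r u = u := by
  have hw : B a w w ≠ 0 := hvw ▸ hv
  rcases exists_pm h2 hv hvw with h | h
  · refine ⟨_, rf_mem_Rf h, rf_sub hvw h, fun u hu hu' => rf_fix h ?_⟩
    rw [B_sub_left, hu, hu', sub_zero]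
  · refine ⟨rf a w hw * rf a (v + w) h, mul_mem (rf_mem_Rf hw) (rf_mem_Rf h), ?_,
      fun u hu hu' => ?_⟩
    · rw [ac_mul, rf_add hvw h, ac_neg, rf_self, neg_neg]
    · rw [ac_mul, rf_fix h (by rw [B_add_left, hu, hu', add_zero]), rf_fix hw hu']

lemma Rf_le : Rf a ≤ OD a := by
  rw [Rf, Subgroup.closure_le]
  rintro _ ⟨v, hv, rfl⟩
  exact rf_mem hv

/-- **the reflections generate the orthogonal group of a diagonal form** -/
theorem OD_le_Rf (h2 : (2 : F) ≠ 0) (ha : ∀ i, a i ≠ 0) : OD a ≤ Rf a := by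
  intro g hg
  have hB : ∀ i j : Fin n, B a (Pi.single i 1) (Pi.single j 1) = if i = j then a i else 0 := by
    intro i j
    rw [B_single, mul_one, Pi.single_apply]
    split_ifs with h
    · rw [mul_one]
    · rw [mul_zero]
  have key : ∀ k : ℕ, k ≤ n → ∃ h ∈ Rf a, ∀ i : Fin n, (i : ℕ) < k →
      ac (h * g) (Pi.single i 1) = Pi.single i 1 := by
    intro k
    induction k with
    | zero => exact fun _ => ⟨1, one_mem _, fun i hi => absurd hi (Nat.not_lt_zero _)⟩
    | succ k ih =>
      intro hk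
      obtain ⟨h, hh, h1⟩ := ih (by omega)
      set j : Fin n := ⟨k, by omega⟩ with hj
      have hhg : h * g ∈ OD a := mul_mem (Rf_le hh) hg
      set v := ac (h * g) (Pi.single j 1) with hv
      have h3 : B a v v = B a (Pi.single j 1) (Pi.single j 1) := OD_B hhg _ _
      have h4 : B a (Pi.single j 1) (Pi.single j 1) = a j := by rw [hB, if_pos rfl]
      obtain ⟨r, hr, hr1, hr2⟩ := exists_mv h2 (v := v) (w := Pi.single j 1) h3
        (by rw [h3, h4]; exact ha j)
      refine ⟨r * h, mul_mem hr hh, fun i hi => ?_⟩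
      rw [mul_assoc, ac_mul]
      rcases Nat.lt_or_ge i k with hik | hik
      · rw [h1 i hik]
        have hne : j ≠ i := by
          intro e
          rw [← e] at hik
          exact absurd hik (by simp [hj])
        refine hr2 _ ?_ ?_
        · have h5 := OD_B hhg (Pi.single j 1) (Pi.single i 1)
          rw [h1 i hik, hB, if_neg hne] at h5
          exact h5
        · rw [hB, if_neg hne]
      · have : i = j := by
          apply Fin.ext
          show (i : ℕ) = k
          omega
        subst this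
        exact hr1
  obtain ⟨h, hh, h1⟩ := key n le_rfl
  have h3 : h * g = 1 := by
    apply Units.ext
    apply Matrix.ext_of_mulVec_single
    intro i
    have h4 := h1 i i.2
    rw [ac] at h4
    rw [h4]
    exact (one_mulVec _).symm
  have h4 : g = h⁻¹ := eq_inv_of_mul_eq_one_right h3
  rw [h4]
  exact inv_mem hh

/-- the commutators of isometries lie in a big group -/
theorem comm_mem (h2 : (2 : F) ≠ 0) (ha : ∀ i, a i ≠ 0) {S : Subgroup (GL (Fin n) F)}
    (hS : Big a S) {x y : GL (Fin n) F} (hx : x ∈ OD a) (hy : y ∈ OD a) :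
    x * y * x⁻¹ * y⁻¹ ∈ S := by
  set S0 : Subgroup (GL (Fin n) F) := Subgroup.closure {g | ∃ (u v : Fin n → F)
    (hu : B a u u ≠ 0) (hv : B a v v ≠ 0), B a u u = B a v v ∧ g = rf a u hu * rf a v hv} with hS0
  have h0 : S0 ≤ S := by
    rw [hS0, Subgroup.closure_le]
    rintro _ ⟨u, v, hu, hv, huv, rfl⟩
    exact hS u v hu hv huv
  have hgen : ∀ (u v : Fin n → F) (hu : B a u u ≠ 0) (hv : B a v v ≠ 0), B a u u = B a v v →
      rf a u hu * rf a v hv ∈ S0 := fun u v hu hv huv =>
    Subgroup.subset_closure ⟨u, v, hu, hv, huv, rfl⟩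
  have hconj : ∀ g ∈ OD a, ∀ s ∈ S0, g * s * g⁻¹ ∈ S0 := by
    intro g hg s hs
    refine Subgroup.closure_induction (p := fun s _ => g * s * g⁻¹ ∈ S0) ?_ ?_ ?_ ?_ hs
    · rintro _ ⟨u, v, hu, hv, huv, rfl⟩
      have hu' : B a (ac g u) (ac g u) ≠ 0 := by rwa [OD_B hg]
      have hv' : B a (ac g v) (ac g v) ≠ 0 := by rwa [OD_B hg]
      have h3 : g * (rf a u hu * rf a v hv) * g⁻¹ = rf a _ hu' * rf a _ hv' := by
        rw [← rf_conj hg hu hu' (Or.inl rfl), ← rf_conj hg hv hv' (Or.inl rfl)]
        group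
      rw [h3]
      exact hgen _ _ _ _ (by rw [OD_B hg, OD_B hg, huv])
    · rw [mul_one, mul_inv_cancel]; exact one_mem _
    · intro s t _ _ h3 h4
      have h5 : g * (s * t) * g⁻¹ = (g * s * g⁻¹) * (g * t * g⁻¹) := by group
      rw [h5]
      exact mul_mem h3 h4
    · intro s _ h3
      have h5 : g * s⁻¹ * g⁻¹ = (g * s * g⁻¹)⁻¹ := by group
      rw [h5]
      exact inv_mem h3
  apply h0
  have hx' := OD_le_Rf h2 ha hx
  have key : x ∈ OD a ∧ x * y * x⁻¹ * y⁻¹ ∈ S0 := by
    refine Subgroup.closure_induction (p := fun x _ => x ∈ OD a ∧ x * y * x⁻¹ * y⁻¹ ∈ S0)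
      ?_ ?_ ?_ ?_ hx'
    · rintro _ ⟨u, hu, rfl⟩
      have hu' : B a (ac y u) (ac y u) ≠ 0 := by rwa [OD_B hy]
      refine ⟨rf_mem hu, ?_⟩
      have h3 : rf a u hu * y * (rf a u hu)⁻¹ * y⁻¹ = rf a u hu * rf a _ hu' := by
        rw [← rf_conj hy hu hu' (Or.inl rfl), rf_inv]
        group
      rw [h3]
      exact hgen _ _ _ _ (OD_B hy u u).symm
    · refine ⟨one_mem _, ?_⟩
      have : (1 : GL (Fin n) F) * y * 1⁻¹ * y⁻¹ = 1 := by group
      rw [this]; exact one_mem _
    · rintro s t _ _ ⟨h3, h4⟩ ⟨h5, h6⟩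
      refine ⟨mul_mem h3 h5, ?_⟩
      have h7 : s * t * y * (s * t)⁻¹ * y⁻¹ =
        (s * (t * y * t⁻¹ * y⁻¹) * s⁻¹) * (s * y * s⁻¹ * y⁻¹) := by group
      rw [h7]
      exact mul_mem (hconj s h3 _ h6) h4
    · rintro s _ ⟨h3, h4⟩
      refine ⟨inv_mem h3, ?_⟩
      have h7 : s⁻¹ * y * s⁻¹⁻¹ * y⁻¹ = s⁻¹ * (s * y * s⁻¹ * y⁻¹)⁻¹ * s⁻¹⁻¹ := by group
      rw [h7]
      exact hconj _ (inv_mem h3) _ (inv_mem h4)
  exact key.2

/-- the centre of the orthogonal group of a diagonal form -/
theorem mem_center (h2 : (2 : F) ≠ 0) (i0 : Fin n) (ha : ∀ i, a i ≠ 0)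
    (ha2 : ∀ i j, a i + a j ≠ 0) (g : OD a) :
    g ∈ Subgroup.center ↥(OD a) ↔ ∃ l : F, g.1.1 = l • (1 : Matrix (Fin n) (Fin n) F) := by
  constructor
  · intro h
    rw [Subgroup.mem_center_iff] at h
    have key : ∀ v : Fin n → F, B a v v ≠ 0 → ∃ c : F, ac g.1 v = c • v := by
      intro v hv
      have hgv : B a (ac g.1 v) (ac g.1 v) ≠ 0 := by rwa [OD_B g.2]
      have h1 := congrArg Subtype.val (h ⟨rf a v hv, rf_mem hv⟩)
      have h3 : g.1 * rf a v hv * g.1⁻¹ = rf a v hv := by
        have h4 : rf a v hv * g.1 = g.1 * rf a v hv := h1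
        rw [← h4, mul_inv_cancel_right]
      rw [rf_conj g.2 hv hgv (Or.inl rfl)] at h3
      have h5 := congrArg (fun k => ac k (ac g.1 v)) h3
      rw [rf_self, ac_rf] at h5
      refine ⟨(2 * B a v (ac g.1 v) / B a v v) / 2, ?_⟩
      have h6 : (2 : F) • ac g.1 v = (2 * B a v (ac g.1 v) / B a v v) • v := by
        rw [two_smul]
        have h7 : ac g.1 v - (2 * B a v (ac g.1 v) / B a v v) • v + ac g.1 v = 0 := by
          rw [← h5]; abel
        have h8 : ac g.1 v + ac g.1 v - (2 * B a v (ac g.1 v) / B a v v) • v = 0 := by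
          rw [← h7]; abel
        exact sub_eq_zero.1 h8
      apply smul_right_injective _ h2
      show (2 : F) • ac g.1 v = (2 : F) • ((2 * B a v (ac g.1 v) / B a v v / 2) • v)
      rw [h6, smul_smul, mul_div_cancel₀ _ h2]
    have hB : ∀ i : Fin n, B a (Pi.single i 1) (Pi.single i 1) ≠ 0 := by
      intro i
      rw [B_single, Pi.single_eq_same, mul_one, mul_one]
      exact ha i
    choose c hc using fun i => key (Pi.single i 1) (hB i)
    have hcc : ∀ i, c i = c i0 := by
      intro i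
      by_cases hi : i = i0
      · rw [hi]
      have hn : B a (Pi.single i 1 + Pi.single i0 1) (Pi.single i 1 + Pi.single i0 1) ≠ 0 := by
        rw [B_add_left, B_single, B_single]
        simp only [Pi.add_apply, Pi.single_eq_same, Pi.single_eq_of_ne hi,
          Pi.single_eq_of_ne (Ne.symm hi)]
        have := ha2 i i0
        simpa using this
      obtain ⟨d, hd⟩ := key _ hn
      rw [ac_add, hc, hc] at hd
      have h5 := congrFun hd i
      have h6 := congrFun hd i0
      simp only [Pi.add_apply, Pi.smul_apply, smul_eq_mul, Pi.single_eq_same,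
        Pi.single_eq_of_ne hi, Pi.single_eq_of_ne (Ne.symm hi), mul_one, mul_zero, add_zero,
        zero_add] at h5 h6
      rw [h5, h6]
    refine ⟨c i0, ?_⟩
    apply Matrix.ext_of_mulVec_single
    intro i
    rw [smul_mulVec, one_mulVec, ← hcc i]
    exact hc i
  · rintro ⟨l, hl⟩
    rw [Subgroup.mem_center_iff]
    intro k
    apply Subtype.ext
    apply Units.ext
    show k.1.1 * g.1.1 = g.1.1 * k.1.1
    rw [hl, mul_smul_comm, smul_mul_assoc, mul_one, one_mul]

end refl

section abs

/-- the abstract isomorphism -/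
theorem abs_iso {S O P : Type*} [Group S] [Group O] [Group P] (ρ : S →* O) (e : S →* P)
    (he : Function.Surjective e) (hk : ∀ s, e s = 1 ↔ ρ s ∈ Subgroup.center O)
    (hP : commutator P = ⊤) (hO : ∀ x y : O, x * y * x⁻¹ * y⁻¹ ∈ ρ.range) :
    Nonempty (P ≃* ↥(commutator (O ⧸ Subgroup.center O))) := by
  set π := QuotientGroup.mk' (Subgroup.center O) with hπ
  set ψ : S →* O ⧸ Subgroup.center O := π.comp ρ with hψ
  have hker : ψ.ker = e.ker := by
    ext s
    rw [MonoidHom.mem_ker, MonoidHom.mem_ker, hk]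
    show π (ρ s) = 1 ↔ _
    rw [← MonoidHom.mem_ker, hπ, QuotientGroup.ker_mk']
  -- `P ≃ S / ker e ≃ range ψ`
  have e1 : P ≃* S ⧸ e.ker := (QuotientGroup.quotientKerEquivOfSurjective e he).symm
  have e2 : S ⧸ e.ker ≃* S ⧸ ψ.ker := QuotientGroup.quotientMulEquivOfEq hker.symm
  have e3 : S ⧸ ψ.ker ≃* ψ.range := QuotientGroup.quotientKerEquivRange ψ
  have e4 : P ≃* ψ.range := (e1.trans e2).trans e3
  have hrange : ψ.range = commutator (O ⧸ Subgroup.center O) := by
    apply le_antisymm
    · have hperf : commutator ψ.range = ⊤ := by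
        have h1 : (commutator P).map (e4 : P →* ψ.range) = commutator ψ.range := by
          rw [commutator_def, Subgroup.map_commutator, Subgroup.map_top_of_surjective _
            (show Function.Surjective (e4 : P →* ψ.range) from e4.surjective), commutator_def]
        rw [← h1, hP]
        exact Subgroup.map_top_of_surjective _
          (show Function.Surjective (e4 : P →* ψ.range) from e4.surjective)
      have h2 : ψ.range = (commutator ψ.range).map ψ.range.subtype := by
        rw [hperf, ← MonoidHom.range_eq_map, Subgroup.range_subtype]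
      rw [h2, commutator_def, Subgroup.map_commutator, commutator_def]
      exact Subgroup.commutator_mono le_top le_top
    · rw [commutator_def, Subgroup.commutator_le]
      intro x _ y _
      obtain ⟨x, rfl⟩ := QuotientGroup.mk_surjective x
      obtain ⟨y, rfl⟩ := QuotientGroup.mk_surjective y
      obtain ⟨s, hs⟩ := hO x y
      refine ⟨s, ?_⟩
      show (QuotientGroup.mk (ρ s) : O ⧸ Subgroup.center O) = _
      rw [hs]
      rfl
  exact ⟨e4.trans (MulEquiv.subgroupCongr hrange)⟩

end abs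

end

end Vale.Agent.P240.R2.H945.U4
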