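import Vale.Agent.P240.R2.H945.U4d
import Vale.Agent.P240.R2.H296.OForm
import Vale.Agent.P240.R2.H986.StarCount
import Vale.Agent.P240.R2.H986.EDefs

/-!
`PSU_4(q) ≃ PΩ_6^-(q)`, `q` odd.
-/

set_option autoImplicit false
set_option linter.all false

namespace Vale.Agent.P240.R2.H945.U4

open Matrix Vale.Agent.P240.R2.AS
open Vale.Agent.P240.R2.H145.EO (B B_comm B_add_left B_add_right B_sub_left B_sub_right
  B_smul_left B_smul_right B_single B_neg_left B_neg_right ac OD OD_B rf rf_mem rf_inv rf_rf rf_conj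
  rf_fix rf_sub rf_add exists_pm Big ac_mul ac_rf gl_ext ac_one ac_neg ac_add ac_smul ac_inv ac_inv')
open Vale.Agent.P240.R2.OF (OA POm dl)
open scoped commutatorElement Classical

universe u v

noncomputable section

section psu

variable {K : Type u} [Field K] [StarRing K]

/-- the map `SU_4 → PSU_4` -/
def toP (K : Type u) [Field K] [Fintype K] [StarRing K] (n : ℕ) : H38.SU K n →* AS.PSU K n where
  toFun g := ⟨QuotientGroup.mk g.1, ⟨g.1, g.2, rfl⟩⟩
  map_one' := rfl
  map_mul' _ _ := rfl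

lemma toP_surj [Fintype K] (n : ℕ) : Function.Surjective (toP K n) := by
  rintro ⟨_, g, hg, rfl⟩
  exact ⟨⟨g, hg⟩, rfl⟩

lemma toP_eq_one [Fintype K] {n : ℕ} {g : H38.SU K n} :
    toP K n g = 1 ↔ g.1 ∈ Subgroup.center (GU K n) := by
  rw [← QuotientGroup.eq_one_iff]
  constructor
  · intro h
    exact congrArg Subtype.val h
  · intro h
    exact Subtype.ext h

end psu

section forms

variable {F : Type u} [Field F] {n : ℕ}

/-- the isometry groups of a diagonal form -/
lemma OD_eq_OA (a : Fin n → F) : OD a = OA (diagonal a) := by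
  have hB : ∀ x y : Fin n → F, B a x y = x ⬝ᵥ (diagonal a *ᵥ y) := by
    intro x y
    rw [B, dotProduct]
    exact Finset.sum_congr rfl fun i _ => by rw [mulVec_diagonal]; ring
  ext g
  rw [OF.mem_OA]
  constructor
  · intro h
    apply Matrix.ext_of_mulVec_single
    intro j
    funext i
    have h1 : B a (ac g (Pi.single i 1)) (ac g (Pi.single j 1)) =
      B a (Pi.single i 1) (Pi.single j 1) := h _ _
    rw [hB, hB, ac, ac] at h1
    have h3 : ∀ (w : Fin n → F) (i : Fin n), (Pi.single i (1 : F) : Fin n → F) ⬝ᵥ w = w i := by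
      intro w i
      rw [single_dotProduct, one_mul]
    have h4 : (g.1 *ᵥ Pi.single i 1) ⬝ᵥ (diagonal a *ᵥ (g.1 *ᵥ Pi.single j 1)) =
        (Pi.single i (1 : F) : Fin n → F) ⬝ᵥ ((g.1ᵀ * diagonal a * g.1) *ᵥ Pi.single j 1) := by
      rw [← mulVec_mulVec, ← mulVec_mulVec, dotProduct_mulVec _ (g.1ᵀ), vecMul_transpose]
    rw [h4, h3, h3] at h1
    exact h1
  · intro h x y
    rw [hB, hB, ac, ac]
    have h4 : (g.1 *ᵥ x) ⬝ᵥ (diagonal a *ᵥ (g.1 *ᵥ y)) =
        x ⬝ᵥ ((g.1ᵀ * diagonal a * g.1) *ᵥ y) := by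
      rw [← mulVec_mulVec, ← mulVec_mulVec, dotProduct_mulVec _ (g.1ᵀ), vecMul_transpose]
    rw [h4, h]

/-- transport of the commutator subgroup modulo the centre -/
lemma congr_comm {H H' : Subgroup (GL (Fin n) F)} (h : H = H') :
    Nonempty (↥(commutator (↥H ⧸ Subgroup.center ↥H)) ≃*
      ↥(commutator (↥H' ⧸ Subgroup.center ↥H'))) := by
  subst h
  exact ⟨MulEquiv.refl _⟩

end forms

section main

variable {K : Type u} [Field K] [Fintype K] [StarRing K] {F : Type v} [Field F] [Algebra F K]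

/-- two matrices in `SU_4` whose classes do not commute -/
lemma not_comm (h2 : (2 : K) ≠ 0) : ∃ x y : AS.PSU K 4, x * y ≠ y * x := by
  let d : Fin 4 → K := ![-1, -1, 1, 1]
  have hd : ∀ i, d i * star (d i) = 1 := by
    intro i
    fin_cases i
    · show (-1 : K) * star (-1) = 1
      rw [star_neg, star_one]; ring
    · show (-1 : K) * star (-1) = 1
      rw [star_neg, star_one]; ring
    · show (1 : K) * star 1 = 1
      rw [star_one]; ring
    · show (1 : K) * star 1 = 1
      rw [star_one]; ring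
  have hD : (diagonal d : Matrix (Fin 4) (Fin 4) K) ∈ Matrix.unitaryGroup (Fin 4) K := by
    rw [mem_unitaryGroup_iff, star_eq_conjTranspose, diagonal_conjTranspose, diagonal_mul_diagonal,
      ← diagonal_one]
    congr 1
    funext i
    exact hd i
  have hDd : (diagonal d).det = (1 : K) := by
    rw [det_diagonal, Fin.prod_univ_four]
    show (-1 : K) * -1 * 1 * 1 = 1
    ring
  let s : Equiv.Perm (Fin 4) := Equiv.swap 0 1 * Equiv.swap 1 2
  have hPd : ((H296.pm s : GU K 4) : Matrix (Fin 4) (Fin 4) K).det = 1 := by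
    show (s.permMatrix K).det = 1
    rw [det_permutation]
    have : Equiv.Perm.sign s = 1 := by decide
    rw [this]
    norm_num
  let D : H38.SU K 4 := ⟨⟨diagonal d, hD⟩, hDd⟩
  let P : H38.SU K 4 := ⟨H296.pm s, hPd⟩
  refine ⟨toP K 4 D, toP K 4 P, ?_⟩
  intro h
  rw [← map_mul, ← map_mul] at h
  have h1 : toP K 4 ((P * D)⁻¹ * (D * P)) = 1 := by
    rw [map_mul, map_inv, h, inv_mul_cancel]
  have hm1 : (-1 : K) ≠ 1 := by
    intro h3
    apply h2
    linear_combination -h3
  rw [toP_eq_one, H296.mem_center_iff hm1 (by rw [star_neg, star_one]; ring)] at h1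
  obtain ⟨c, hc⟩ := h1
  have h3 : (D.1.1 * P.1.1 : Matrix (Fin 4) (Fin 4) K) = c • (P.1.1 * D.1.1) := by
    have h4 : (D * P).1.1 = (P * D).1.1 * ((P * D)⁻¹ * (D * P)).1.1 := by
      have h5 : D * P = (P * D) * ((P * D)⁻¹ * (D * P)) := by group
      exact congrArg (fun g : H38.SU K 4 => (g.1.1 : Matrix (Fin 4) (Fin 4) K)) h5
    have h6 : (D * P).1.1 = D.1.1 * P.1.1 := rfl
    have h7 : (P * D).1.1 = P.1.1 * D.1.1 := rfl
    rw [← h6, h4, h7]
    have h8 : ((P * D)⁻¹ * (D * P)).1.1 = c • (1 : Matrix (Fin 4) (Fin 4) K) := hc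
    rw [h8, mul_smul_comm, mul_one]
  have key : ∀ i j : Fin 4, d i * (s.permMatrix K) i j = c * ((s.permMatrix K) i j * d j) := by
    intro i j
    have h4 := congrFun (congrFun h3 i) j
    have h5 : (D.1.1 * P.1.1 : Matrix (Fin 4) (Fin 4) K) i j = d i * (s.permMatrix K) i j :=
      diagonal_mul _ _ _ _
    have h6 : (c • (P.1.1 * D.1.1) : Matrix (Fin 4) (Fin 4) K) i j =
        c * ((s.permMatrix K) i j * d j) := by
      rw [Matrix.smul_apply, smul_eq_mul]
      congr 1
      exact mul_diagonal _ _ _ _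
    rw [← h5, h4, h6]
  have hp : ∀ i : Fin 4, (s.permMatrix K) i (s i) = 1 := by
    intro i
    simp [Equiv.Perm.permMatrix, PEquiv.toMatrix_apply, Equiv.toPEquiv_apply]
  have k3 := key 3 3
  have k1 := key 1 2
  have s3 : s 3 = 3 := by decide
  have s1 : s 1 = 2 := by decide
  have p3 := hp 3
  have p1 := hp 1
  rw [s3] at p3
  rw [s1] at p1
  rw [p3] at k3
  rw [p1] at k1
  have e3 : (1 : K) * 1 = c * (1 * 1) := k3
  have e1 : (-1 : K) * 1 = c * (1 * 1) := k1
  apply hm1
  linear_combination e1 - e3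

/-- a simple group with two elements that do not commute is perfect -/
lemma perfect {P : Type*} [Group P] (hs : IsSimpleGroup P) (h : ∃ x y : P, x * y ≠ y * x) :
    commutator P = ⊤ := by
  rcases hs.eq_bot_or_eq_top_of_normal (commutator P) inferInstance with h1 | h1
  · exfalso
    obtain ⟨x, y, hxy⟩ := h
    apply hxy
    have h3 : ⁅x, y⁆ ∈ commutator P :=
      Subgroup.commutator_mem_commutator (Subgroup.mem_top x) (Subgroup.mem_top y)
    rw [h1, Subgroup.mem_bot] at h3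
    exact commutatorElement_eq_one_iff_mul_comm.1 h3
  · exact h1

variable {η : K} {δ : F}

/-- `PSU_4 ≃ PΩ` of the form `<1, -δ, 1, -δ, 1, -δ>` -/
theorem psu4_iso (hD : Dt η δ) (hs : IsSimpleGroup (AS.PSU K 4)) :
    Nonempty (AS.PSU K 4 ≃* POm (diagonal (dd δ))) := by
  have h2 := hD.two
  have h2F : (2 : F) ≠ 0 := by
    intro h
    apply h2
    have := congrArg (algebraMap F K) h
    rwa [map_ofNat, map_zero] at this
  have hδ0 : δ ≠ 0 := by
    rintro rfl
    have h := hD.sq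
    rw [map_zero] at h
    exact mul_ne_zero hD.eta0 hD.eta0 h.symm
  have hδ1 : (1 : F) - δ ≠ 0 := by
    intro h
    have h3 : δ = 1 := (sub_eq_zero.1 h).symm
    have h4 := hD.sq
    rw [h3, map_one] at h4
    have h5 : (η - 1) * (η + 1) = 0 := by linear_combination -h4
    have h6 : star η = η := by
      rcases mul_eq_zero.1 h5 with h | h
      · rw [sub_eq_zero.1 h, star_one]
      · rw [eq_neg_of_add_eq_zero_left h, star_neg, star_one]
    have h7 : 2 * η = 0 := by
      have := hD.eta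
      rw [h6] at this
      linear_combination this
    exact mul_ne_zero h2 hD.eta0 h7
  have hval : ∀ i, dd δ i = 1 ∨ dd δ i = -δ := by
    intro i
    fin_cases i
    · exact Or.inl rfl
    · exact Or.inr rfl
    · exact Or.inl rfl
    · exact Or.inr rfl
    · exact Or.inl rfl
    · exact Or.inr rfl
  have ha : ∀ i, dd δ i ≠ 0 := by
    intro i
    rcases hval i with h | h
    · rw [h]; exact one_ne_zero
    · rw [h]; exact neg_ne_zero.2 hδ0
  have ha2 : ∀ i j, dd δ i + dd δ j ≠ 0 := by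
    intro i j
    rcases hval i with h | h <;> rcases hval j with h' | h' <;> rw [h, h']
    · rw [one_add_one_eq_two]; exact h2F
    · rw [← sub_eq_add_neg]; exact hδ1
    · rw [add_comm, ← sub_eq_add_neg]; exact hδ1
    · have : -δ + -δ = 2 * -δ := by ring
      rw [this]; exact mul_ne_zero h2F (neg_ne_zero.2 hδ0)
  let ρ : H38.SU K 4 →* ↥(OD (dd δ)) := hD.rho.codRestrict (OD (dd δ)) hD.rho_mem
  have hm1 : (-1 : K) ≠ 1 := by
    intro h3
    apply h2
    linear_combination -h3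
  obtain ⟨f⟩ := abs_iso ρ (toP K 4) (toP_surj 4) (fun g => by
    rw [toP_eq_one, H296.mem_center_iff hm1 (by rw [star_neg, star_one]; ring),
      mem_center h2F 0 ha ha2]
    exact (hD.rho_scal g).symm) (perfect hs (not_comm h2)) (fun x y => by
      obtain ⟨g, hg⟩ := comm_mem h2F ha hD.big x.2 y.2
      exact ⟨g, Subtype.ext hg⟩)
  obtain ⟨f'⟩ := congr_comm (OD_eq_OA (dd δ))
  exact ⟨f.trans f'⟩

lemma dd_det (δ : F) : (diagonal (dd δ)).det = -δ ^ 3 := by
  rw [det_diagonal, Fin.prod_univ_six]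
  show 1 * -δ * 1 * -δ * 1 * -δ = -δ ^ 3
  ring

end main

section field

variable {K : Type u} [Field K] [Fintype K] [StarRing K]

/-- the field data -/
theorem exists_Dt {q : ℕ} (hF : H986.E.Fld K q) :
    ∃ (η : K) (δ : H281.fx K), Dt η δ ∧ ¬ IsSquare δ := by
  obtain ⟨hq, hK, hs⟩ := hF
  have hq2 : 2 ≤ q := by
    by_contra h
    have h1 : q = 1 := by
      obtain ⟨k, hk⟩ := hq
      omega
    rw [h1, one_pow, Nat.card_eq_fintype_card] at hK
    have := Fintype.one_lt_card (α := K)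
    omega
  have h2 : (2 : K) ≠ 0 := by
    intro h
    have hodd : Odd (Nat.card K) := by rw [hK]; exact hq.pow
    have hch : ringChar K = 2 := by
      have h1 : ringChar K ∣ 2 := by
        apply ringChar.dvd
        exact_mod_cast h
      rcases (Nat.dvd_prime Nat.prime_two).mp h1 with h1 | h1
      · exact absurd h1 (CharP.ringChar_ne_one)
      · exact h1
    have h3 := FiniteField.even_card_iff_char_two.mp hch
    rw [← Nat.card_eq_fintype_card] at h3
    rw [Nat.odd_iff] at hodd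
    omega
  obtain ⟨y, hy⟩ := H281.star_ne hq2 hK hs
  have he : star (y - star y) = -(y - star y) := by
    rw [star_sub, star_star]; ring
  have he0 : y - star y ≠ 0 := sub_ne_zero.2 (Ne.symm hy)
  have hδ : (y - star y) * (y - star y) ∈ H281.fx K := by
    rw [H281.mem_fx, star_mul', he]; ring
  refine ⟨y - star y, ⟨_, hδ⟩, ⟨fun x => x.2, fun z hz => ⟨⟨z, hz⟩, rfl⟩, he, he0, h2, rfl⟩, ?_⟩
  rintro ⟨s, hs'⟩
  have h3 : (y - star y) * (y - star y) = s.1 * s.1 := congrArg Subtype.val hs'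
  have h4 : (y - star y - s.1) * (y - star y + s.1) = 0 := by linear_combination h3
  have h5 : star (y - star y) = y - star y := by
    rcases mul_eq_zero.1 h4 with h | h
    · rw [sub_eq_zero.1 h]; exact s.2
    · rw [eq_neg_of_add_eq_zero_left h, star_neg]
      congr 1
      exact s.2
  have h6 : 2 * (y - star y) = 0 := by
    rw [he] at h5
    linear_combination -h5
  exact mul_ne_zero h2 he0 h6

/-- **`PSU_4(q)` is a group `PΩ` of dimension six over the field with `q` elements.** -/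
theorem psu4_POm {q : ℕ} (hF : H986.E.Fld K q) (hs : IsSimpleGroup (AS.PSU K 4)) :
    ∃ δ : H281.fx K, ¬ IsSquare δ ∧ Nat.card (H281.fx K) = q ∧
      Nonempty (AS.PSU K 4 ≃* POm (diagonal (dd δ))) := by
  obtain ⟨η, δ, hD, hδ⟩ := exists_Dt hF
  exact ⟨δ, hδ, H986.St.card_F0 hF.2.1 hF.2.2, psu4_iso hD hs⟩

/-- the form is congruent to `<1, ..., 1, -δ>` up to squares -/
theorem psu4_dl {q : ℕ} (hF : H986.E.Fld K q) (hs : IsSimpleGroup (AS.PSU K 4)) :
    ∃ δ : H281.fx K, ¬ IsSquare δ ∧ Nat.card (H281.fx K) = q ∧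
      ∀ D e : H281.fx K, e ≠ 0 → -δ ^ 3 = e * e * D → D ≠ 0 →
        Nonempty (AS.PSU K 4 ≃* POm (dl 5 D)) := by
  obtain ⟨δ, hδ, hc, ⟨f⟩⟩ := psu4_POm hF hs
  refine ⟨δ, hδ, hc, fun D e he hD hD0 => ?_⟩
  have h2 : (2 : H281.fx K) ≠ 0 := by
    obtain ⟨η, δ', hD', -⟩ := exists_Dt hF
    intro h
    apply hD'.two
    have := congrArg (algebraMap (H281.fx K) K) h
    rwa [map_ofNat, map_zero] at this
  have hp : ∏ j, dd δ j = e * e * D := by
    rw [← hD, ← dd_det, det_diagonal]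
  have hδ0 : δ ≠ 0 := by
    rintro rfl
    exact hδ ⟨0, by ring⟩
  have ha : ∀ i, dd δ i ≠ 0 := by
    intro i
    have h3 : ∏ j, dd δ j ≠ 0 := by
      rw [hp]
      exact mul_ne_zero (mul_ne_zero he he) hD0
    exact Finset.prod_ne_zero_iff.1 h3 i (Finset.mem_univ _)
  obtain ⟨M, hM⟩ := EH.exists_disc_sq h2 (Fin.last 5) (dd δ) ha he hp
  have hM' : Mᵀ * diagonal (dd δ) * M = dl 5 D := hM
  obtain ⟨P, hP⟩ := OF.exists_gl hM' (by rw [OF.dl_det]; exact hD0)
  obtain ⟨f'⟩ := OF.nonempty_POm (A := diagonal (dd δ)) (B := dl 5 D) (P := P) (c := 1)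
    one_ne_zero (by rw [one_smul, hP]; exact hM')
  exact ⟨f.trans f'⟩

lemma isSquare_or {E : Type*} [Field E] [Fintype E] (h2 : (2 : E) ≠ 0) {x y : E}
    (hx : ¬ IsSquare x) (hy : ¬ IsSquare y) : ∃ e : E, e ≠ 0 ∧ x = e * e * y := by
  classical
  have hx0 : x ≠ 0 := by
    rintro rfl
    exact hx ⟨0, by ring⟩
  have hy0 : y ≠ 0 := by
    rintro rfl
    exact hy ⟨0, by ring⟩
  have hF : ringChar E ≠ 2 := by
    intro h
    apply h2
    have h3 := ringChar.Nat.cast_ringChar (R := E)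
    rw [h] at h3
    exact_mod_cast h3
  have h3 : quadraticChar E (x * y) = 1 := by
    rw [map_mul, quadraticChar_neg_one_iff_not_isSquare.2 hx,
      quadraticChar_neg_one_iff_not_isSquare.2 hy]
    norm_num
  rw [quadraticChar_one_iff_isSquare (mul_ne_zero hx0 hy0)] at h3
  obtain ⟨s, hs⟩ := h3
  refine ⟨s / y, div_ne_zero ?_ hy0, ?_⟩
  · rintro rfl
    exact mul_ne_zero hx0 hy0 (by rw [hs, mul_zero])
  · field_simp
    linear_combination hs

/-- **`q ≡ 3 mod 4`**: `PSU_4(q)` is `PΩ` of the standard form -/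
theorem psu4_three {q : ℕ} (hF : H986.E.Fld K q) (hq : q % 4 = 3)
    (hs : IsSimpleGroup (AS.PSU K 4)) :
    Nat.card (H281.fx K) = q ∧
      Nonempty (AS.PSU K 4 ≃* POm (1 : Matrix (Fin 6) (Fin 6) (H281.fx K))) := by
  obtain ⟨δ, hδ, hc, h⟩ := psu4_dl hF hs
  refine ⟨hc, ?_⟩
  have hm1 : ¬ IsSquare (-1 : H281.fx K) := by
    rw [FiniteField.isSquare_neg_one_iff, ← Nat.card_eq_fintype_card, hc]
    omega
  have h2 : (2 : H281.fx K) ≠ 0 := by
    intro h3
    apply hm1
    have : (-1 : H281.fx K) = 1 := by linear_combination -h3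
    rw [this]
    exact ⟨1, by ring⟩
  obtain ⟨e, he0, he⟩ := isSquare_or h2 hδ hm1
  have hδ0 : δ ≠ 0 := by
    rintro rfl
    exact hδ ⟨0, by ring⟩
  have h3 := h 1 (e * δ) (mul_ne_zero he0 hδ0) (by
    linear_combination (-δ ^ 2) * he) one_ne_zero
  rw [OF.dl_one] at h3
  exact h3

/-- **`q ≡ 1 mod 4`**: `PSU_4(q)` is `PΩ` of the form `<1, ..., 1, d>`, `d` a nonsquare -/
theorem psu4_one {q : ℕ} (hF : H986.E.Fld K q) (hq : q % 4 = 1)
    (hs : IsSimpleGroup (AS.PSU K 4)) :
    Nat.card (H281.fx K) = q ∧ ∀ d : H281.fx K, ¬ IsSquare d →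
      Nonempty (AS.PSU K 4 ≃* POm (dl 5 d)) := by
  obtain ⟨δ, hδ, hc, h⟩ := psu4_dl hF hs
  refine ⟨hc, fun d hd => ?_⟩
  have h2 : (2 : H281.fx K) ≠ 0 := by
    obtain ⟨η, δ', hD', -⟩ := exists_Dt hF
    intro h
    apply hD'.two
    have := congrArg (algebraMap (H281.fx K) K) h
    rwa [map_ofNat, map_zero] at this
  have hm1 : IsSquare (-1 : H281.fx K) := by
    rw [FiniteField.isSquare_neg_one_iff, ← Nat.card_eq_fintype_card, hc]
    omega
  obtain ⟨i, hi⟩ := hm1
  obtain ⟨e, he0, he⟩ := isSquare_or h2 hδ hd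
  have hδ0 : δ ≠ 0 := by
    rintro rfl
    exact hδ ⟨0, by ring⟩
  have hi0 : i ≠ 0 := by
    rintro rfl
    rw [mul_zero, neg_eq_zero] at hi
    exact one_ne_zero hi
  have hd0 : d ≠ 0 := by
    rintro rfl
    exact hd ⟨0, by ring⟩
  exact h d (i * e * δ) (mul_ne_zero (mul_ne_zero hi0 he0) hδ0) (by
    linear_combination (-δ ^ 2) * he + (e ^ 2 * δ ^ 2 * d) * hi) hd0

end field

end

end Vale.Agent.P240.R2.H945.U4
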